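import Mathlib

/-!
# The Hénon-Lane-Emden system on `ℝⁿ`

Definition of a positive entire solution, with Mathlib's Laplacian.
-/

namespace Vale.Agent.Lib.P100

/-- A positive entire solution of `-Δu = |x|^A v^p`, `-Δv = |x|^B u^q` in `ℝⁿ \ {0}`:
both functions are continuous on `ℝⁿ`, of class `C²` on `ℝⁿ \ {0}`, everywhere positive, and
satisfy the two equations at every `x ≠ 0`. -/
structure IsPositiveEntireSolution (n : ℕ) (p q A B : ℝ)
    (u v : EuclideanSpace ℝ (Fin n) → ℝ) : Prop where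
  continuous_u : Continuous u
  continuous_v : Continuous v
  contDiffOn_u : ContDiffOn ℝ 2 u {0}ᶜ
  contDiffOn_v : ContDiffOn ℝ 2 v {0}ᶜ
  pos_u : ∀ x, 0 < u x
  pos_v : ∀ x, 0 < v x
  eq_u : ∀ x, x ≠ 0 → -(Laplacian.laplacian u x) = ‖x‖ ^ A * v x ^ p
  eq_v : ∀ x, x ≠ 0 → -(Laplacian.laplacian v x) = ‖x‖ ^ B * u x ^ q

end Vale.Agent.Lib.P100
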