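import Mathlib

/-!
# Radial Lane-Emden system: the ODE core

All arguments are elementary (mean value theorem + Pohozaev function).
-/

namespace Vale.Agent.Lib.P100

open Set Filter Topology Real

/-- The radial system on `(0, ∞)`. -/
structure RadSys (d : ℕ) (p q A B U0 V0 : ℝ) (U U₁ U₂ V V₁ V₂ : ℝ → ℝ) : Prop where
  hd : 1 ≤ d
  hp : 0 < p
  hq : 0 < q
  hU0 : 0 < U0
  hV0 : 0 < V0
  limU : Tendsto U (𝓝[>] 0) (𝓝 U0)
  limV : Tendsto V (𝓝[>] 0) (𝓝 V0)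
  posU : ∀ r, 0 < r → 0 < U r
  posV : ∀ r, 0 < r → 0 < V r
  dU : ∀ r, 0 < r → HasDerivAt U (U₁ r) r
  dV : ∀ r, 0 < r → HasDerivAt V (V₁ r) r
  dU₁ : ∀ r, 0 < r → HasDerivAt U₁ (U₂ r) r
  dV₁ : ∀ r, 0 < r → HasDerivAt V₁ (V₂ r) r
  eqU : ∀ r, 0 < r → U₂ r + d / r * U₁ r = - (r ^ A * V r ^ p)
  eqV : ∀ r, 0 < r → V₂ r + d / r * V₁ r = - (r ^ B * U r ^ q)

variable {d : ℕ} {p q A B U0 V0 : ℝ} {U U₁ U₂ V V₁ V₂ : ℝ → ℝ}

namespace RadSys

lemma swap (h : RadSys d p q A B U0 V0 U U₁ U₂ V V₁ V₂) :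
    RadSys d q p B A V0 U0 V V₁ V₂ U U₁ U₂ :=
  ⟨h.hd, h.hq, h.hp, h.hV0, h.hU0, h.limV, h.limU, h.posV, h.posU, h.dV, h.dU, h.dV₁, h.dU₁,
    h.eqV, h.eqU⟩

lemma contU (h : RadSys d p q A B U0 V0 U U₁ U₂ V V₁ V₂) : ContinuousOn U (Ioi 0) :=
  fun r hr => (h.dU r hr).continuousAt.continuousWithinAt

lemma hasDerivAt_G (h : RadSys d p q A B U0 V0 U U₁ U₂ V V₁ V₂) {r : ℝ} (hr : 0 < r) :
    HasDerivAt (fun r => r ^ d * U₁ r) (-(r ^ d * (r ^ A * V r ^ p))) r := by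
  have h1 : HasDerivAt (fun r => r ^ d * U₁ r) _ r := (hasDerivAt_pow d r).mul (h.dU₁ r hr)
  refine h1.congr_deriv ?_
  have h2 := h.eqU r hr
  have h3 : U₂ r = -(r ^ A * V r ^ p) - d / r * U₁ r := by linarith
  rw [h3]
  obtain ⟨m, rfl⟩ : ∃ m, d = m + 1 := ⟨d - 1, by have := h.hd; omega⟩
  have hr' : r ≠ 0 := hr.ne'
  simp only [Nat.add_sub_cancel]
  field_simp
  ring

lemma G_strictAnti (h : RadSys d p q A B U0 V0 U U₁ U₂ V V₁ V₂) :
    StrictAntiOn (fun r => r ^ d * U₁ r) (Ioi 0) := by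
  apply strictAntiOn_of_deriv_neg (convex_Ioi 0)
  · intro r hr
    exact (h.hasDerivAt_G hr).continuousAt.continuousWithinAt
  · intro r hr
    rw [interior_Ioi] at hr
    rw [(h.hasDerivAt_G hr).deriv]
    have hr' : (0:ℝ) < r := hr
    have := h.posV r hr'
    have h5 : 0 < r ^ d * (r ^ A * V r ^ p) := by positivity
    linarith

/-- `U` is bounded near `0`: there is no logarithmic blow-up. Key lemma used twice. -/
lemma U₁_neg (h : RadSys d p q A B U0 V0 U U₁ U₂ V V₁ V₂) {r₀ : ℝ} (hr₀ : 0 < r₀) :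
    U₁ r₀ < 0 := by
  by_contra hcon
  push Not at hcon
  set r₁ := min (r₀ / 2) 1 with hr₁def
  have hr₁ : 0 < r₁ := lt_min (by linarith) one_pos
  have hr₁le : r₁ ≤ 1 := min_le_right _ _
  have hr₁lt : r₁ < r₀ := lt_of_le_of_lt (min_le_left _ _) (by linarith)
  have hG : r₀ ^ d * U₁ r₀ < r₁ ^ d * U₁ r₁ := h.G_strictAnti (mem_Ioi.2 hr₁) (mem_Ioi.2 hr₀) hr₁lt
  have hG0 : 0 ≤ r₀ ^ d * U₁ r₀ := mul_nonneg (pow_nonneg hr₀.le _) hcon
  set c := r₁ ^ d * U₁ r₁ with hc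
  have hcpos : 0 < c := by linarith
  -- for `r ∈ (0, r₁]`: `U₁ r ≥ c / r`
  have hbound : ∀ r, 0 < r → r ≤ r₁ → c / r ≤ U₁ r := by
    intro r hr hrle
    have h1 : c ≤ r ^ d * U₁ r := by
      rcases hrle.eq_or_lt with rfl | hlt
      · exact le_rfl
      · exact (h.G_strictAnti (mem_Ioi.2 hr) (mem_Ioi.2 hr₁) hlt).le
    have hrle1 : r ≤ 1 := hrle.trans hr₁le
    have h2 : r ^ d ≤ r := by
      calc r ^ d ≤ r ^ 1 := pow_le_pow_of_le_one hr.le hrle1 h.hd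
        _ = r := pow_one r
    have hpos : 0 < U₁ r := by
      by_contra hn
      push Not at hn
      have : r ^ d * U₁ r ≤ 0 := mul_nonpos_of_nonneg_of_nonpos (pow_nonneg hr.le _) hn
      linarith
    rw [div_le_iff₀ hr]
    calc c ≤ r ^ d * U₁ r := h1
      _ ≤ r * U₁ r := by gcongr
      _ = U₁ r * r := mul_comm _ _
  -- monotonicity of `U - c log`
  have hmono : MonotoneOn (fun r => U r - c * Real.log r) (Ioc 0 r₁) := by
    apply monotoneOn_of_deriv_nonneg (convex_Ioc 0 r₁)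
    · intro r hr
      have hr' := hr.1
      have : HasDerivAt (fun r => U r - c * Real.log r) (U₁ r - c * r⁻¹) r :=
        (h.dU r hr').sub ((Real.hasDerivAt_log hr'.ne').const_mul c)
      exact this.continuousAt.continuousWithinAt
    · intro r hr
      rw [interior_Ioc] at hr
      have hr' := hr.1
      have : HasDerivAt (fun r => U r - c * Real.log r) (U₁ r - c * r⁻¹) r :=
        (h.dU r hr').sub ((Real.hasDerivAt_log hr'.ne').const_mul c)
      exact this.differentiableAt.differentiableWithinAt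
    · intro r hr
      rw [interior_Ioc] at hr
      have hr' := hr.1
      have h4 : HasDerivAt (fun r => U r - c * Real.log r) (U₁ r - c * r⁻¹) r :=
        (h.dU r hr').sub ((Real.hasDerivAt_log hr'.ne').const_mul c)
      rw [h4.deriv]
      have := hbound r hr' hr.2.le
      rw [div_eq_mul_inv] at this
      linarith
  -- contradiction as `r → 0`
  have hlog : Tendsto Real.log (𝓝[>] 0) atBot := Real.tendsto_log_nhdsGT_zero
  have hev : ∀ᶠ r in 𝓝[>] (0:ℝ), Real.log r < -(U r₁ - c * Real.log r₁) / c ∧ 0 < r ∧ r < r₁ := by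
    have h1 := hlog.eventually (eventually_lt_atBot (-(U r₁ - c * Real.log r₁) / c))
    have h2 : ∀ᶠ r in 𝓝[>] (0:ℝ), r ∈ Ioo 0 r₁ := Ioo_mem_nhdsGT hr₁
    filter_upwards [h1, h2] with r a b using ⟨a, b.1, b.2⟩
  obtain ⟨r, hr1, hr2, hr3⟩ := hev.exists
  have h5 := hmono (mem_Ioc.2 ⟨hr2, hr3.le⟩) (mem_Ioc.2 ⟨hr₁, le_rfl⟩) hr3.le
  simp only at h5
  have h6 := h.posU r hr2
  rw [lt_div_iff₀ hcpos] at hr1
  nlinarith

lemma U_strictAnti (h : RadSys d p q A B U0 V0 U U₁ U₂ V V₁ V₂) : StrictAntiOn U (Ioi 0) := by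
  apply strictAntiOn_of_deriv_neg (convex_Ioi 0) h.contU
  intro r hr
  rw [interior_Ioi] at hr
  rw [(h.dU r hr).deriv]
  exact h.U₁_neg hr

lemma U_le_U0 (h : RadSys d p q A B U0 V0 U U₁ U₂ V V₁ V₂) {r : ℝ} (hr : 0 < r) : U r ≤ U0 := by
  apply ge_of_tendsto h.limU
  have h2 : ∀ᶠ s in 𝓝[>] (0:ℝ), s ∈ Ioo 0 r := Ioo_mem_nhdsGT hr
  filter_upwards [h2] with s hs
  exact (h.U_strictAnti (mem_Ioi.2 hs.1) (mem_Ioi.2 hr) hs.2).le

/-- Comparison constant for powers on a dyadic range. -/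
lemma rpow_lower {A r s : ℝ} (hr : 0 < r) (h1 : r / 2 ≤ s) (h2 : s ≤ 2 * r) :
    min ((1/2:ℝ) ^ A) ((2:ℝ) ^ A) * r ^ A ≤ s ^ A := by
  have hs : 0 < s := by linarith
  rcases le_total 0 A with hA | hA
  · calc min ((1/2:ℝ) ^ A) ((2:ℝ) ^ A) * r ^ A ≤ (1/2:ℝ) ^ A * r ^ A := by
          gcongr; exact min_le_left _ _
      _ = (r / 2) ^ A := by
          rw [← Real.mul_rpow (by norm_num) hr.le]; congr 1; ring
      _ ≤ s ^ A := Real.rpow_le_rpow (by positivity) h1 hA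
  · calc min ((1/2:ℝ) ^ A) ((2:ℝ) ^ A) * r ^ A ≤ (2:ℝ) ^ A * r ^ A := by
          gcongr; exact min_le_right _ _
      _ = (2 * r) ^ A := by
          rw [← Real.mul_rpow (by norm_num) hr.le]
      _ ≤ s ^ A := Real.rpow_le_rpow_of_nonpos hs h2 hA

lemma min_pos_const (A : ℝ) : 0 < min ((1/2:ℝ) ^ A) ((2:ℝ) ^ A) :=
  lt_min (by positivity) (by positivity)

/-- First key inequality: `-U₁ r ≥ c₁ r^(A+1) V(r)^p`. -/
lemma U₁_bound (h : RadSys d p q A B U0 V0 U U₁ U₂ V V₁ V₂) :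
    ∃ c₁ > 0, ∀ r, 0 < r → c₁ * r ^ (A + 1) * V r ^ p ≤ - U₁ r := by
  set m := min ((1/2:ℝ) ^ A) ((2:ℝ) ^ A) with hm
  have hmpos : 0 < m := min_pos_const A
  refine ⟨m * (1/2) ^ (d + 1), by positivity, ?_⟩
  intro r hr
  -- mean value theorem for `G` on `[r/2, r]`
  have hr2 : r / 2 < r := by linarith
  have hcont : ContinuousOn (fun r => r ^ d * U₁ r) (Icc (r / 2) r) := fun s hs =>
    (h.hasDerivAt_G (by linarith [hs.1] : 0 < s)).continuousAt.continuousWithinAt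
  obtain ⟨ξ, hξ, hξeq⟩ := exists_hasDerivAt_eq_slope (fun r => r ^ d * U₁ r)
    (fun s => -(s ^ d * (s ^ A * V s ^ p))) hr2 hcont
    (fun s hs => h.hasDerivAt_G (by linarith [hs.1] : 0 < s))
  have hξ0 : 0 < ξ := by linarith [hξ.1]
  have hG1 : (r / 2) ^ d * U₁ (r / 2) < 0 :=
    mul_neg_of_pos_of_neg (by positivity) (h.U₁_neg (by linarith))
  have hVmono : V r ≤ V ξ := (h.swap.U_strictAnti (mem_Ioi.2 hξ0) (mem_Ioi.2 hr) hξ.2).le
  have hVpow : V r ^ p ≤ V ξ ^ p :=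
    Real.rpow_le_rpow (h.posV r hr).le hVmono h.hp.le
  have hξA : m * r ^ A ≤ ξ ^ A := rpow_lower hr hξ.1.le (by linarith [hξ.2])
  have hξd : (r / 2) ^ d ≤ ξ ^ d := by
    have : r / 2 ≤ ξ := hξ.1.le
    gcongr
  have hslope : (r ^ d * U₁ r - (r / 2) ^ d * U₁ (r / 2)) =
      -(ξ ^ d * (ξ ^ A * V ξ ^ p)) * (r / 2) := by
    rw [hξeq]
    field_simp
    ring
  have hGr : r ^ d * U₁ r ≤ -(ξ ^ d * (ξ ^ A * V ξ ^ p)) * (r / 2) := by linarith
  have hlow : (r / 2) ^ d * (m * r ^ A * V r ^ p) ≤ ξ ^ d * (ξ ^ A * V ξ ^ p) := by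
    have hVp : 0 ≤ V r ^ p := Real.rpow_nonneg (h.posV r hr).le _
    have hA0 : 0 ≤ m * r ^ A := by positivity
    gcongr
  have hfinal : r ^ d * U₁ r ≤ -((r / 2) ^ d * (m * r ^ A * V r ^ p)) * (r / 2) := by
    have : 0 < r / 2 := by linarith
    nlinarith
  have hrd : 0 < r ^ d := by positivity
  have heq : ((r / 2) ^ d * (m * r ^ A * V r ^ p)) * (r / 2) =
      r ^ d * (m * (1 / 2) ^ (d + 1) * r ^ (A + 1) * V r ^ p) := by
    rw [Real.rpow_add hr, Real.rpow_one, div_pow, one_div_pow]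
    field_simp
    ring
  have : r ^ d * (m * (1 / 2) ^ (d + 1) * r ^ (A + 1) * V r ^ p) ≤ r ^ d * (- U₁ r) := by
    rw [← heq]
    nlinarith
  exact le_of_mul_le_mul_left this hrd

/-- Second key inequality: `U r - U (2 r) ≥ c₂ r^(A+2) V(2 r)^p`. -/
lemma U_step (h : RadSys d p q A B U0 V0 U U₁ U₂ V V₁ V₂) :
    ∃ c₂ > 0, ∀ r, 0 < r → c₂ * r ^ (A + 2) * V (2 * r) ^ p ≤ U r - U (2 * r) := by
  obtain ⟨c₁, hc₁, hb⟩ := h.U₁_bound
  set m := min ((1/2:ℝ) ^ (A + 1)) ((2:ℝ) ^ (A + 1)) with hm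
  have hmpos : 0 < m := min_pos_const (A + 1)
  refine ⟨c₁ * m, by positivity, ?_⟩
  intro r hr
  have hr2 : r < 2 * r := by linarith
  have hcont : ContinuousOn U (Icc r (2 * r)) := fun s hs =>
    (h.dU s (by linarith [hs.1])).continuousAt.continuousWithinAt
  obtain ⟨ξ, hξ, hξeq⟩ := exists_hasDerivAt_eq_slope U U₁ hr2 hcont
    (fun s hs => h.dU s (by linarith [hs.1]))
  have hξ0 : 0 < ξ := by linarith [hξ.1]
  have h1 := hb ξ hξ0
  have hVmono : V (2 * r) ≤ V ξ :=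
    (h.swap.U_strictAnti (mem_Ioi.2 hξ0) (mem_Ioi.2 (by linarith)) hξ.2).le
  have hVpow : V (2 * r) ^ p ≤ V ξ ^ p :=
    Real.rpow_le_rpow (h.posV _ (by linarith)).le hVmono h.hp.le
  have hξA : m * r ^ (A + 1) ≤ ξ ^ (A + 1) :=
    rpow_lower hr (by linarith [hξ.1]) (by linarith [hξ.2])
  have hslope : U (2 * r) - U r = U₁ ξ * r := by
    rw [hξeq]
    field_simp
    ring
  have hV0 : 0 ≤ V (2 * r) ^ p := Real.rpow_nonneg (h.posV _ (by linarith)).le _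
  have hk : c₁ * (m * r ^ (A + 1)) * V (2 * r) ^ p ≤ c₁ * ξ ^ (A + 1) * V ξ ^ p := by
    have h0 : 0 ≤ m * r ^ (A + 1) := by positivity
    gcongr
  have heq : c₁ * m * r ^ (A + 2) * V (2 * r) ^ p =
      (c₁ * (m * r ^ (A + 1)) * V (2 * r) ^ p) * r := by
    have : A + 2 = (A + 1) + 1 := by ring
    rw [this, Real.rpow_add hr, Real.rpow_one]
    ring
  rw [heq]
  have : (c₁ * (m * r ^ (A + 1)) * V (2 * r) ^ p) * r ≤ (- U₁ ξ) * r := by
    gcongr
    linarith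
  linarith

/-- The weight exponent exceeds `-2`. -/
lemma A_gt (h : RadSys d p q A B U0 V0 U U₁ U₂ V V₁ V₂) : -2 < A := by
  by_contra hA
  push Not at hA
  obtain ⟨c₂, hc₂, hstep⟩ := h.U_step
  -- lower bound `κ > 0` on the right side for small `r`
  set κ := c₂ * V 1 ^ p with hκ
  have hκpos : 0 < κ := by
    have := h.posV 1 one_pos
    positivity
  have hlow : ∀ r, 0 < r → r ≤ 1 / 2 → κ ≤ U r - U (2 * r) := by
    intro r hr hr2
    have h1 := hstep r hr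
    have h2 : 1 ≤ r ^ (A + 2) :=
      Real.one_le_rpow_of_pos_of_le_one_of_nonpos hr (by linarith) (by linarith)
    have h3 : V 1 ≤ V (2 * r) := by
      rcases (by linarith : 2 * r ≤ 1).eq_or_lt with he | hlt
      · rw [he]
      · exact (h.swap.U_strictAnti (mem_Ioi.2 (by linarith)) (mem_Ioi.2 one_pos) hlt).le
    have h4 : V 1 ^ p ≤ V (2 * r) ^ p :=
      Real.rpow_le_rpow (h.posV 1 one_pos).le h3 h.hp.le
    have h5 : 0 ≤ V 1 ^ p := Real.rpow_nonneg (h.posV 1 one_pos).le _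
    calc κ = c₂ * 1 * V 1 ^ p := by rw [hκ]; ring
      _ ≤ c₂ * r ^ (A + 2) * V (2 * r) ^ p := by gcongr
      _ ≤ _ := h1
  -- limit
  have hlim1 : Tendsto (fun r => U r - U (2 * r)) (𝓝[>] 0) (𝓝 (U0 - U0)) := by
    apply h.limU.sub
    have : Tendsto (fun r : ℝ => 2 * r) (𝓝[>] 0) (𝓝[>] 0) := by
      apply tendsto_nhdsWithin_iff.2
      constructor
      · have : Tendsto (fun r : ℝ => 2 * r) (𝓝[>] 0) (𝓝 (2 * 0)) :=
          (tendsto_id.mono_left nhdsWithin_le_nhds).const_mul 2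
        simpa using this
      · filter_upwards [self_mem_nhdsWithin] with r hr
        exact mem_Ioi.2 (by have : (0:ℝ) < r := hr; linarith)
    exact h.limU.comp this
  have hge : ∀ᶠ r in 𝓝[>] (0:ℝ), κ ≤ U r - U (2 * r) := by
    have h2 : ∀ᶠ s in 𝓝[>] (0:ℝ), s ∈ Ioo 0 (1/2:ℝ) := Ioo_mem_nhdsGT (by norm_num)
    filter_upwards [h2] with s hs using hlow s hs.1 hs.2.le
  have := ge_of_tendsto hlim1 hge
  simp at this
  linarith


/-- Polynomial lower bound for `U` at infinity. -/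
lemma U_lower (h : RadSys d p q A B U0 V0 U U₁ U₂ V V₁ V₂) :
    ∃ c > 0, ∀ r, 1 ≤ r → c * r ^ (-((d:ℝ) - 1)) ≤ U r := by
  have hg : U₁ 1 < 0 := h.U₁_neg one_pos
  refine ⟨(- U₁ 1) * (1/2) ^ d, by have : 0 < - U₁ 1 := by linarith
                                   positivity, ?_⟩
  intro r hr
  have hr0 : 0 < r := by linarith
  have hr2 : r < 2 * r := by linarith
  have hcont : ContinuousOn U (Icc r (2 * r)) := fun s hs =>
    (h.dU s (by linarith [hs.1])).continuousAt.continuousWithinAt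
  obtain ⟨ξ, hξ, hξeq⟩ := exists_hasDerivAt_eq_slope U U₁ hr2 hcont
    (fun s hs => h.dU s (by linarith [hs.1]))
  have hξ0 : 0 < ξ := by linarith [hξ.1]
  have hslope : U (2 * r) - U r = U₁ ξ * r := by
    rw [hξeq]
    field_simp
    ring
  have hU2 := h.posU (2 * r) (by linarith)
  have hξ1 : 1 < ξ := by linarith [hξ.1]
  have hG : ξ ^ d * U₁ ξ < 1 ^ d * U₁ 1 :=
    h.G_strictAnti (mem_Ioi.2 one_pos) (mem_Ioi.2 hξ0) hξ1
  rw [one_pow, one_mul] at hG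
  have hξd : ξ ^ d ≤ (2 * r) ^ d := by
    have : ξ ≤ 2 * r := hξ.2.le
    gcongr
  -- `- U₁ ξ * (2 r)^d ≥ - U₁ 1`
  have hneg : 0 < - U₁ ξ := by have := h.U₁_neg hξ0; linarith
  have h3 : - U₁ 1 ≤ (- U₁ ξ) * (2 * r) ^ d := by
    have : (- U₁ ξ) * ξ ^ d ≤ (- U₁ ξ) * (2 * r) ^ d := by gcongr
    nlinarith
  have hUr : (- U₁ ξ) * r ≤ U r := by nlinarith
  -- final algebra
  have hrd : r ^ (-((d:ℝ) - 1)) = r / r ^ d := by
    have : -((d:ℝ) - 1) = 1 - d := by ring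
    rw [this, Real.rpow_sub hr0, Real.rpow_one, Real.rpow_natCast]
  rw [hrd]
  have h2d : (2 * r) ^ d = 2 ^ d * r ^ d := mul_pow _ _ _
  have h2d' : (0:ℝ) < 2 ^ d * r ^ d := by positivity
  have hrdp : 0 < r ^ d := by positivity
  have h4 : (- U₁ 1) * (1 / 2) ^ d * (r / r ^ d) = (- U₁ 1) / (2 ^ d * r ^ d) * r := by
    rw [one_div_pow]
    field_simp
  rw [h4]
  have h5 : (- U₁ 1) / (2 ^ d * r ^ d) ≤ - U₁ ξ := by
    rw [div_le_iff₀ h2d', ← h2d]
    exact h3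
  calc (- U₁ 1) / (2 ^ d * r ^ d) * r ≤ (- U₁ ξ) * r := by gcongr
    _ ≤ U r := hUr

/-- Recurrence: `U r ≥ C r^γ U(4 r)^(p q)`. -/
lemma U_rec (h : RadSys d p q A B U0 V0 U U₁ U₂ V V₁ V₂) :
    ∃ C > 0, ∀ r, 0 < r → C * r ^ (A + 2 + p * (B + 2)) * U (4 * r) ^ (p * q) ≤ U r := by
  obtain ⟨c, hc, hstep⟩ := h.U_step
  obtain ⟨c', hc', hstep'⟩ := h.swap.U_step
  have hp := h.hp
  refine ⟨c * c' ^ p * 2 ^ ((B + 2) * p), by positivity, ?_⟩
  intro r hr
  have h2r : 0 < 2 * r := by linarith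
  have h4r : 0 < 4 * r := by linarith
  have h1 := hstep r hr
  have h2 := hstep' (2 * r) h2r
  have hU2 := h.posU (2 * r) h2r
  have hV4 := h.posV (2 * (2 * r)) (by linarith)
  have hU4 := h.posU (4 * r) h4r
  have hV2 := h.posV (2 * r) h2r
  have h4eq : 2 * (2 * r) = 4 * r := by ring
  rw [h4eq] at h2 hV4
  have h3 : c' * (2 * r) ^ (B + 2) * U (4 * r) ^ q ≤ V (2 * r) := by
    linarith
  have h4 : (c' * (2 * r) ^ (B + 2) * U (4 * r) ^ q) ^ p ≤ V (2 * r) ^ p :=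
    Real.rpow_le_rpow (by positivity) h3 hp.le
  have h5 : (c' * (2 * r) ^ (B + 2) * U (4 * r) ^ q) ^ p =
      c' ^ p * (2 ^ ((B + 2) * p) * r ^ ((B + 2) * p)) * U (4 * r) ^ (p * q) := by
    rw [Real.mul_rpow (by positivity) (by positivity), Real.mul_rpow (by positivity) (by positivity),
      ← Real.rpow_mul hU4.le, mul_comm q p, ← Real.rpow_mul h2r.le, Real.mul_rpow (by norm_num) hr.le]
  rw [h5] at h4
  have h6 : r ^ (A + 2 + p * (B + 2)) = r ^ (A + 2) * r ^ ((B + 2) * p) := by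
    rw [← Real.rpow_add hr]; congr 1; ring
  rw [h6]
  have hUr : c * r ^ (A + 2) * V (2 * r) ^ p ≤ U r := by linarith
  calc c * c' ^ p * 2 ^ ((B + 2) * p) * (r ^ (A + 2) * r ^ ((B + 2) * p)) * U (4 * r) ^ (p * q)
      = c * r ^ (A + 2) * (c' ^ p * (2 ^ ((B + 2) * p) * r ^ ((B + 2) * p)) * U (4 * r) ^ (p * q)) := by
        ring
    _ ≤ c * r ^ (A + 2) * V (2 * r) ^ p := by gcongr
    _ ≤ U r := hUr

/-- The case `p q ≤ 1`. -/
lemma false_of_pq_le (h : RadSys d p q A B U0 V0 U U₁ U₂ V V₁ V₂) (hpq : p * q ≤ 1) : False := by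
  have hA := h.A_gt
  have hB := h.swap.A_gt
  have hp := h.hp
  have hq := h.hq
  set γ := A + 2 + p * (B + 2) with hγ
  have hγpos : 0 < γ := by
    have : 0 < p * (B + 2) := mul_pos hp (by linarith)
    rw [hγ]; linarith
  obtain ⟨C, hC, hrec⟩ := h.U_rec
  -- a growing lower bound is impossible
  have hneg : ∀ e : ℝ, e < 0 → ∀ c > 0, (∀ r, 1 ≤ r → c * r ^ (-e) ≤ U r) → False := by
    intro e he c hc hbd
    have ht : Tendsto (fun x : ℝ => x ^ (-e)) atTop atTop :=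
      tendsto_rpow_atTop (by linarith)
    have hev := (ht.eventually (eventually_gt_atTop (U0 / c))).and (eventually_ge_atTop (1:ℝ))
    obtain ⟨r, hr1, hr2⟩ := hev.exists
    have h1 := hbd r hr2
    have h2 := h.U_le_U0 (by linarith : 0 < r)
    rw [div_lt_iff₀ hc] at hr1
    nlinarith
  -- step of the iteration
  have hstep : ∀ e : ℝ, (∃ c > 0, ∀ r, 1 ≤ r → c * r ^ (-e) ≤ U r) →
      ∃ c > 0, ∀ r, 1 ≤ r → c * r ^ (-(e - γ)) ≤ U r := by
    intro e ⟨c, hc, hbd⟩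
    rcases lt_or_ge e 0 with he | he
    · exact (hneg e he c hc hbd).elim
    refine ⟨C * (c * 4 ^ (-e)) ^ (p * q), by positivity, ?_⟩
    intro r hr
    have hr0 : 0 < r := by linarith
    have h4r : 1 ≤ 4 * r := by linarith
    have h1 := hbd (4 * r) h4r
    have hpq0 : 0 < p * q := mul_pos hp hq
    have h2 := hrec r hr0
    have h3 : (c * (4 * r) ^ (-e)) ^ (p * q) ≤ U (4 * r) ^ (p * q) :=
      Real.rpow_le_rpow (by positivity) h1 hpq0.le
    have h4 : (c * (4 * r) ^ (-e)) ^ (p * q) = (c * 4 ^ (-e)) ^ (p * q) * r ^ (-e * (p * q)) := by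
      rw [Real.mul_rpow (by norm_num) hr0.le, ← mul_assoc,
        Real.mul_rpow (by positivity) (by positivity), ← Real.rpow_mul hr0.le]
    rw [h4] at h3
    have h5 : r ^ (-(e - γ)) ≤ r ^ γ * r ^ (-e * (p * q)) := by
      rw [← Real.rpow_add hr0]
      apply Real.rpow_le_rpow_of_exponent_le hr
      have : e * (p * q) ≤ e * 1 := by gcongr
      linarith
    calc C * (c * 4 ^ (-e)) ^ (p * q) * r ^ (-(e - γ))
        ≤ C * (c * 4 ^ (-e)) ^ (p * q) * (r ^ γ * r ^ (-e * (p * q))) := by gcongr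
      _ = C * r ^ γ * ((c * 4 ^ (-e)) ^ (p * q) * r ^ (-e * (p * q))) := by ring
      _ ≤ C * r ^ γ * U (4 * r) ^ (p * q) := by gcongr
      _ ≤ U r := h2
  -- iterate
  have hiter : ∀ k : ℕ, ∃ c > 0, ∀ r, 1 ≤ r → c * r ^ (-((d:ℝ) - 1 - k * γ)) ≤ U r := by
    intro k
    induction k with
    | zero =>
      obtain ⟨c, hc, hb⟩ := h.U_lower
      refine ⟨c, hc, ?_⟩
      intro r hr
      simpa using hb r hr
    | succ k ih =>
      have := hstep _ ih
      obtain ⟨c, hc, hb⟩ := this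
      refine ⟨c, hc, ?_⟩
      intro r hr
      have e1 : -((d:ℝ) - 1 - (k + 1 : ℕ) * γ) = -((d:ℝ) - 1 - k * γ - γ) := by
        push_cast; ring
      rw [e1]
      exact hb r hr
  obtain ⟨k, hk⟩ := exists_nat_gt (((d:ℝ) - 1) / γ)
  rw [div_lt_iff₀ hγpos] at hk
  obtain ⟨c, hc, hb⟩ := hiter k
  exact hneg _ (by linarith) c hc hb

/-- The sharp upper bound for `p q > 1`. -/
lemma U_upper (h : RadSys d p q A B U0 V0 U U₁ U₂ V V₁ V₂) (hpq : 1 < p * q) :
    ∃ K > 0, ∀ r, 1 ≤ r → U r ≤ K * r ^ (-((A + 2 + p * (B + 2)) / (p * q - 1))) := by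
  have hA := h.A_gt
  have hB := h.swap.A_gt
  have hp := h.hp
  have hq := h.hq
  have hU0 := h.hU0
  set γ := A + 2 + p * (B + 2) with hγ
  have hγpos : 0 < γ := by
    have : 0 < p * (B + 2) := mul_pos hp (by linarith)
    rw [hγ]; linarith
  set θ := p * q with hθ
  have hθ1 : 0 < θ - 1 := by linarith
  have hθ0 : 0 < θ := by linarith
  set α := γ / (θ - 1) with hα
  have hαpos : 0 < α := div_pos hγpos hθ1
  have hαθ : α * θ - γ = α := by
    rw [hα]; field_simp; ring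
  obtain ⟨C, hC, hrec⟩ := h.U_rec
  set C' := 4 ^ (α * θ) / C with hC'
  have hC'pos : 0 < C' := by positivity
  -- the functional inequality
  have hW : ∀ r, 0 < r → ((4 * r) ^ α * U (4 * r)) ^ θ ≤ C' * (r ^ α * U r) := by
    intro r hr
    have h4r : 0 < 4 * r := by linarith
    have hU4 := h.posU (4 * r) h4r
    have hUr := h.posU r hr
    have h1 := hrec r hr
    have h2 : ((4 * r) ^ α * U (4 * r)) ^ θ =
        4 ^ (α * θ) * r ^ (α * θ) * U (4 * r) ^ θ := by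
      rw [Real.mul_rpow (by positivity) hU4.le, ← Real.rpow_mul h4r.le,
        Real.mul_rpow (by norm_num) hr.le]
    rw [h2]
    have h3 : r ^ (α * θ) = r ^ α * r ^ γ := by
      rw [← Real.rpow_add hr]; congr 1; linarith
    rw [h3, hC']
    have hrα : 0 < r ^ α := by positivity
    have h4 : 4 ^ (α * θ) * (r ^ α * r ^ γ) * U (4 * r) ^ θ =
        (4 ^ (α * θ) / C) * r ^ α * (C * r ^ γ * U (4 * r) ^ θ) := by
      field_simp
    rw [h4]
    have hpos' : 0 < 4 ^ (α * θ) / C * r ^ α := by positivity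
    calc 4 ^ (α * θ) / C * r ^ α * (C * r ^ γ * U (4 * r) ^ θ)
        ≤ 4 ^ (α * θ) / C * r ^ α * U r := by gcongr
      _ = 4 ^ (α * θ) / C * (r ^ α * U r) := by ring
  -- the bound
  set K := max 1 (max (4 ^ α * U0) (C' ^ (1 / (θ - 1)))) with hK
  have hK1 : 1 ≤ K := le_max_left _ _
  have hK0 : 0 < K := by linarith
  have hK2 : 4 ^ α * U0 ≤ K := (le_max_left _ _).trans (le_max_right _ _)
  have hK3 : C' ≤ K ^ (θ - 1) := by
    have h5 : C' ^ (1 / (θ - 1)) ≤ K := (le_max_right _ _).trans (le_max_right _ _)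
    have h6 : (C' ^ (1 / (θ - 1))) ^ (θ - 1) ≤ K ^ (θ - 1) :=
      Real.rpow_le_rpow (by positivity) h5 hθ1.le
    rwa [← Real.rpow_mul hC'pos.le, one_div, inv_mul_cancel₀ hθ1.ne', Real.rpow_one] at h6
  have hmain : ∀ k : ℕ, ∀ r, 1 ≤ r → r ≤ 4 ^ k → r ^ α * U r ≤ K := by
    intro k
    induction k with
    | zero =>
      intro r hr hr2
      rw [pow_zero] at hr2
      have : r = 1 := le_antisymm hr2 hr
      subst this
      have h1 := h.U_le_U0 one_pos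
      rw [Real.one_rpow, one_mul]
      have h2 : (1:ℝ) ≤ 4 ^ α := Real.one_le_rpow (by norm_num) hαpos.le
      nlinarith
    | succ k ih =>
      intro r hr hr2
      have hr0 : 0 < r := by linarith
      rcases le_or_gt r 4 with hr4 | hr4
      · have h1 := h.U_le_U0 hr0
        have h2 : r ^ α ≤ 4 ^ α := Real.rpow_le_rpow hr0.le hr4 hαpos.le
        have hU := h.posU r hr0
        calc r ^ α * U r ≤ 4 ^ α * U0 := by gcongr
          _ ≤ K := hK2
      · have hr4' : 1 ≤ r / 4 := by linarith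
        have hr4'' : r / 4 ≤ 4 ^ k := by
          rw [pow_succ] at hr2
          linarith
        have h1 := ih (r / 4) hr4' hr4''
        have h2 := hW (r / 4) (by linarith)
        have he : 4 * (r / 4) = r := by ring
        rw [he] at h2
        have hU := h.posU r hr0
        have h3 : (r ^ α * U r) ^ θ ≤ K ^ θ := by
          calc (r ^ α * U r) ^ θ ≤ C' * ((r / 4) ^ α * U (r / 4)) := h2
            _ ≤ K ^ (θ - 1) * K := by
                apply mul_le_mul hK3 h1 _ (by positivity)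
                have := h.posU (r / 4) (by linarith)
                positivity
            _ = K ^ θ := by
                rw [← Real.rpow_add_one hK0.ne']
                congr 1; ring
        exact (Real.rpow_le_rpow_iff (by positivity) hK0.le hθ0).1 h3
  refine ⟨K, hK0, ?_⟩
  intro r hr
  have hr0 : 0 < r := by linarith
  obtain ⟨k, hk⟩ := pow_unbounded_of_one_lt r (by norm_num : (1:ℝ) < 4)
  have h1 := hmain k r hr hk.le
  rw [Real.rpow_neg hr0.le]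
  have hrα : 0 < r ^ α := by positivity
  rw [← div_eq_mul_inv, le_div_iff₀ hrα]
  linarith

/-- `- U₁ r * r ≤ 2^d * U r`. -/
lemma U₁_upper (h : RadSys d p q A B U0 V0 U U₁ U₂ V V₁ V₂) {r : ℝ} (hr : 0 < r) :
    (- U₁ r) * r ≤ 2 ^ d * U r := by
  have hr2 : r < 2 * r := by linarith
  have hcont : ContinuousOn U (Icc r (2 * r)) := fun s hs =>
    (h.dU s (by linarith [hs.1])).continuousAt.continuousWithinAt
  obtain ⟨ξ, hξ, hξeq⟩ := exists_hasDerivAt_eq_slope U U₁ hr2 hcont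
    (fun s hs => h.dU s (by linarith [hs.1]))
  have hξ0 : 0 < ξ := by linarith [hξ.1]
  have hslope : U (2 * r) - U r = U₁ ξ * r := by
    rw [hξeq]
    field_simp
    ring
  have hU2 := h.posU (2 * r) (by linarith)
  have hG : ξ ^ d * U₁ ξ < r ^ d * U₁ r :=
    h.G_strictAnti (mem_Ioi.2 hr) (mem_Ioi.2 hξ0) hξ.1
  have hξd : ξ ^ d ≤ (2 * r) ^ d := by
    have : ξ ≤ 2 * r := hξ.2.le
    gcongr
  have hneg : 0 < - U₁ ξ := by have := h.U₁_neg hξ0; linarith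
  have h3 : (- U₁ r) * r ^ d ≤ (- U₁ ξ) * (2 * r) ^ d := by
    have : (- U₁ ξ) * ξ ^ d ≤ (- U₁ ξ) * (2 * r) ^ d := by gcongr
    nlinarith
  rw [mul_pow] at h3
  have hrd : 0 < r ^ d := by positivity
  have h4 : (- U₁ r) ≤ (- U₁ ξ) * 2 ^ d := by
    have : (- U₁ r) * r ^ d ≤ ((- U₁ ξ) * 2 ^ d) * r ^ d := by linarith [h3]
    exact le_of_mul_le_mul_right this hrd
  have hUr : (- U₁ ξ) * r ≤ U r := by nlinarith
  calc (- U₁ r) * r ≤ (- U₁ ξ) * 2 ^ d * r := by gcongr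
    _ = 2 ^ d * ((- U₁ ξ) * r) := by ring
    _ ≤ 2 ^ d * U r := by gcongr

/-- `r^d U₁(r) → 0` as `r → 0+`. -/
lemma G_small (h : RadSys d p q A B U0 V0 U U₁ U₂ V V₁ V₂) {ε : ℝ} (hε : 0 < ε) :
    ∃ r₀ > 0, ∀ r, 0 < r → r < r₀ → -ε < r ^ d * U₁ r := by
  by_contra hcon
  push Not at hcon
  -- `G ≤ - ε` everywhere
  have hall : ∀ r, 0 < r → r ^ d * U₁ r ≤ -ε := by
    intro r hr
    obtain ⟨s, hs0, hsr, hs⟩ := hcon r hr
    have := h.G_strictAnti (mem_Ioi.2 hs0) (mem_Ioi.2 hr) hsr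
    simp only at this
    linarith
  have hbound : ∀ r, 0 < r → r ≤ 1 → U₁ r ≤ - ε / r := by
    intro r hr hr1
    have h1 := hall r hr
    have h2 : r ^ d ≤ r := by
      calc r ^ d ≤ r ^ 1 := pow_le_pow_of_le_one hr.le hr1 h.hd
        _ = r := pow_one r
    have hneg := h.U₁_neg hr
    rw [le_div_iff₀ hr]
    have : U₁ r * r ≤ U₁ r * r ^ d := by
      apply mul_le_mul_of_nonpos_left h2 hneg.le
    nlinarith
  have hanti : AntitoneOn (fun r => U r + ε * Real.log r) (Ioc 0 1) := by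
    apply antitoneOn_of_deriv_nonpos (convex_Ioc 0 1)
    · intro r hr
      have hr' := hr.1
      have : HasDerivAt (fun r => U r + ε * Real.log r) (U₁ r + ε * r⁻¹) r :=
        (h.dU r hr').add ((Real.hasDerivAt_log hr'.ne').const_mul ε)
      exact this.continuousAt.continuousWithinAt
    · intro r hr
      rw [interior_Ioc] at hr
      have hr' := hr.1
      have : HasDerivAt (fun r => U r + ε * Real.log r) (U₁ r + ε * r⁻¹) r :=
        (h.dU r hr').add ((Real.hasDerivAt_log hr'.ne').const_mul ε)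
      exact this.differentiableAt.differentiableWithinAt
    · intro r hr
      rw [interior_Ioc] at hr
      have hr' := hr.1
      have h4 : HasDerivAt (fun r => U r + ε * Real.log r) (U₁ r + ε * r⁻¹) r :=
        (h.dU r hr').add ((Real.hasDerivAt_log hr'.ne').const_mul ε)
      rw [h4.deriv]
      have := hbound r hr' hr.2.le
      have e : - ε / r = - (ε * r⁻¹) := by rw [neg_div, div_eq_mul_inv]
      rw [e] at this
      linarith
  have hlog : Tendsto Real.log (𝓝[>] 0) atBot := Real.tendsto_log_nhdsGT_zero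
  have hev : ∀ᶠ r in 𝓝[>] (0:ℝ), Real.log r < -U0 / ε ∧ 0 < r ∧ r < 1 := by
    have h1 := hlog.eventually (eventually_lt_atBot (-U0 / ε))
    have h2 : ∀ᶠ r in 𝓝[>] (0:ℝ), r ∈ Ioo (0:ℝ) 1 := Ioo_mem_nhdsGT one_pos
    filter_upwards [h1, h2] with r a b using ⟨a, b.1, b.2⟩
  obtain ⟨r, hr1, hr2, hr3⟩ := hev.exists
  have h5 := hanti (mem_Ioc.2 ⟨hr2, hr3.le⟩) (mem_Ioc.2 ⟨one_pos, le_rfl⟩) hr3.le
  simp only [Real.log_one, mul_zero, add_zero] at h5
  have h6 := h.posU 1 one_pos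
  have h7 := h.U_le_U0 hr2
  rw [lt_div_iff₀ hε] at hr1
  nlinarith

/-- The Pohozaev function. -/
noncomputable def poh (d : ℕ) (p q A B a b : ℝ) (U U₁ V V₁ : ℝ → ℝ) (r : ℝ) : ℝ :=
  r ^ (d + 1) * (U₁ r * V₁ r) + r ^ (d + 1) * r ^ A * V r ^ (p + 1) / (p + 1)
    + r ^ (d + 1) * r ^ B * U r ^ (q + 1) / (q + 1)
    + a * (r ^ d * (U₁ r * V r)) + b * (r ^ d * (U r * V₁ r))

lemma hasDerivAt_poh (h : RadSys d p q A B U0 V0 U U₁ U₂ V V₁ V₂) (a : ℝ) {r : ℝ} (hr : 0 < r) :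
    HasDerivAt (poh d p q A B a ((d:ℝ) - 1 - a) U U₁ V V₁)
      (((d + 1 + A) / (p + 1) - a) * (r ^ d * r ^ A * (V r ^ p * V r))
        + ((d + 1 + B) / (q + 1) - ((d:ℝ) - 1 - a)) * (r ^ d * r ^ B * (U r ^ q * U r))) r := by
  have hp := h.hp
  have hq := h.hq
  have hUr := h.posU r hr
  have hVr := h.posV r hr
  have hrne : r ≠ 0 := hr.ne'
  have hp1 : p + 1 ≠ 0 := by linarith
  have hq1 : q + 1 ≠ 0 := by linarith
  have dU := h.dU r hr
  have dV := h.dV r hr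
  have dU₁ := h.dU₁ r hr
  have dV₁ := h.dV₁ r hr
  have dpow : HasDerivAt (fun r : ℝ => r ^ d) ((d:ℝ) * r ^ (d - 1)) r := hasDerivAt_pow d r
  have dpow1 : HasDerivAt (fun r : ℝ => r ^ (d + 1)) (((d + 1 : ℕ):ℝ) * r ^ (d + 1 - 1)) r :=
    hasDerivAt_pow (d + 1) r
  have dA : HasDerivAt (fun r : ℝ => r ^ A) (A * r ^ (A - 1)) r := Real.hasDerivAt_rpow_const (Or.inl hrne)
  have dB : HasDerivAt (fun r : ℝ => r ^ B) (B * r ^ (B - 1)) r := Real.hasDerivAt_rpow_const (Or.inl hrne)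
  have dVp : HasDerivAt (fun r : ℝ => V r ^ (p + 1)) (V₁ r * (p + 1) * V r ^ (p + 1 - 1)) r :=
    dV.rpow_const (Or.inl hVr.ne')
  have dUq : HasDerivAt (fun r : ℝ => U r ^ (q + 1)) (U₁ r * (q + 1) * U r ^ (q + 1 - 1)) r :=
    dU.rpow_const (Or.inl hUr.ne')
  have T1 : HasDerivAt (fun r => r ^ (d + 1) * (U₁ r * V₁ r)) _ r := dpow1.mul (dU₁.mul dV₁)
  have T2 : HasDerivAt (fun r => r ^ (d + 1) * r ^ A * V r ^ (p + 1) / (p + 1)) _ r :=
    ((dpow1.mul dA).mul dVp).div_const (p + 1)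
  have T3 : HasDerivAt (fun r => r ^ (d + 1) * r ^ B * U r ^ (q + 1) / (q + 1)) _ r :=
    ((dpow1.mul dB).mul dUq).div_const (q + 1)
  have T4 : HasDerivAt (fun r => a * (r ^ d * (U₁ r * V r))) _ r :=
    (dpow.mul (dU₁.mul dV)).const_mul a
  have T5 : HasDerivAt (fun r => ((d:ℝ) - 1 - a) * (r ^ d * (U r * V₁ r))) _ r :=
    (dpow.mul (dU.mul dV₁)).const_mul ((d:ℝ) - 1 - a)
  have hsum : HasDerivAt (poh d p q A B a ((d:ℝ) - 1 - a) U U₁ V V₁) _ r :=
    ((((T1.add T2).add T3).add T4).add T5)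
  refine hsum.congr_deriv ?_
  have hd := h.hd
  have e1 : r ^ (d - 1) = r ^ d / r := by
    obtain ⟨m, rfl⟩ : ∃ m, d = m + 1 := ⟨d - 1, by omega⟩
    simp only [Nat.add_sub_cancel]
    field_simp
    ring
  have e2 : r ^ (d + 1 - 1) = r ^ d := by simp
  have e3 : r ^ (d + 1) = r ^ d * r := pow_succ r d
  have e4 : ((d + 1 : ℕ) : ℝ) = (d:ℝ) + 1 := by push_cast; ring
  have e5 : r ^ (A - 1) = r ^ A / r := by
    rw [Real.rpow_sub hr, Real.rpow_one]
  have e6 : r ^ (B - 1) = r ^ B / r := by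
    rw [Real.rpow_sub hr, Real.rpow_one]
  have e7 : V r ^ (p + 1) = V r ^ p * V r := by
    rw [Real.rpow_add hVr, Real.rpow_one]
  have e8 : U r ^ (q + 1) = U r ^ q * U r := by
    rw [Real.rpow_add hUr, Real.rpow_one]
  have e9 : V r ^ (p + 1 - 1) = V r ^ p := by simp
  have e10 : U r ^ (q + 1 - 1) = U r ^ q := by simp
  have e11 : U₂ r = -(r ^ A * V r ^ p) - d / r * U₁ r := by
    have := h.eqU r hr; linarith
  have e12 : V₂ r = -(r ^ B * U r ^ q) - d / r * V₁ r := by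
    have := h.eqV r hr; linarith
  simp only [Pi.mul_apply]
  rw [e1, e2, e3, e4, e5, e6, e7, e8, e9, e10, e11, e12]
  generalize r ^ d = R
  generalize r ^ A = X
  generalize r ^ B = Y
  generalize V r ^ p = P
  generalize U r ^ q = Q
  field_simp
  ring

lemma poh_nonneg_one (h : RadSys d p q A B U0 V0 U U₁ U₂ V V₁ V₂) {a b : ℝ} (ha0 : 0 ≤ a) (hb0 : 0 ≤ b)
    (hEmono : StrictMonoOn (poh d p q A B a b U U₁ V V₁) (Ioi 0)) :
    0 ≤ poh d p q A B a b U U₁ V V₁ 1 := by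
  have hp := h.hp
  have hq := h.hq
  have hU0 := h.hU0
  have hV0 := h.hV0
  apply le_of_forall_pos_le_add
  intro ε hε
  set ε' := ε / (a * V0 + b * U0 + 1) with hε'
  have hdenom : 0 < a * V0 + b * U0 + 1 := by positivity
  have hε'pos : 0 < ε' := div_pos hε hdenom
  obtain ⟨r₁, hr₁, hG⟩ := h.G_small hε'pos
  obtain ⟨r₂, hr₂, hH⟩ := h.swap.G_small hε'pos
  set r := min r₁ (min r₂ 1) / 2 with hr
  have hm0 : 0 < min r₁ (min r₂ 1) := lt_min hr₁ (lt_min hr₂ one_pos)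
  have hrpos : 0 < r := by positivity
  have hm1 : min r₁ (min r₂ 1) ≤ r₁ := min_le_left _ _
  have hm2 : min r₁ (min r₂ 1) ≤ r₂ := (min_le_right _ _).trans (min_le_left _ _)
  have hm3 : min r₁ (min r₂ 1) ≤ 1 := (min_le_right _ _).trans (min_le_right _ _)
  have hr1 : r < r₁ := by rw [hr]; linarith
  have hr2 : r < r₂ := by rw [hr]; linarith
  have hr3 : r < 1 := by rw [hr]; linarith
  have hG' := hG r hrpos hr1
  have hH' := hH r hrpos hr2
  have hmon := hEmono (mem_Ioi.2 hrpos) (mem_Ioi.2 one_pos) hr3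
  have hUpos := h.posU r hrpos
  have hVpos := h.posV r hrpos
  have hU₁neg := h.U₁_neg hrpos
  have hV₁neg := h.swap.U₁_neg hrpos
  have hUle := h.U_le_U0 hrpos
  have hVle := h.swap.U_le_U0 hrpos
  have hp1 : 0 < p + 1 := by linarith
  have hq1 : 0 < q + 1 := by linarith
  have hT1 : 0 ≤ r ^ (d + 1) * (U₁ r * V₁ r) :=
    mul_nonneg (by positivity) (mul_nonneg_of_nonpos_of_nonpos hU₁neg.le hV₁neg.le)
  have hT2 : 0 ≤ r ^ (d + 1) * r ^ A * V r ^ (p + 1) / (p + 1) := by positivity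
  have hT3 : 0 ≤ r ^ (d + 1) * r ^ B * U r ^ (q + 1) / (q + 1) := by positivity
  have hT4 : a * (-ε' * V0) ≤ a * (r ^ d * (U₁ r * V r)) := by
    apply mul_le_mul_of_nonneg_left _ ha0
    have e : r ^ d * (U₁ r * V r) = (r ^ d * U₁ r) * V r := by ring
    rw [e]
    have h7 : r ^ d * U₁ r < 0 := mul_neg_of_pos_of_neg (by positivity) hU₁neg
    nlinarith
  have hT5 : b * (-ε' * U0) ≤ b * (r ^ d * (U r * V₁ r)) := by
    apply mul_le_mul_of_nonneg_left _ hb0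
    have e : r ^ d * (U r * V₁ r) = (r ^ d * V₁ r) * U r := by ring
    rw [e]
    have h7 : r ^ d * V₁ r < 0 := mul_neg_of_pos_of_neg (by positivity) hV₁neg
    nlinarith
  have hfin : -ε ≤ poh d p q A B a b U U₁ V V₁ r := by
    have h8 : ε' * (a * V0 + b * U0 + 1) = ε := by
      rw [hε']; field_simp
    have h9 : a * (-ε' * V0) + b * (-ε' * U0) ≥ -ε := by nlinarith
    unfold poh
    linarith
  linarith

lemma poh_upper (h : RadSys d p q A B U0 V0 U U₁ U₂ V V₁ V₂) {a b K₁ K₂ α β δ : ℝ}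
    (ha0 : 0 ≤ a) (hb0 : 0 ≤ b) (hK₁ : 0 < K₁) (hK₂ : 0 < K₂)
    (hUup : ∀ r, 1 ≤ r → U r ≤ K₁ * r ^ (-α)) (hVup : ∀ r, 1 ≤ r → V r ≤ K₂ * r ^ (-β))
    (hpβ : p * β = α + A + 2) (hqα : q * α = β + B + 2) (hδ : δ = α + β - ((d:ℝ) - 1))
    {r : ℝ} (hr : 1 ≤ r) :
    poh d p q A B a b U U₁ V V₁ r ≤ (2 ^ d * 2 ^ d * K₁ * K₂ + K₂ ^ (p + 1) / (p + 1)
      + K₁ ^ (q + 1) / (q + 1)) * r ^ (-δ) := by
  have hp := h.hp
  have hq := h.hq
  have hr0 : 0 < r := by linarith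
  have hUpos := h.posU r hr0
  have hVpos := h.posV r hr0
  have hU₁neg := h.U₁_neg hr0
  have hV₁neg := h.swap.U₁_neg hr0
  have hU₁up := h.U₁_upper hr0
  have hV₁up := h.swap.U₁_upper hr0
  have hUb := hUup r hr
  have hVb := hVup r hr
  have hp1 : 0 < p + 1 := by linarith
  have hq1 : 0 < q + 1 := by linarith
  have hT4 : a * (r ^ d * (U₁ r * V r)) ≤ 0 :=
    mul_nonpos_of_nonneg_of_nonpos ha0
      (mul_nonpos_of_nonneg_of_nonpos (by positivity) (mul_nonpos_of_nonpos_of_nonneg hU₁neg.le hVpos.le))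
  have hT5 : b * (r ^ d * (U r * V₁ r)) ≤ 0 :=
    mul_nonpos_of_nonneg_of_nonpos hb0
      (mul_nonpos_of_nonneg_of_nonpos (by positivity) (mul_nonpos_of_nonneg_of_nonpos hUpos.le hV₁neg.le))
  have hrδ : r ^ (-δ) = r ^ ((d:ℝ) - 1) * (r ^ (-α) * r ^ (-β)) := by
    rw [← Real.rpow_add hr0, ← Real.rpow_add hr0]
    congr 1
    rw [hδ]; ring
  have hrd1 : r ^ (d + 1) * (1 / (r * r)) = r ^ ((d:ℝ) - 1) := by
    rw [Real.rpow_sub hr0, Real.rpow_one, Real.rpow_natCast]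
    field_simp
    ring
  -- first term
  have hT1 : r ^ (d + 1) * (U₁ r * V₁ r) ≤ (2 ^ d * 2 ^ d * K₁ * K₂) * r ^ (-δ) := by
    have h1 : U₁ r * V₁ r * (r * r) ≤ (2 ^ d * U r) * (2 ^ d * V r) := by
      have e : U₁ r * V₁ r * (r * r) = ((- U₁ r) * r) * ((- V₁ r) * r) := by ring
      rw [e]
      apply mul_le_mul hU₁up hV₁up
      · apply mul_nonneg (by linarith) hr0.le
      · positivity
    have h2 : U r * V r ≤ (K₁ * r ^ (-α)) * (K₂ * r ^ (-β)) :=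
      mul_le_mul hUb hVb hVpos.le (by positivity)
    have e : r ^ (d + 1) * (U₁ r * V₁ r) = r ^ ((d:ℝ) - 1) * (U₁ r * V₁ r * (r * r)) := by
      rw [← hrd1]
      field_simp
    rw [e, hrδ]
    have hrp : 0 < r ^ ((d:ℝ) - 1) := by positivity
    calc r ^ ((d:ℝ) - 1) * (U₁ r * V₁ r * (r * r))
        ≤ r ^ ((d:ℝ) - 1) * ((2 ^ d * U r) * (2 ^ d * V r)) := by gcongr
      _ = r ^ ((d:ℝ) - 1) * (2 ^ d * 2 ^ d) * (U r * V r) := by ring
      _ ≤ r ^ ((d:ℝ) - 1) * (2 ^ d * 2 ^ d) * ((K₁ * r ^ (-α)) * (K₂ * r ^ (-β))) := by gcongr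
      _ = _ := by ring
  -- second term
  have hT2 : r ^ (d + 1) * r ^ A * V r ^ (p + 1) / (p + 1) ≤ K₂ ^ (p + 1) / (p + 1) * r ^ (-δ) := by
    have h1 : V r ^ (p + 1) ≤ (K₂ * r ^ (-β)) ^ (p + 1) :=
      Real.rpow_le_rpow hVpos.le hVb hp1.le
    have h2 : (K₂ * r ^ (-β)) ^ (p + 1) = K₂ ^ (p + 1) * r ^ (-β * (p + 1)) := by
      rw [Real.mul_rpow hK₂.le (by positivity), ← Real.rpow_mul hr0.le]
    rw [h2] at h1
    have h3 : r ^ (d + 1) * r ^ A * r ^ (-β * (p + 1)) = r ^ (-δ) := by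
      have e : r ^ (d + 1) = r ^ ((d:ℝ) + 1) := by
        rw [← Real.rpow_natCast]; push_cast; rfl
      rw [e, ← Real.rpow_add hr0, ← Real.rpow_add hr0]
      congr 1
      rw [hδ]
      linear_combination -hpβ
    calc r ^ (d + 1) * r ^ A * V r ^ (p + 1) / (p + 1)
        ≤ r ^ (d + 1) * r ^ A * (K₂ ^ (p + 1) * r ^ (-β * (p + 1))) / (p + 1) := by gcongr
      _ = K₂ ^ (p + 1) / (p + 1) * (r ^ (d + 1) * r ^ A * r ^ (-β * (p + 1))) := by ring
      _ = _ := by rw [h3]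
  -- third term
  have hT3 : r ^ (d + 1) * r ^ B * U r ^ (q + 1) / (q + 1) ≤ K₁ ^ (q + 1) / (q + 1) * r ^ (-δ) := by
    have h1 : U r ^ (q + 1) ≤ (K₁ * r ^ (-α)) ^ (q + 1) :=
      Real.rpow_le_rpow hUpos.le hUb hq1.le
    have h2 : (K₁ * r ^ (-α)) ^ (q + 1) = K₁ ^ (q + 1) * r ^ (-α * (q + 1)) := by
      rw [Real.mul_rpow hK₁.le (by positivity), ← Real.rpow_mul hr0.le]
    rw [h2] at h1
    have h3 : r ^ (d + 1) * r ^ B * r ^ (-α * (q + 1)) = r ^ (-δ) := by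
      have e : r ^ (d + 1) = r ^ ((d:ℝ) + 1) := by
        rw [← Real.rpow_natCast]; push_cast; rfl
      rw [e, ← Real.rpow_add hr0, ← Real.rpow_add hr0]
      congr 1
      rw [hδ]
      linear_combination -hqα
    calc r ^ (d + 1) * r ^ B * U r ^ (q + 1) / (q + 1)
        ≤ r ^ (d + 1) * r ^ B * (K₁ ^ (q + 1) * r ^ (-α * (q + 1))) / (q + 1) := by gcongr
      _ = K₁ ^ (q + 1) / (q + 1) * (r ^ (d + 1) * r ^ B * r ^ (-α * (q + 1))) := by ring
      _ = _ := by rw [h3]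
  unfold poh
  have e : (2 ^ d * 2 ^ d * K₁ * K₂ + K₂ ^ (p + 1) / (p + 1) + K₁ ^ (q + 1) / (q + 1)) * r ^ (-δ) =
      (2 ^ d * 2 ^ d * K₁ * K₂) * r ^ (-δ) + K₂ ^ (p + 1) / (p + 1) * r ^ (-δ)
        + K₁ ^ (q + 1) / (q + 1) * r ^ (-δ) := by ring
  rw [e]
  linarith

/-- The main ODE theorem: no positive solution in the subcritical range. -/
theorem false_of_subcritical (h : RadSys d p q A B U0 V0 U U₁ U₂ V V₁ V₂)
    (hsub : (d:ℝ) - 1 < (d + 1 + A) / (p + 1) + (d + 1 + B) / (q + 1)) : False := by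
  have hA := h.A_gt
  have hB := h.swap.A_gt
  have hp := h.hp
  have hq := h.hq
  have hd1 : (1:ℝ) ≤ d := by exact_mod_cast h.hd
  rcases le_or_gt (p * q) 1 with hpq | hpq
  · exact h.false_of_pq_le hpq
  have hpq' : 1 < q * p := by rwa [mul_comm]
  obtain ⟨K₁, hK₁, hUup⟩ := h.U_upper hpq
  obtain ⟨K₂, hK₂, hVup⟩ := h.swap.U_upper hpq'
  obtain ⟨α, hα⟩ : ∃ α, α = (A + 2 + p * (B + 2)) / (p * q - 1) := ⟨_, rfl⟩
  obtain ⟨β, hβ⟩ : ∃ β, β = (B + 2 + q * (A + 2)) / (q * p - 1) := ⟨_, rfl⟩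
  rw [← hα] at hUup
  rw [← hβ] at hVup
  have hθ : 0 < p * q - 1 := by linarith
  have hθ' : q * p - 1 = p * q - 1 := by ring
  have hne : p * q - 1 ≠ 0 := hθ.ne'
  -- identities for the exponents
  have hαD : α * (p * q - 1) = A + 2 + p * (B + 2) := by
    rw [hα]; exact div_mul_cancel₀ _ hne
  have hβD : β * (p * q - 1) = B + 2 + q * (A + 2) := by
    rw [hβ, hθ']; exact div_mul_cancel₀ _ hne
  have hpβ : p * β = α + A + 2 := by
    apply mul_right_cancel₀ hne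
    linear_combination p * hβD - hαD
  have hqα : q * α = β + B + 2 := by
    apply mul_right_cancel₀ hne
    linear_combination q * hαD - hβD
  -- subcriticality
  obtain ⟨δ, hδ⟩ : ∃ δ, δ = α + β - ((d:ℝ) - 1) := ⟨_, rfl⟩
  have hδpos : 0 < δ := by
    have hp1 : 0 < p + 1 := by linarith
    have hq1 : 0 < q + 1 := by linarith
    have hs : ((d:ℝ) - 1) * ((p + 1) * (q + 1)) < (d + 1 + A) * (q + 1) + (d + 1 + B) * (p + 1) := by
      have h1 : (d + 1 + A) / (p + 1) + (d + 1 + B) / (q + 1) =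
          ((d + 1 + A) * (q + 1) + (d + 1 + B) * (p + 1)) / ((p + 1) * (q + 1)) := by
        field_simp
      rw [h1, lt_div_iff₀ (by positivity)] at hsub
      exact hsub
    rw [hδ, sub_pos]
    have h3 : ((d:ℝ) - 1) * (p * q - 1) < (α + β) * (p * q - 1) := by
      rw [add_mul, hαD, hβD]
      nlinarith
    exact lt_of_mul_lt_mul_right h3 hθ.le
  -- choice of `a`, `b`
  obtain ⟨x, hx⟩ : ∃ x, x = (d + 1 + A) / (p + 1) := ⟨_, rfl⟩
  obtain ⟨y, hy⟩ : ∃ y, y = (d + 1 + B) / (q + 1) := ⟨_, rfl⟩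
  rw [← hx, ← hy] at hsub
  have hxpos : 0 < x := by rw [hx]; exact div_pos (by linarith) (by linarith)
  have hypos : 0 < y := by rw [hy]; exact div_pos (by linarith) (by linarith)
  have hs : 0 < x + y := by linarith
  obtain ⟨a, ha⟩ : ∃ a, a = ((d:ℝ) - 1) * x / (x + y) := ⟨_, rfl⟩
  have hsne : x + y ≠ 0 := hs.ne'
  have haD : a * (x + y) = ((d:ℝ) - 1) * x := by rw [ha]; field_simp
  have ha0 : 0 ≤ a := by
    rw [ha]; apply div_nonneg (mul_nonneg (by linarith) hxpos.le) hs.le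
  have hxa : 0 < x - a := by
    have : (x - a) * (x + y) = x * (x + y - ((d:ℝ) - 1)) := by linear_combination -haD
    have h2 : 0 < (x - a) * (x + y) := by
      rw [this]; exact mul_pos hxpos (by linarith)
    exact (pos_iff_pos_of_mul_pos h2).2 hs
  have hyb : 0 < y - ((d:ℝ) - 1 - a) := by
    have : (y - ((d:ℝ) - 1 - a)) * (x + y) = y * (x + y - ((d:ℝ) - 1)) := by
      linear_combination haD
    have h2 : 0 < (y - ((d:ℝ) - 1 - a)) * (x + y) := by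
      rw [this]; exact mul_pos hypos (by linarith)
    exact (pos_iff_pos_of_mul_pos h2).2 hs
  have hb0 : 0 ≤ (d:ℝ) - 1 - a := by
    have : ((d:ℝ) - 1 - a) * (x + y) = ((d:ℝ) - 1) * y := by
      linear_combination -haD
    have h2 : 0 ≤ ((d:ℝ) - 1 - a) * (x + y) := by
      rw [this]; exact mul_nonneg (by linarith) hypos.le
    exact nonneg_of_mul_nonneg_left h2 hs
  obtain ⟨b, hb⟩ : ∃ b, b = (d:ℝ) - 1 - a := ⟨_, rfl⟩
  rw [← hb] at hyb hb0
  have hEder : ∀ r, 0 < r → HasDerivAt (poh d p q A B a b U U₁ V V₁)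
      ((x - a) * (r ^ d * r ^ A * (V r ^ p * V r)) + (y - b) * (r ^ d * r ^ B * (U r ^ q * U r))) r := by
    intro r hr
    have := h.hasDerivAt_poh a hr
    rw [← hx, ← hy, ← hb] at this
    exact this
  have hEderpos : ∀ r, 0 < r →
      0 < (x - a) * (r ^ d * r ^ A * (V r ^ p * V r)) + (y - b) * (r ^ d * r ^ B * (U r ^ q * U r)) := by
    intro r hr
    have := h.posU r hr
    have := h.posV r hr
    positivity
  have hEmono : StrictMonoOn (poh d p q A B a b U U₁ V V₁) (Ioi 0) := by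
    apply strictMonoOn_of_deriv_pos (convex_Ioi 0)
    · intro r hr
      exact (hEder r hr).continuousAt.continuousWithinAt
    · intro r hr
      rw [interior_Ioi] at hr
      rw [(hEder r hr).deriv]
      exact hEderpos r hr
  have hE1 := h.poh_nonneg_one ha0 hb0 hEmono
  have hEup := fun r (hr : 1 ≤ r) => h.poh_upper ha0 hb0 hK₁ hK₂ hUup hVup hpβ hqα hδ hr
  -- conclusion
  have hE2 : 0 < poh d p q A B a b U U₁ V V₁ 2 := by
    have := hEmono (mem_Ioi.2 one_pos) (mem_Ioi.2 two_pos) one_lt_two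
    linarith
  obtain ⟨C, hC⟩ : ∃ C, C = 2 ^ d * 2 ^ d * K₁ * K₂ + K₂ ^ (p + 1) / (p + 1) + K₁ ^ (q + 1) / (q + 1) := ⟨_, rfl⟩
  rw [← hC] at hEup
  have hCpos : 0 < C := by
    have hp1 : 0 < p + 1 := by linarith
    have hq1 : 0 < q + 1 := by linarith
    rw [hC]
    positivity
  have ht : Tendsto (fun r : ℝ => r ^ (-δ)) atTop (𝓝 0) := tendsto_rpow_neg_atTop hδpos
  have hev := (ht.eventually (gt_mem_nhds (div_pos hE2 hCpos))).and (eventually_ge_atTop (2:ℝ))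
  obtain ⟨r, hr1, hr2⟩ := hev.exists
  have h1 := hEup r (by linarith)
  have h2 : poh d p q A B a b U U₁ V V₁ 2 ≤ poh d p q A B a b U U₁ V V₁ r := by
    rcases hr2.eq_or_lt with he | hlt
    · rw [he]
    · exact (hEmono (mem_Ioi.2 two_pos) (mem_Ioi.2 (by linarith)) hlt).le
  rw [lt_div_iff₀ hCpos] at hr1
  nlinarith

end RadSys

end Vale.Agent.Lib.P100
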