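import Mathlib
import Vale.Agent.Lib.P100.Defs
import Vale.Agent.Lib.P100.RadialCore

/-!
# Reduction of radial solutions on `ℝⁿ` to the ODE system
-/

namespace Vale.Agent.Lib.P100

open Set Filter Topology Real

variable {n : ℕ}

/-- Second derivative along a line as a derivative of the first one. -/
lemma hasDerivAt_fderiv_line {f : EuclideanSpace ℝ (Fin n) → ℝ} {x w : EuclideanSpace ℝ (Fin n)}
    {t₀ : ℝ} (hf : ContDiffAt ℝ 2 f (x + t₀ • w)) :
    HasDerivAt (fun t : ℝ => fderiv ℝ f (x + t • w) w)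
      (fderiv ℝ (fderiv ℝ f) (x + t₀ • w) w w) t₀ := by
  have h1 : ContDiffAt ℝ 1 (fderiv ℝ f) (x + t₀ • w) := by
    exact hf.fderiv_right (m := 1) (by norm_num)
  have h2 : HasFDerivAt (fderiv ℝ f) (fderiv ℝ (fderiv ℝ f) (x + t₀ • w)) (x + t₀ • w) :=
    (h1.differentiableAt (by norm_num)).hasFDerivAt
  have h3 : HasDerivAt (fun t : ℝ => x + t • w) w t₀ := by
    have := ((hasDerivAt_id t₀).smul_const w).const_add x
    simpa using this
  have h4 := h2.comp_hasDerivAt t₀ h3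
  have h5 := h4.clm_apply (hasDerivAt_const t₀ w)
  simpa using h5

/-- The first derivative along a line. -/
lemma hasDerivAt_line {f : EuclideanSpace ℝ (Fin n) → ℝ} {x w : EuclideanSpace ℝ (Fin n)} {t : ℝ}
    (hf : DifferentiableAt ℝ f (x + t • w)) :
    HasDerivAt (fun t : ℝ => f (x + t • w)) (fderiv ℝ f (x + t • w) w) t := by
  have h3 : HasDerivAt (fun t : ℝ => x + t • w) w t := by
    have := ((hasDerivAt_id t).smul_const w).const_add x
    simpa using this
  exact hf.hasFDerivAt.comp_hasDerivAt t h3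

/-- The first standard basis vector. -/
noncomputable def e0 (hn : 2 ≤ n) : EuclideanSpace ℝ (Fin n) :=
  EuclideanSpace.single (⟨0, by omega⟩ : Fin n) (1:ℝ)

lemma norm_e0 (hn : 2 ≤ n) : ‖e0 hn‖ = 1 := by
  simp [e0]

/-- radial profile -/
noncomputable def prof (hn : 2 ≤ n) (u : EuclideanSpace ℝ (Fin n) → ℝ) (r : ℝ) : ℝ :=
  u (r • e0 hn)

noncomputable def prof1 (hn : 2 ≤ n) (u : EuclideanSpace ℝ (Fin n) → ℝ) (r : ℝ) : ℝ :=
  fderiv ℝ u (r • e0 hn) (e0 hn)

noncomputable def prof2 (hn : 2 ≤ n) (u : EuclideanSpace ℝ (Fin n) → ℝ) (r : ℝ) : ℝ :=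
  fderiv ℝ (fderiv ℝ u) (r • e0 hn) (e0 hn) (e0 hn)

section
variable (hn : 2 ≤ n) {u : EuclideanSpace ℝ (Fin n) → ℝ}

lemma smul_e0_ne {r : ℝ} (hr : 0 < r) : r • e0 hn ≠ 0 := by
  intro h
  have := congrArg norm h
  rw [norm_smul, norm_e0] at this
  simp at this
  exact hr.ne' this

omit hn in
lemma contDiffAt_of_ne (hC : ContDiffOn ℝ 2 u {0}ᶜ) {x : EuclideanSpace ℝ (Fin n)} (hx : x ≠ 0) :
    ContDiffAt ℝ 2 u x :=
  hC.contDiffAt (isOpen_compl_singleton.mem_nhds hx)

lemma hasDerivAt_prof (hC : ContDiffOn ℝ 2 u {0}ᶜ) {r : ℝ} (hr : 0 < r) :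
    HasDerivAt (prof hn u) (prof1 hn u r) r := by
  have h1 : ContDiffAt ℝ 2 u (r • e0 hn) := contDiffAt_of_ne hC (smul_e0_ne hn hr)
  have h2 : DifferentiableAt ℝ u ((0 : EuclideanSpace ℝ (Fin n)) + r • e0 hn) := by
    rw [zero_add]; exact h1.differentiableAt (by norm_num)
  have h3 := hasDerivAt_line h2
  simp only [zero_add] at h3
  exact h3

lemma hasDerivAt_prof1 (hC : ContDiffOn ℝ 2 u {0}ᶜ) {r : ℝ} (hr : 0 < r) :
    HasDerivAt (prof1 hn u) (prof2 hn u r) r := by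
  have h1 : ContDiffAt ℝ 2 u ((0 : EuclideanSpace ℝ (Fin n)) + r • e0 hn) := by
    rw [zero_add]; exact contDiffAt_of_ne hC (smul_e0_ne hn hr)
  have h3 := hasDerivAt_fderiv_line h1
  simp only [zero_add] at h3
  exact h3

lemma radial_eq (hrad : ∀ x y : EuclideanSpace ℝ (Fin n), ‖x‖ = ‖y‖ → u x = u y)
    (y : EuclideanSpace ℝ (Fin n)) : u y = prof hn u ‖y‖ := by
  apply hrad
  rw [norm_smul, norm_e0]
  simp

/-- Off-diagonal second derivatives of a radial function at `r e₀`. -/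
lemma offdiag (hC : ContDiffOn ℝ 2 u {0}ᶜ)
    (hrad : ∀ x y : EuclideanSpace ℝ (Fin n), ‖x‖ = ‖y‖ → u x = u y)
    {r : ℝ} (hr : 0 < r) {w : EuclideanSpace ℝ (Fin n)} (hw : ‖w‖ = 1)
    (horth : inner ℝ (e0 hn) w = 0) :
    fderiv ℝ (fderiv ℝ u) (r • e0 hn) w w = prof1 hn u r / r := by
  set x := r • e0 hn with hx
  set g : ℝ → ℝ := fun t => Real.sqrt (r ^ 2 + t ^ 2) with hg
  have hgpos : ∀ t, 0 < g t := fun t => Real.sqrt_pos.2 (by positivity)
  have hg0 : g 0 = r := by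
    simp only [hg]
    rw [show r ^ 2 + (0:ℝ) ^ 2 = r ^ 2 by ring]
    exact Real.sqrt_sq hr.le
  have hnorm : ∀ t : ℝ, ‖x + t • w‖ = g t := by
    intro t
    have h1 : ‖x + t • w‖ ^ 2 = r ^ 2 + t ^ 2 := by
      rw [norm_add_sq_real, hx, inner_smul_left, inner_smul_right, horth, norm_smul, norm_smul,
        norm_e0, hw]
      simp
    simp only [hg]
    rw [← h1, Real.sqrt_sq (norm_nonneg _)]
  have hxt : ∀ t : ℝ, x + t • w ≠ 0 := by
    intro t h
    have := hnorm t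
    rw [h, norm_zero] at this
    exact (hgpos t).ne this
  have hgder : ∀ t, HasDerivAt g (t / g t) t := by
    intro t
    have h1 : HasDerivAt (fun t : ℝ => r ^ 2 + t ^ 2) (2 * t) t := by
      have := (hasDerivAt_pow 2 t).const_add (r ^ 2)
      simpa using this
    have h2 := h1.sqrt (ne_of_gt (by positivity))
    refine h2.congr_deriv ?_
    have := hgpos t
    simp only [hg] at this ⊢
    field_simp
  -- two expressions for the derivative of `t ↦ u (x + t w)`
  have hφ : ∀ t : ℝ, fderiv ℝ u (x + t • w) w = prof1 hn u (g t) * (t / g t) := by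
    intro t
    have h1 : HasDerivAt (fun t : ℝ => u (x + t • w)) (fderiv ℝ u (x + t • w) w) t :=
      hasDerivAt_line ((contDiffAt_of_ne hC (hxt t)).differentiableAt (by norm_num))
    have h2 : HasDerivAt (prof hn u ∘ g) (prof1 hn u (g t) * (t / g t)) t :=
      (hasDerivAt_prof hn hC (hgpos t)).comp t (hgder t)
    have h3 : (fun t : ℝ => u (x + t • w)) = prof hn u ∘ g := by
      funext t
      simp only [Function.comp]
      rw [radial_eq hn hrad, hnorm]
    rw [h3] at h1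
    exact h1.unique h2
  -- differentiate at `0`
  have h1 : ContDiffAt ℝ 2 u (x + (0:ℝ) • w) := by
    rw [zero_smul, add_zero]; exact contDiffAt_of_ne hC (smul_e0_ne hn hr)
  have h2 := hasDerivAt_fderiv_line h1
  rw [zero_smul, add_zero] at h2
  have h3 : (fun t : ℝ => fderiv ℝ u (x + t • w) w) = fun t => prof1 hn u (g t) * (t / g t) := by
    funext t; exact hφ t
  rw [h3] at h2
  -- product rule
  have h4 : HasDerivAt (fun t => prof1 hn u (g t)) (prof2 hn u (g 0) * (0 / g 0)) 0 :=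
    HasDerivAt.comp (0:ℝ) (hasDerivAt_prof1 hn hC (hgpos 0)) (hgder 0)
  have h5 : HasDerivAt (fun t => t / g t) ((1 * g 0 - 0 * (0 / g 0)) / g 0 ^ 2) 0 :=
    (hasDerivAt_id (0:ℝ)).div (hgder 0) (hgpos 0).ne'
  have h6 := h4.mul h5
  have h7 := h2.unique h6
  rw [h7]
  simp only [hg0]
  field_simp
  simp
  ring

/-- Laplacian of a radial function at `r e₀`. -/
lemma laplacian_radial (hC : ContDiffOn ℝ 2 u {0}ᶜ)
    (hrad : ∀ x y : EuclideanSpace ℝ (Fin n), ‖x‖ = ‖y‖ → u x = u y)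
    {r : ℝ} (hr : 0 < r) :
    Laplacian.laplacian u (r • e0 hn) =
      prof2 hn u r + ((n:ℝ) - 1) / r * prof1 hn u r := by
  classical
  rw [InnerProductSpace.laplacian_eq_iteratedFDeriv_orthonormalBasis u
    (EuclideanSpace.basisFun (Fin n) ℝ)]
  simp only [iteratedFDeriv_two_apply]
  set i₀ : Fin n := ⟨0, by omega⟩ with hi₀
  rw [← Finset.add_sum_erase _ _ (Finset.mem_univ i₀)]
  have hfirst : EuclideanSpace.basisFun (Fin n) ℝ i₀ = e0 hn := by
    simp [e0, hi₀]
  have h0 : fderiv ℝ (fderiv ℝ u) (r • e0 hn) (![EuclideanSpace.basisFun (Fin n) ℝ i₀,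
      EuclideanSpace.basisFun (Fin n) ℝ i₀] 0) (![EuclideanSpace.basisFun (Fin n) ℝ i₀,
      EuclideanSpace.basisFun (Fin n) ℝ i₀] 1) = prof2 hn u r := by
    simp [hfirst, prof2]
  rw [h0]
  congr 1
  have hrest : ∀ i ∈ Finset.univ.erase i₀,
      fderiv ℝ (fderiv ℝ u) (r • e0 hn) (![EuclideanSpace.basisFun (Fin n) ℝ i,
        EuclideanSpace.basisFun (Fin n) ℝ i] 0) (![EuclideanSpace.basisFun (Fin n) ℝ i,
        EuclideanSpace.basisFun (Fin n) ℝ i] 1) = prof1 hn u r / r := by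
    intro i hi
    have hne : i ≠ i₀ := (Finset.mem_erase.1 hi).1
    simp only [Matrix.cons_val_zero, Matrix.cons_val_one]
    apply offdiag hn hC hrad hr
    · simp
    · rw [← hfirst]
      have := (EuclideanSpace.basisFun (Fin n) ℝ).orthonormal.2 (Ne.symm hne)
      exact this
  rw [Finset.sum_congr rfl hrest, Finset.sum_const, Finset.card_erase_of_mem (Finset.mem_univ i₀),
    Finset.card_univ, Fintype.card_fin, nsmul_eq_mul]
  have : ((n - 1 : ℕ) : ℝ) = (n:ℝ) - 1 := by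
    rw [Nat.cast_sub (by omega)]
    simp
  rw [this]
  ring

end

/-- From a radial positive entire solution to the radial system. -/
lemma radSys_of_solution (hn : 2 ≤ n) {p q A B : ℝ} (hp : 0 < p) (hq : 0 < q)
    {u v : EuclideanSpace ℝ (Fin n) → ℝ} (h : IsPositiveEntireSolution n p q A B u v)
    (hu : ∀ x y : EuclideanSpace ℝ (Fin n), ‖x‖ = ‖y‖ → u x = u y)
    (hv : ∀ x y : EuclideanSpace ℝ (Fin n), ‖x‖ = ‖y‖ → v x = v y) :
    RadSys (n - 1) p q A B (u 0) (v 0) (prof hn u) (prof1 hn u) (prof2 hn u)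
      (prof hn v) (prof1 hn v) (prof2 hn v) := by
  have hcast : ((n - 1 : ℕ) : ℝ) = (n:ℝ) - 1 := by
    rw [Nat.cast_sub (by omega)]
    simp
  have hlim : ∀ {f : EuclideanSpace ℝ (Fin n) → ℝ}, Continuous f →
      Tendsto (prof hn f) (𝓝[>] 0) (𝓝 (f 0)) := by
    intro f hf
    have h1 : Continuous (prof hn f) := by
      unfold prof
      exact hf.comp (continuous_id.smul continuous_const)
    have h2 := h1.tendsto (0:ℝ)
    have h3 : prof hn f 0 = f 0 := by simp [prof]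
    rw [h3] at h2
    exact h2.mono_left nhdsWithin_le_nhds
  have hnormr : ∀ {r : ℝ}, 0 < r → ‖r • e0 hn‖ = r := by
    intro r hr
    rw [norm_smul, norm_e0, mul_one, Real.norm_eq_abs, abs_of_pos hr]
  refine ⟨by omega, hp, hq, h.pos_u 0, h.pos_v 0, hlim h.continuous_u, hlim h.continuous_v,
    fun r _ => h.pos_u _, fun r _ => h.pos_v _,
    fun r hr => hasDerivAt_prof hn h.contDiffOn_u hr,
    fun r hr => hasDerivAt_prof hn h.contDiffOn_v hr,
    fun r hr => hasDerivAt_prof1 hn h.contDiffOn_u hr,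
    fun r hr => hasDerivAt_prof1 hn h.contDiffOn_v hr, ?_, ?_⟩
  · intro r hr
    have h1 := laplacian_radial hn h.contDiffOn_u hu hr
    have h2 := h.eq_u (r • e0 hn) (smul_e0_ne hn hr)
    rw [h1, hnormr hr] at h2
    rw [hcast]
    simp only [prof]
    linarith
  · intro r hr
    have h1 := laplacian_radial hn h.contDiffOn_v hv hr
    have h2 := h.eq_v (r • e0 hn) (smul_e0_ne hn hr)
    rw [h1, hnormr hr] at h2
    rw [hcast]
    simp only [prof]
    linarith

/-- Necessary conditions for the existence of a radial positive entire solution. -/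
theorem radial_necessary (hn : 2 ≤ n) {p q A B : ℝ} (hp : 0 < p) (hq : 0 < q)
    {u v : EuclideanSpace ℝ (Fin n) → ℝ} (h : IsPositiveEntireSolution n p q A B u v)
    (hu : ∀ x y : EuclideanSpace ℝ (Fin n), ‖x‖ = ‖y‖ → u x = u y)
    (hv : ∀ x y : EuclideanSpace ℝ (Fin n), ‖x‖ = ‖y‖ → v x = v y) :
    -2 < A ∧ -2 < B ∧ ((n:ℝ) + A) / (p + 1) + ((n:ℝ) + B) / (q + 1) ≤ (n:ℝ) - 2 := by
  have hS := radSys_of_solution hn hp hq h hu hv
  refine ⟨hS.A_gt, hS.swap.A_gt, ?_⟩
  by_contra hcon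
  push Not at hcon
  have hcast : ((n - 1 : ℕ) : ℝ) = (n:ℝ) - 1 := by
    rw [Nat.cast_sub (by omega)]
    simp
  apply hS.false_of_subcritical
  rw [hcast]
  have e1 : (n:ℝ) - 1 + 1 + A = n + A := by ring
  have e2 : (n:ℝ) - 1 + 1 + B = n + B := by ring
  rw [e1, e2]
  linarith

end Vale.Agent.Lib.P100
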