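import Mathlib
import Vale.Agent.Lib.P100.Reduction

/-!
# Calculus along lines on Euclidean space
-/

namespace Vale.Agent.Lib.P100

open Set Filter Topology Real

variable {n : ℕ}

/-- Abbreviation for Euclidean space. -/
abbrev Eu (n : ℕ) := EuclideanSpace ℝ (Fin n)

lemma tendsto_line (x e : Eu n) : Tendsto (fun t : ℝ => x + t • e) (𝓝 0) (𝓝 x) := by
  have : Continuous (fun t : ℝ => x + t • e) := by fun_prop
  simpa using this.tendsto 0

/-- Identify the second derivative in direction `e` from an explicit first line derivative. -/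
lemma second_deriv_eq {g : Eu n → ℝ} {x e : Eu n} (hg : ContDiffAt ℝ 2 g x) {ψ : ℝ → ℝ} {ℓ : ℝ}
    (h1 : ∀ᶠ t in 𝓝 (0:ℝ), HasDerivAt (fun t : ℝ => g (x + t • e)) (ψ t) t)
    (h2 : HasDerivAt ψ ℓ 0) :
    fderiv ℝ (fderiv ℝ g) x e e = ℓ := by
  have hev : ∀ᶠ y in 𝓝 x, ContDiffAt ℝ 2 g y := hg.eventually (by simp)
  have hev2 := (tendsto_line x e).eventually hev
  have heq : (fun t : ℝ => fderiv ℝ g (x + t • e) e) =ᶠ[𝓝 0] ψ := by
    filter_upwards [h1, hev2] with t h1t h2t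
    exact (hasDerivAt_line (h2t.differentiableAt (by norm_num))).unique h1t
  have h3 : HasDerivAt (fun t : ℝ => fderiv ℝ g (x + t • e) e)
      (fderiv ℝ (fderiv ℝ g) (x + (0:ℝ) • e) e e) 0 :=
    hasDerivAt_fderiv_line (by simpa using hg)
  rw [zero_smul, add_zero] at h3
  exact h3.unique (h2.congr_of_eventuallyEq heq)

/-- The Laplacian as a sum of second derivatives. -/
lemma laplacian_eq_sum (g : Eu n → ℝ) (x : Eu n) :
    Laplacian.laplacian g x = ∑ i, fderiv ℝ (fderiv ℝ g) x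
      (EuclideanSpace.basisFun (Fin n) ℝ i) (EuclideanSpace.basisFun (Fin n) ℝ i) := by
  rw [InnerProductSpace.laplacian_eq_iteratedFDeriv_orthonormalBasis g
    (EuclideanSpace.basisFun (Fin n) ℝ)]
  simp only [iteratedFDeriv_two_apply]
  rfl

/-- At a local minimum the second derivative in any direction is nonnegative. -/
lemma second_deriv_nonneg_of_isLocalMin {g : Eu n → ℝ} {x : Eu n} (hg : ContDiffAt ℝ 2 g x)
    (hmin : IsLocalMin g x) (e : Eu n) : 0 ≤ fderiv ℝ (fderiv ℝ g) x e e := by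
  by_contra hneg
  push Not at hneg
  set φ : ℝ → ℝ := fun t => g (x + t • e) with hφ
  have hev : ∀ᶠ y in 𝓝 x, ContDiffAt ℝ 2 g y := hg.eventually (by simp)
  have hev2 := (tendsto_line x e).eventually hev
  have hder : ∀ᶠ t in 𝓝 (0:ℝ), HasDerivAt φ (fderiv ℝ g (x + t • e) e) t := by
    filter_upwards [hev2] with t h2t
    exact hasDerivAt_line (h2t.differentiableAt (by norm_num))
  have h3 : HasDerivAt (fun t : ℝ => fderiv ℝ g (x + t • e) e)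
      (fderiv ℝ (fderiv ℝ g) (x + (0:ℝ) • e) e e) 0 :=
    hasDerivAt_fderiv_line (by simpa using hg)
  rw [zero_smul, add_zero] at h3
  have hdφ : deriv φ =ᶠ[𝓝 0] fun t : ℝ => fderiv ℝ g (x + t • e) e := by
    filter_upwards [hder] with t ht using ht.deriv
  have hdd : deriv (deriv φ) 0 = fderiv ℝ (fderiv ℝ g) x e e := by
    rw [hdφ.deriv_eq]
    exact h3.deriv
  have hmin' : IsLocalMin φ 0 := by
    have h1 : Tendsto (fun t : ℝ => x + t • e) (𝓝 0) (𝓝 (x + (0:ℝ) • e)) := by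
      simpa using tendsto_line x e
    have h0 : φ 0 = g x := by simp [hφ]
    have : ∀ᶠ t in 𝓝 (0:ℝ), g x ≤ g (x + t • e) := (tendsto_line x e).eventually hmin
    filter_upwards [this] with t ht
    rw [h0]; exact ht
  have hd0 : deriv φ 0 = 0 := hmin'.deriv_eq_zero
  have hcont : ContinuousAt φ 0 := (hder.self_of_nhds).continuousAt
  have hmax : IsLocalMax φ 0 :=
    isLocalMax_of_deriv_deriv_neg (by rw [hdd]; exact hneg) hd0 hcont
  -- `φ` is constant near `0`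
  have hconst : φ =ᶠ[𝓝 0] fun _ => φ 0 := by
    filter_upwards [hmin', hmax] with t h1 h2
    exact le_antisymm h2 h1
  have hd : deriv φ =ᶠ[𝓝 0] fun _ => 0 := by
    have := hconst.eventuallyEq_nhds
    filter_upwards [this] with t ht
    rw [ht.deriv_eq]
    simp
  have : deriv (deriv φ) 0 = 0 := by
    rw [hd.deriv_eq]
    simp
  rw [hdd] at this
  linarith

/-- At a local minimum the Laplacian is nonnegative. -/
lemma laplacian_nonneg_of_isLocalMin {g : Eu n → ℝ} {x : Eu n} (hg : ContDiffAt ℝ 2 g x)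
    (hmin : IsLocalMin g x) : 0 ≤ Laplacian.laplacian g x := by
  rw [laplacian_eq_sum]
  exact Finset.sum_nonneg fun i _ => second_deriv_nonneg_of_isLocalMin hg hmin _

section path

variable {x e : Eu n}

lemma norm_line_sq (he : ‖e‖ = 1) (t : ℝ) :
    ‖x + t • e‖ ^ 2 = ‖x‖ ^ 2 + 2 * inner ℝ e x * t + t ^ 2 := by
  rw [norm_add_sq_real, inner_smul_right, norm_smul, he, real_inner_comm]
  simp
  ring

lemma hasDerivAt_norm_line (he : ‖e‖ = 1) {t : ℝ} (ht : x + t • e ≠ 0) :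
    HasDerivAt (fun t : ℝ => ‖x + t • e‖) ((inner ℝ e x + t) / ‖x + t • e‖) t := by
  have hpos : 0 < ‖x + t • e‖ := norm_pos_iff.2 ht
  have h1 : (fun t : ℝ => ‖x + t • e‖) = fun t =>
      Real.sqrt (‖x‖ ^ 2 + 2 * inner ℝ e x * t + t ^ 2) := by
    funext s
    rw [← norm_line_sq he, Real.sqrt_sq (norm_nonneg _)]
  have hs : HasDerivAt (fun t : ℝ => ‖x‖ ^ 2 + 2 * inner ℝ e x * t + t ^ 2)
      (2 * inner ℝ e x + 2 * t) t := by
    have h2 : HasDerivAt (fun t : ℝ => 2 * inner ℝ e x * t) (2 * inner ℝ e x) t := by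
      simpa using (hasDerivAt_id t).const_mul (2 * inner ℝ e x)
    have h3 : HasDerivAt (fun t : ℝ => t ^ 2) (2 * t) t := by
      simpa using hasDerivAt_pow 2 t
    exact (h2.const_add _).add h3
  have hne : ‖x‖ ^ 2 + 2 * inner ℝ e x * t + t ^ 2 ≠ 0 := by
    rw [← norm_line_sq he]
    positivity
  have h4 := hs.sqrt hne
  rw [h1]
  refine h4.congr_deriv ?_
  rw [← norm_line_sq he, Real.sqrt_sq (norm_nonneg _)]
  field_simp

end path

/-- Derivative at `0` of `H₁(ρ t) * ρ'(t)` where `ρ t = ‖x + t e‖`. -/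
lemma hasDerivAt_radial_line {H₁ H₂ : ℝ → ℝ} (hH₁ : ∀ s, 0 < s → HasDerivAt H₁ (H₂ s) s)
    {x e : Eu n} (hx : x ≠ 0) (he : ‖e‖ = 1) :
    HasDerivAt (fun t : ℝ => H₁ ‖x + t • e‖ * ((inner ℝ e x + t) / ‖x + t • e‖))
      (H₂ ‖x‖ * (inner ℝ e x / ‖x‖) ^ 2
        + H₁ ‖x‖ * (1 / ‖x‖ - (inner ℝ e x) ^ 2 / ‖x‖ ^ 3)) 0 := by
  have hr : 0 < ‖x‖ := norm_pos_iff.2 hx
  set σ : ℝ := inner ℝ e x with hσ
  have hρ0 : ‖x + (0:ℝ) • e‖ = ‖x‖ := by simp
  have h0 : x + (0:ℝ) • e ≠ 0 := by simpa using hx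
  have hρ := hasDerivAt_norm_line he h0
  rw [hρ0] at hρ
  have h1 : HasDerivAt (fun t : ℝ => H₁ ‖x + t • e‖)
      (H₂ ‖x‖ * ((σ + 0) / ‖x‖)) 0 := by
    have := HasDerivAt.comp (h₂ := H₁) (h := fun t : ℝ => ‖x + t • e‖) (0:ℝ)
      (by rw [hρ0]; exact hH₁ _ hr) hρ
    exact this
  have h2 : HasDerivAt (fun t : ℝ => (σ + t) / ‖x + t • e‖)
      ((1 * ‖x‖ - (σ + 0) * ((σ + 0) / ‖x‖)) / ‖x‖ ^ 2) 0 := by
    have h3 : HasDerivAt (fun t : ℝ => σ + t) 1 0 := by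
      simpa using (hasDerivAt_id (0:ℝ)).const_add σ
    have h4 := h3.div hρ (by rw [hρ0]; exact hr.ne')
    rw [hρ0] at h4
    exact h4
  have h5 := h1.mul h2
  refine HasDerivAt.congr_deriv (f := fun t => H₁ ‖x + t • e‖ * ((σ + t) / ‖x + t • e‖)) h5 ?_
  simp only [add_zero, zero_smul]
  field_simp

/-- Second derivative of a radial function in a unit direction. -/
lemma radial_second {H H₁ H₂ : ℝ → ℝ} (hH : ∀ s, 0 < s → HasDerivAt H (H₁ s) s)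
    (hH₁ : ∀ s, 0 < s → HasDerivAt H₁ (H₂ s) s) {x e : Eu n} (hx : x ≠ 0) (he : ‖e‖ = 1)
    (hC : ContDiffAt ℝ 2 H ‖x‖) :
    fderiv ℝ (fderiv ℝ (fun y : Eu n => H ‖y‖)) x e e =
      H₂ ‖x‖ * (inner ℝ e x / ‖x‖) ^ 2
        + H₁ ‖x‖ * (1 / ‖x‖ - (inner ℝ e x) ^ 2 / ‖x‖ ^ 3) := by
  have hr : 0 < ‖x‖ := norm_pos_iff.2 hx
  have hg : ContDiffAt ℝ 2 (fun y : Eu n => H ‖y‖) x := by
    have h1 : ContDiffAt ℝ 2 (fun y : Eu n => ‖y‖) x := contDiffAt_norm ℝ hx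
    exact ContDiffAt.comp x hC h1
  -- near `t = 0` the line stays away from the origin
  have hne : ∀ᶠ t in 𝓝 (0:ℝ), x + t • e ≠ 0 :=
    (tendsto_line x e).eventually (isOpen_compl_singleton.mem_nhds hx)
  refine second_deriv_eq
    (ψ := fun t => H₁ ‖x + t • e‖ * ((inner ℝ e x + t) / ‖x + t • e‖)) hg ?_
    (hasDerivAt_radial_line hH₁ hx he)
  filter_upwards [hne] with t ht
  have hpos : 0 < ‖x + t • e‖ := norm_pos_iff.2 ht
  have := (hH _ hpos).comp t (hasDerivAt_norm_line he ht)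
  exact this

/-- Laplacian of a radial function. -/
lemma laplacian_radial_general {H H₁ H₂ : ℝ → ℝ} (hH : ∀ s, 0 < s → HasDerivAt H (H₁ s) s)
    (hH₁ : ∀ s, 0 < s → HasDerivAt H₁ (H₂ s) s) {x : Eu n} (hx : x ≠ 0)
    (hC : ContDiffAt ℝ 2 H ‖x‖) :
    Laplacian.laplacian (fun y : Eu n => H ‖y‖) x =
      H₂ ‖x‖ + ((n:ℝ) - 1) / ‖x‖ * H₁ ‖x‖ := by
  have hr : 0 < ‖x‖ := norm_pos_iff.2 hx
  rw [laplacian_eq_sum]
  set b := EuclideanSpace.basisFun (Fin n) ℝ with hb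
  have h1 : ∀ i, fderiv ℝ (fderiv ℝ (fun y : Eu n => H ‖y‖)) x (b i) (b i) =
      H₂ ‖x‖ * (inner ℝ (b i) x / ‖x‖) ^ 2
        + H₁ ‖x‖ * (1 / ‖x‖ - (inner ℝ (b i) x) ^ 2 / ‖x‖ ^ 3) := by
    intro i
    exact radial_second hH hH₁ hx (by simp [hb]) hC
  simp only [h1]
  have hsq : ∑ i, (inner ℝ (b i) x) ^ 2 = ‖x‖ ^ 2 := by
    have := b.sum_sq_norm_inner_right x
    simpa [Real.norm_eq_abs, sq_abs] using this
  have h2 : ∀ i, H₂ ‖x‖ * (inner ℝ (b i) x / ‖x‖) ^ 2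
        + H₁ ‖x‖ * (1 / ‖x‖ - (inner ℝ (b i) x) ^ 2 / ‖x‖ ^ 3) =
      H₁ ‖x‖ / ‖x‖ + (H₂ ‖x‖ / ‖x‖ ^ 2 - H₁ ‖x‖ / ‖x‖ ^ 3) * (inner ℝ (b i) x) ^ 2 := by
    intro i
    field_simp
    ring
  simp only [h2]
  rw [Finset.sum_add_distrib, ← Finset.mul_sum, hsq, Finset.sum_const, Finset.card_univ,
    Fintype.card_fin, nsmul_eq_mul]
  field_simp
  ring

/-- Laplacian of a real power of the norm. -/
lemma laplacian_rpow_norm (s : ℝ) {x : Eu n} (hx : x ≠ 0) :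
    Laplacian.laplacian (fun y : Eu n => ‖y‖ ^ s) x =
      s * (s + (n:ℝ) - 2) * ‖x‖ ^ (s - 2) := by
  have hr : 0 < ‖x‖ := norm_pos_iff.2 hx
  have hH : ∀ t : ℝ, 0 < t → HasDerivAt (fun t : ℝ => t ^ s) (s * t ^ (s - 1)) t :=
    fun t ht => Real.hasDerivAt_rpow_const (Or.inl ht.ne')
  have hH₁ : ∀ t : ℝ, 0 < t → HasDerivAt (fun t : ℝ => s * t ^ (s - 1))
      (s * ((s - 1) * t ^ (s - 1 - 1))) t :=
    fun t ht => (Real.hasDerivAt_rpow_const (Or.inl ht.ne')).const_mul s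
  have hC : ContDiffAt ℝ 2 (fun t : ℝ => t ^ s) ‖x‖ :=
    Real.contDiffAt_rpow_const_of_ne hr.ne'
  have := laplacian_radial_general hH hH₁ hx hC
  rw [this]
  have e1 : ‖x‖ ^ (s - 1 - 1) = ‖x‖ ^ (s - 2) := by congr 1; ring
  have e2 : ‖x‖ ^ (s - 1) = ‖x‖ ^ (s - 2) * ‖x‖ := by
    rw [← Real.rpow_add_one hr.ne']; congr 1; ring
  rw [e1, e2]
  field_simp
  ring

lemma contDiffAt_rpow_norm (s : ℝ) {x : Eu n} (hx : x ≠ 0) :
    ContDiffAt ℝ 2 (fun y : Eu n => ‖y‖ ^ s) x := by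
  have hr : 0 < ‖x‖ := norm_pos_iff.2 hx
  have h1 : ContDiffAt ℝ 2 (fun y : Eu n => ‖y‖) x := contDiffAt_norm ℝ hx
  have hC : ContDiffAt ℝ 2 (fun t : ℝ => t ^ s) ‖x‖ :=
    Real.contDiffAt_rpow_const_of_ne hr.ne'
  exact ContDiffAt.comp x hC h1

end Vale.Agent.Lib.P100
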