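import Mathlib
import Vale.Agent.Lib.P100.LineCalc

/-!
# The Kelvin transform on Euclidean space
-/

namespace Vale.Agent.Lib.P100

open Set Filter Topology Real

variable {n : ℕ}

/-- Inversion in the sphere of radius `lam`. -/
noncomputable def inv (lam : ℝ) (x : Eu n) : Eu n := (lam ^ 2 / ‖x‖ ^ 2) • x

/-- The Kelvin transform, `N = n - 2`. -/
noncomputable def kel (N : ℕ) (lam : ℝ) (u : Eu n → ℝ) (x : Eu n) : ℝ :=
  (lam / ‖x‖) ^ N * u (inv lam x)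

lemma norm_inv {lam : ℝ} (hl : 0 < lam) {x : Eu n} (hx : x ≠ 0) :
    ‖inv lam x‖ = lam ^ 2 / ‖x‖ := by
  have hr : 0 < ‖x‖ := norm_pos_iff.2 hx
  rw [inv, norm_smul, Real.norm_eq_abs, abs_of_pos (by positivity)]
  field_simp

lemma inv_ne_zero {lam : ℝ} (hl : 0 < lam) {x : Eu n} (hx : x ≠ 0) : inv lam x ≠ 0 := by
  have hr : 0 < ‖x‖ := norm_pos_iff.2 hx
  intro h
  have := norm_inv hl hx
  rw [h, norm_zero] at this
  have : 0 < lam ^ 2 / ‖x‖ := by positivity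
  linarith

lemma inv_of_norm_eq {lam : ℝ} (hl : 0 < lam) {x : Eu n} (hx : ‖x‖ = lam) : inv lam x = x := by
  rw [inv, hx, div_self (by positivity), one_smul]

lemma kel_of_norm_eq {N : ℕ} {lam : ℝ} (hl : 0 < lam) {u : Eu n → ℝ} {x : Eu n} (hx : ‖x‖ = lam) :
    kel N lam u x = u x := by
  rw [kel, inv_of_norm_eq hl hx, hx, div_self hl.ne', one_pow, one_mul]

lemma contDiffAt_inv {lam : ℝ} {x : Eu n} (hx : x ≠ 0) :
    ContDiffAt ℝ 2 (inv lam : Eu n → Eu n) x := by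
  have h1 : ContDiffAt ℝ 2 (fun y : Eu n => ‖y‖) x := contDiffAt_norm ℝ hx
  have hr : ‖x‖ ≠ 0 := norm_ne_zero_iff.2 hx
  have h2 : ContDiffAt ℝ 2 (fun y : Eu n => lam ^ 2 / ‖y‖ ^ 2) x :=
    contDiffAt_const.div (h1.pow 2) (pow_ne_zero 2 hr)
  exact h2.smul contDiffAt_id

lemma contDiffAt_kel {N : ℕ} {lam : ℝ} {u : Eu n → ℝ} {x : Eu n} (hx : x ≠ 0)
    (hu : ContDiffAt ℝ 2 u (inv lam x)) : ContDiffAt ℝ 2 (kel N lam u) x := by
  have h1 : ContDiffAt ℝ 2 (fun y : Eu n => ‖y‖) x := contDiffAt_norm ℝ hx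
  have hr : ‖x‖ ≠ 0 := norm_ne_zero_iff.2 hx
  have h2 : ContDiffAt ℝ 2 (fun y : Eu n => (lam / ‖y‖) ^ N) x :=
    (contDiffAt_const.div h1 hr).pow N
  have h3 : ContDiffAt ℝ 2 (fun y : Eu n => u (inv lam y)) x :=
    ContDiffAt.comp x hu (contDiffAt_inv hx)
  exact h2.mul h3

/-- The radial factor and its derivatives. -/
lemma hasDerivAt_P (N : ℕ) (lam : ℝ) {r : ℝ} (hr : 0 < r) :
    HasDerivAt (fun r : ℝ => (lam / r) ^ N) (-(N / r) * (lam / r) ^ N) r := by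
  have h1 : HasDerivAt (fun r : ℝ => lam / r) (-lam / r ^ 2) r := by
    have h0 : HasDerivAt (fun r : ℝ => lam * r⁻¹) (lam * (-(r ^ 2)⁻¹)) r :=
      (hasDerivAt_inv hr.ne').const_mul lam
    have e : (fun r : ℝ => lam / r) = fun r : ℝ => lam * r⁻¹ := by
      funext s; rw [div_eq_mul_inv]
    rw [e]
    refine h0.congr_deriv ?_
    field_simp
  have h2 : HasDerivAt (fun r : ℝ => (lam / r) ^ N) _ r := h1.pow N
  refine h2.congr_deriv ?_
  cases N with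
  | zero => simp
  | succ m =>
    simp only [Nat.add_sub_cancel]
    rw [pow_succ (lam / r) m]
    push_cast
    field_simp

lemma hasDerivAt_P1 (N : ℕ) (lam : ℝ) {r : ℝ} (hr : 0 < r) :
    HasDerivAt (fun r : ℝ => -(N / r) * (lam / r) ^ N)
      (N * (N + 1) / r ^ 2 * (lam / r) ^ N) r := by
  have h1 : HasDerivAt (fun r : ℝ => -(N / r)) (N / r ^ 2) r := by
    have h0 : HasDerivAt (fun r : ℝ => -((N:ℝ) * r⁻¹)) (-((N:ℝ) * (-(r ^ 2)⁻¹))) r :=
      ((hasDerivAt_inv hr.ne').const_mul (N:ℝ)).neg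
    have e : (fun r : ℝ => -((N:ℝ) / r)) = fun r : ℝ => -((N:ℝ) * r⁻¹) := by
      funext s; rw [div_eq_mul_inv]
    rw [e]
    refine h0.congr_deriv ?_
    field_simp
  have h2 : HasDerivAt (fun r : ℝ => -(N / r) * (lam / r) ^ N) _ r :=
    h1.mul (hasDerivAt_P N lam hr)
  refine h2.congr_deriv ?_
  field_simp
  ring

/-- Auxiliary data along a line: the scalar factor `a t = lam² / ‖x + t e‖²`. -/
lemma hasDerivAt_a {lam : ℝ} {x e : Eu n} (he : ‖e‖ = 1) {t : ℝ} (ht : x + t • e ≠ 0) :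
    HasDerivAt (fun t : ℝ => lam ^ 2 / (‖x‖ ^ 2 + 2 * inner ℝ e x * t + t ^ 2))
      (-(lam ^ 2 * (2 * inner ℝ e x + 2 * t)) / (‖x‖ ^ 2 + 2 * inner ℝ e x * t + t ^ 2) ^ 2) t := by
  have hs : HasDerivAt (fun t : ℝ => ‖x‖ ^ 2 + 2 * inner ℝ e x * t + t ^ 2)
      (2 * inner ℝ e x + 2 * t) t := by
    have h2 : HasDerivAt (fun t : ℝ => 2 * inner ℝ e x * t) (2 * inner ℝ e x) t := by
      simpa using (hasDerivAt_id t).const_mul (2 * inner ℝ e x)
    have h3 : HasDerivAt (fun t : ℝ => t ^ 2) (2 * t) t := by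
      simpa using hasDerivAt_pow 2 t
    exact (h2.const_add _).add h3
  have hne : ‖x‖ ^ 2 + 2 * inner ℝ e x * t + t ^ 2 ≠ 0 := by
    rw [← norm_line_sq he]
    have : 0 < ‖x + t • e‖ := norm_pos_iff.2 ht
    positivity
  have h := (hasDerivAt_const t (lam ^ 2)).div hs hne
  refine h.congr_deriv ?_
  ring

lemma hasDerivAt_a1 {lam : ℝ} {x e : Eu n} (hx : x ≠ 0) :
    HasDerivAt (fun t : ℝ => -(lam ^ 2 * (2 * inner ℝ e x + 2 * t)) /
        (‖x‖ ^ 2 + 2 * inner ℝ e x * t + t ^ 2) ^ 2)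
      (lam ^ 2 * (8 * (inner ℝ e x) ^ 2 / ‖x‖ ^ 6 - 2 / ‖x‖ ^ 4)) 0 := by
  have hr : 0 < ‖x‖ := norm_pos_iff.2 hx
  have hs : HasDerivAt (fun t : ℝ => ‖x‖ ^ 2 + 2 * inner ℝ e x * t + t ^ 2)
      (2 * inner ℝ e x + 2 * 0) 0 := by
    have h2 : HasDerivAt (fun t : ℝ => 2 * inner ℝ e x * t) (2 * inner ℝ e x) 0 := by
      simpa using (hasDerivAt_id (0:ℝ)).const_mul (2 * inner ℝ e x)
    have h3 : HasDerivAt (fun t : ℝ => t ^ 2) (2 * 0) 0 := by
      simpa using hasDerivAt_pow 2 (0:ℝ)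
    exact (h2.const_add _).add h3
  have hs2 : HasDerivAt (fun t : ℝ => (‖x‖ ^ 2 + 2 * inner ℝ e x * t + t ^ 2) ^ 2)
      (2 * (‖x‖ ^ 2 + 2 * inner ℝ e x * 0 + 0 ^ 2) * (2 * inner ℝ e x + 2 * 0)) 0 := by
    have h1 : HasDerivAt (fun t : ℝ => (‖x‖ ^ 2 + 2 * inner ℝ e x * t + t ^ 2) ^ 2) _ 0 := hs.pow 2
    refine h1.congr_deriv ?_
    simp
  have hnum : HasDerivAt (fun t : ℝ => -(lam ^ 2 * (2 * inner ℝ e x + 2 * t)))
      (-(lam ^ 2 * 2)) 0 := by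
    have h2 : HasDerivAt (fun t : ℝ => 2 * inner ℝ e x + 2 * t) 2 0 := by
      simpa using ((hasDerivAt_id (0:ℝ)).const_mul (2:ℝ)).const_add (2 * inner ℝ e x)
    exact (h2.const_mul (lam ^ 2)).neg
  have hne : (‖x‖ ^ 2 + 2 * inner ℝ e x * 0 + 0 ^ 2) ^ 2 ≠ 0 := by
    have : ‖x‖ ^ 2 + 2 * inner ℝ e x * 0 + 0 ^ 2 = ‖x‖ ^ 2 := by ring
    rw [this]
    positivity
  have h := hnum.div hs2 hne
  refine h.congr_deriv ?_
  simp only [mul_zero, add_zero]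
  field_simp
  ring

/-- Second derivative of the Kelvin transform in a unit direction. -/
theorem kelvin_second {N : ℕ} {lam : ℝ} (hl : 0 < lam) {u : Eu n → ℝ} {x e : Eu n}
    (hx : x ≠ 0) (he : ‖e‖ = 1) (hu : ContDiffAt ℝ 2 u (inv lam x)) :
    fderiv ℝ (fderiv ℝ (kel N lam u)) x e e =
      ((N * (N + 1) / ‖x‖ ^ 2 * (lam / ‖x‖) ^ N) * (inner ℝ e x / ‖x‖) ^ 2
        + (-(N / ‖x‖) * (lam / ‖x‖) ^ N) * (1 / ‖x‖ - (inner ℝ e x) ^ 2 / ‖x‖ ^ 3)) * u (inv lam x)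
      + 2 * ((-(N / ‖x‖) * (lam / ‖x‖) ^ N) * (inner ℝ e x / ‖x‖)) *
          (fderiv ℝ u (inv lam x) ((-(lam ^ 2 * (2 * inner ℝ e x)) / ‖x‖ ^ 4) • x
            + (lam ^ 2 / ‖x‖ ^ 2) • e))
      + (lam / ‖x‖) ^ N *
        (fderiv ℝ (fderiv ℝ u) (inv lam x)
            ((-(lam ^ 2 * (2 * inner ℝ e x)) / ‖x‖ ^ 4) • x + (lam ^ 2 / ‖x‖ ^ 2) • e)
            ((-(lam ^ 2 * (2 * inner ℝ e x)) / ‖x‖ ^ 4) • x + (lam ^ 2 / ‖x‖ ^ 2) • e)
          + fderiv ℝ u (inv lam x)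
            ((lam ^ 2 * (8 * (inner ℝ e x) ^ 2 / ‖x‖ ^ 6 - 2 / ‖x‖ ^ 4)) • x
              + (2 * (-(lam ^ 2 * (2 * inner ℝ e x)) / ‖x‖ ^ 4)) • e)) := by
  have hr : 0 < ‖x‖ := norm_pos_iff.2 hx
  set σ : ℝ := inner ℝ e x with hσ
  set r := ‖x‖ with hrdef
  set y := inv lam x with hy
  -- the scalar functions
  set s : ℝ → ℝ := fun t => r ^ 2 + 2 * σ * t + t ^ 2 with hs
  set a : ℝ → ℝ := fun t => lam ^ 2 / s t with ha
  set a1 : ℝ → ℝ := fun t => -(lam ^ 2 * (2 * σ + 2 * t)) / s t ^ 2 with ha1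
  set γ : ℝ → Eu n := fun t => a t • (x + t • e) with hγ
  set γ₁ : ℝ → Eu n := fun t => a1 t • (x + t • e) + a t • e with hγ₁
  have hs0 : s 0 = r ^ 2 := by simp [hs]
  have ha0 : a 0 = lam ^ 2 / r ^ 2 := by simp [ha, hs0]
  have ha10 : a1 0 = -(lam ^ 2 * (2 * σ)) / r ^ 4 := by
    simp only [ha1, hs0]
    rw [mul_zero, add_zero]
    congr 1
    ring
  have hγ0 : γ 0 = y := by
    simp only [hγ, ha0, zero_smul, add_zero, hy, inv]
    rfl
  have hγ₁0 : γ₁ 0 = (-(lam ^ 2 * (2 * σ)) / r ^ 4) • x + (lam ^ 2 / r ^ 2) • e := by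
    simp only [hγ₁, ha0, ha10, zero_smul, add_zero]
  have hline : ∀ t : ℝ, HasDerivAt (fun t : ℝ => x + t • e) e t := by
    intro t
    have := ((hasDerivAt_id t).smul_const e).const_add x
    simpa using this
  have hne : ∀ᶠ t in 𝓝 (0:ℝ), x + t • e ≠ 0 :=
    (tendsto_line x e).eventually (isOpen_compl_singleton.mem_nhds hx)
  have hadot : ∀ t, x + t • e ≠ 0 → HasDerivAt a (a1 t) t := fun t ht => hasDerivAt_a he ht
  have hadot0 : HasDerivAt a (a1 0) 0 := hadot 0 (by simpa using hx)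
  have ha1dot : HasDerivAt a1 (lam ^ 2 * (8 * σ ^ 2 / r ^ 6 - 2 / r ^ 4)) 0 := hasDerivAt_a1 hx
  have hγdot : ∀ t, x + t • e ≠ 0 → HasDerivAt γ (γ₁ t) t := by
    intro t ht
    have := (hadot t ht).smul (hline t)
    refine HasDerivAt.congr_deriv (f := γ) this ?_
    rw [hγ₁]
    exact add_comm _ _
  have hγ₁dot : HasDerivAt γ₁ ((lam ^ 2 * (8 * σ ^ 2 / r ^ 6 - 2 / r ^ 4)) • x
      + (2 * (-(lam ^ 2 * (2 * σ)) / r ^ 4)) • e) 0 := by
    have h1 := ha1dot.smul (hline 0)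
    have h2 := hadot0.smul_const e
    have h3 := h1.add h2
    refine HasDerivAt.congr_deriv (f := γ₁) h3 ?_
    simp only [zero_smul, add_zero, ha10, two_mul, add_smul]
    abel
  -- norm identities
  have hnorm : ∀ t, ‖x + t • e‖ ^ 2 = s t := fun t => norm_line_sq he t
  have hinv : ∀ t, inv lam (x + t • e) = γ t := by
    intro t
    simp only [inv, hnorm, hγ, ha]
  have hg : ContDiffAt ℝ 2 (kel N lam u) x := contDiffAt_kel hx hu
  -- derivatives of `u` along the curve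
  have hucurve : ∀ᶠ t in 𝓝 (0:ℝ), ContDiffAt ℝ 2 u (γ t) := by
    have hcont : ContinuousAt γ 0 := (hγdot 0 (by simpa using hx)).continuousAt
    have h2 : Tendsto γ (𝓝 0) (𝓝 y) := by
      have := hcont.tendsto
      rwa [hγ0] at this
    exact h2.eventually (hu.eventually (by simp))
  have hy0 : y = γ 0 := hγ0.symm
  have hL : HasFDerivAt (fderiv ℝ u) (fderiv ℝ (fderiv ℝ u) y) (γ 0) := by
    have h1 : ContDiffAt ℝ 1 (fderiv ℝ u) y := hu.fderiv_right (m := 1) (by norm_num)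
    rw [hγ0]
    exact (h1.differentiableAt (by norm_num)).hasFDerivAt
  have hγ0dot := hγdot 0 (by simpa using hx)
  have hLcurve := hL.comp_hasDerivAt (0:ℝ) hγ0dot
  have hLapp := hLcurve.clm_apply hγ₁dot
  have hucomp0 : HasDerivAt (fun t => u (γ t)) (fderiv ℝ u y (γ₁ 0)) 0 := by
    have h1 : HasFDerivAt u (fderiv ℝ u y) (γ 0) := by
      rw [hγ0]
      exact (hu.differentiableAt (by norm_num)).hasFDerivAt
    exact h1.comp_hasDerivAt (0:ℝ) hγ0dot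
  -- the first line derivative
  set H₁ : ℝ → ℝ := fun r => -(N / r) * (lam / r) ^ N with hH₁
  set H₂ : ℝ → ℝ := fun r => N * (N + 1) / r ^ 2 * (lam / r) ^ N with hH₂
  have hH₁dot : ∀ s, 0 < s → HasDerivAt H₁ (H₂ s) s := fun s hs => hasDerivAt_P1 N lam hs
  have hradial := hasDerivAt_radial_line hH₁dot hx he
  have hPline : HasDerivAt (fun t : ℝ => (lam / ‖x + t • e‖) ^ N)
      (H₁ r * (σ / r)) 0 := by
    have h0 : x + (0:ℝ) • e ≠ 0 := by simpa using hx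
    have hρ := hasDerivAt_norm_line he h0
    have hρ0 : ‖x + (0:ℝ) • e‖ = r := by simp [hrdef]
    rw [hρ0] at hρ
    have := HasDerivAt.comp (h₂ := fun r : ℝ => (lam / r) ^ N)
      (h := fun t : ℝ => ‖x + t • e‖) (0:ℝ) (by rw [hρ0]; exact hasDerivAt_P N lam hr) hρ
    refine HasDerivAt.congr_deriv this ?_
    simp only [hH₁, add_zero]
    rfl
  refine second_deriv_eq (ψ := fun t => (H₁ ‖x + t • e‖ * ((σ + t) / ‖x + t • e‖)) * u (γ t)
      + (lam / ‖x + t • e‖) ^ N * (fderiv ℝ u (γ t) (γ₁ t))) hg ?_ ?_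
  · filter_upwards [hne, hucurve] with t ht hut
    have hpos : 0 < ‖x + t • e‖ := norm_pos_iff.2 ht
    have h1 : HasDerivAt (fun t : ℝ => (lam / ‖x + t • e‖) ^ N)
        (H₁ ‖x + t • e‖ * ((σ + t) / ‖x + t • e‖)) t :=
      HasDerivAt.comp (h₂ := fun r : ℝ => (lam / r) ^ N)
        (h := fun t : ℝ => ‖x + t • e‖) t (hasDerivAt_P N lam hpos) (hasDerivAt_norm_line he ht)
    have h2 : HasDerivAt (fun t => u (γ t)) (fderiv ℝ u (γ t) (γ₁ t)) t := by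
      have h3 : HasFDerivAt u (fderiv ℝ u (γ t)) (γ t) :=
        (hut.differentiableAt (by norm_num)).hasFDerivAt
      exact h3.comp_hasDerivAt t (hγdot t ht)
    have h4 := h1.mul h2
    have h5 : (fun t : ℝ => kel N lam u (x + t • e)) =
        (fun t : ℝ => (lam / ‖x + t • e‖) ^ N) * fun t => u (γ t) := by
      funext s
      simp only [kel, hinv, Pi.mul_apply]
    rw [h5]
    exact h4
  · have h1 := hradial.mul hucomp0
    have hρ0 : ‖x + (0:ℝ) • e‖ = r := by simp [hrdef]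
    have h0 : (lam / ‖x + (0:ℝ) • e‖) ^ N = (lam / r) ^ N := by rw [hρ0]
    have h2 := hPline.mul hLapp
    have h3 := h1.add h2
    refine HasDerivAt.congr_deriv (f := fun t => (H₁ ‖x + t • e‖ * ((σ + t) / ‖x + t • e‖)) * u (γ t)
      + (lam / ‖x + t • e‖) ^ N * (fderiv ℝ u (γ t) (γ₁ t))) h3 ?_
    simp only [hγ0, add_zero, zero_smul, Function.comp, hH₁, hH₂]
    rw [hγ₁0]
    ring

/-- The Laplacian of the Kelvin transform. -/
theorem laplacian_kel {N : ℕ} (hn : n = N + 2) {lam : ℝ} (hl : 0 < lam) {u : Eu n → ℝ} {x : Eu n}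
    (hx : x ≠ 0) (hu : ContDiffAt ℝ 2 u (inv lam x)) :
    Laplacian.laplacian (kel N lam u) x =
      (lam / ‖x‖) ^ (N + 4) * Laplacian.laplacian u (inv lam x) := by
  have hr : 0 < ‖x‖ := norm_pos_iff.2 hx
  rw [laplacian_eq_sum, laplacian_eq_sum u (inv lam x)]
  set b := EuclideanSpace.basisFun (Fin n) ℝ with hb
  set y := inv lam x with hy
  set L := fderiv ℝ u y with hL
  set Q := fderiv ℝ (fderiv ℝ u) y with hQ
  set r := ‖x‖ with hrdef
  set P := (lam / r) ^ N with hP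
  -- per-direction formula
  have h1 : ∀ i, fderiv ℝ (fderiv ℝ (kel N lam u)) x (b i) (b i) =
      (P * ((N * (N + 2)) / r ^ 4 * u y - 4 * (N / r ^ 2) * 0)) * (inner ℝ (b i) x) ^ 2
      + (P * (-(N / r ^ 2)) * u y) * 1
      + (P * (lam ^ 2 / r ^ 2) * (4 * N / r ^ 4 * L x) +
          P * (lam ^ 2 / r ^ 2) * ((8 / r ^ 4) * L x)
          + P * (lam ^ 2 / r ^ 2) ^ 2 * (4 / r ^ 4 * Q x x)) * (inner ℝ (b i) x) ^ 2
      + (P * (lam ^ 2 / r ^ 2) * (-(2 / r ^ 2) * L x)) * 1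
      + (P * (lam ^ 2 / r ^ 2) * (-(2 * N / r ^ 2)) + P * (lam ^ 2 / r ^ 2) * (-(4 / r ^ 2)))
          * (inner ℝ (b i) x * L (b i))
      + (P * (lam ^ 2 / r ^ 2) ^ 2 * (-(2 / r ^ 2))) * (inner ℝ (b i) x * Q x (b i))
      + (P * (lam ^ 2 / r ^ 2) ^ 2 * (-(2 / r ^ 2))) * (inner ℝ (b i) x * Q (b i) x)
      + (P * (lam ^ 2 / r ^ 2) ^ 2) * Q (b i) (b i) := by
    intro i
    have he : ‖b i‖ = 1 := by simp [hb]
    rw [kelvin_second hl hx he hu]
    simp only [map_add, map_smul, add_apply, smul_apply, smul_eq_mul]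
    field_simp
    ring
  simp only [h1]
  -- the sums
  have hsq : ∑ i, (inner ℝ (b i) x) ^ 2 = r ^ 2 := by
    have := b.sum_sq_norm_inner_right x
    simpa [Real.norm_eq_abs, sq_abs] using this
  have hs1 : ∀ f : Eu n →L[ℝ] ℝ, ∑ i, inner ℝ (b i) x * f (b i) = f x := by
    intro f
    calc ∑ i, inner ℝ (b i) x * f (b i) = f (∑ i, inner ℝ (b i) x • b i) := by
          rw [map_sum]
          simp only [map_smul, smul_eq_mul]
      _ = f x := by rw [b.sum_repr' x]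
  have hsL : ∑ i, inner ℝ (b i) x * L (b i) = L x := hs1 L
  have hsQ1 : ∑ i, inner ℝ (b i) x * Q x (b i) = Q x x := hs1 (Q x)
  have hsQ2 : ∑ i, inner ℝ (b i) x * Q (b i) x = Q x x := by
    have := hs1 (Q.flip x)
    simpa using this
  simp only [Finset.sum_add_distrib, ← Finset.mul_sum]
  rw [hsq, hsL, hsQ1, hsQ2]
  simp only [Finset.sum_const, Finset.card_univ, Fintype.card_fin, nsmul_eq_mul, mul_one]
  have hcast : (n:ℝ) = (N:ℝ) + 2 := by rw [hn]; push_cast; ring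
  rw [hcast]
  have hPeq : (lam / r) ^ (N + 4) = P * (lam ^ 2 / r ^ 2) ^ 2 := by
    rw [hP, pow_add]
    congr 1
    field_simp
  rw [hPeq]
  field_simp
  ring

end Vale.Agent.Lib.P100
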