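import Mathlib
import Vale.Agent.Lib.P100.LineCalc

/-!
# Minimum principles on annuli
-/

namespace Vale.Agent.Lib.P100

open Set Filter Topology Real

variable {n : ℕ}

/-- The closed annulus. -/
def Ann (n : ℕ) (ρ₁ ρ₂ : ℝ) : Set (Eu n) := {x | ρ₁ ≤ ‖x‖ ∧ ‖x‖ ≤ ρ₂}

lemma isCompact_Ann (ρ₁ ρ₂ : ℝ) : IsCompact (Ann n ρ₁ ρ₂) := by
  apply Metric.isCompact_of_isClosed_isBounded
  · have h1 : IsClosed {x : Eu n | ρ₁ ≤ ‖x‖} := isClosed_le continuous_const continuous_norm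
    have h2 : IsClosed {x : Eu n | ‖x‖ ≤ ρ₂} := isClosed_le continuous_norm continuous_const
    exact h1.inter h2
  · apply (Metric.isBounded_closedBall (x := (0 : Eu n)) (r := ρ₂)).subset
    intro x hx
    simpa using hx.2

lemma isOpen_openAnn (ρ₁ ρ₂ : ℝ) : IsOpen {x : Eu n | ρ₁ < ‖x‖ ∧ ‖x‖ < ρ₂} := by
  have h1 : IsOpen {x : Eu n | ρ₁ < ‖x‖} := isOpen_lt continuous_const continuous_norm
  have h2 : IsOpen {x : Eu n | ‖x‖ < ρ₂} := isOpen_lt continuous_norm continuous_const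
  exact h1.inter h2

/-- A function that is nonnegative on the annulus and vanishes at an interior point has a
local minimum there. -/
lemma isLocalMin_of_Ann {g : Eu n → ℝ} {ρ₁ ρ₂ c : ℝ} {x : Eu n} (h1 : ρ₁ < ‖x‖) (h2 : ‖x‖ < ρ₂)
    (hg : ∀ y ∈ Ann n ρ₁ ρ₂, c ≤ g y) (hgx : g x = c) : IsLocalMin g x := by
  have hnh : {y : Eu n | ρ₁ < ‖y‖ ∧ ‖y‖ < ρ₂} ∈ 𝓝 x := (isOpen_openAnn ρ₁ ρ₂).mem_nhds ⟨h1, h2⟩
  filter_upwards [hnh] with y hy
  rw [hgx]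
  exact hg y ⟨hy.1.le, hy.2.le⟩

/-- Strict minimum principle on an annulus. -/
theorem ann_min_principle {ρ₁ ρ₂ : ℝ} {g : Eu n → ℝ}
    (hc : ContinuousOn g (Ann n ρ₁ ρ₂))
    (hC : ∀ x, ρ₁ < ‖x‖ → ‖x‖ < ρ₂ → ContDiffAt ℝ 2 g x)
    (hneg : ∀ x, ρ₁ < ‖x‖ → ‖x‖ < ρ₂ → g x < 0 → Laplacian.laplacian g x < 0)
    (hb : ∀ x, ‖x‖ = ρ₁ ∨ ‖x‖ = ρ₂ → 0 ≤ g x) :
    ∀ x ∈ Ann n ρ₁ ρ₂, 0 ≤ g x := by
  by_contra hcon
  push Not at hcon
  obtain ⟨x₀, hx₀, hx₀neg⟩ := hcon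
  obtain ⟨x₁, hx₁, hmin⟩ := (isCompact_Ann ρ₁ ρ₂).exists_isMinOn ⟨x₀, hx₀⟩ hc
  have hmin' : ∀ y ∈ Ann n ρ₁ ρ₂, g x₁ ≤ g y := fun y hy => hmin hy
  have hlt : g x₁ < 0 := lt_of_le_of_lt (hmin' x₀ hx₀) hx₀neg
  have h1 : ρ₁ < ‖x₁‖ := by
    apply lt_of_le_of_ne hx₁.1
    intro h
    have := hb x₁ (Or.inl h.symm)
    linarith
  have h2 : ‖x₁‖ < ρ₂ := by
    apply lt_of_le_of_ne hx₁.2
    intro h
    have := hb x₁ (Or.inr h)
    linarith
  have hloc : IsLocalMin g x₁ := isLocalMin_of_Ann h1 h2 hmin' rfl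
  have := laplacian_nonneg_of_isLocalMin (hC x₁ h1 h2) hloc
  have := hneg x₁ h1 h2 hlt
  linarith

/-- Laplacian of `w - m h`. -/
lemma laplacian_sub_mul {w h : Eu n → ℝ} {x : Eu n} (m : ℝ) (hw : ContDiffAt ℝ 2 w x)
    (hh : ContDiffAt ℝ 2 h x) :
    Laplacian.laplacian (fun y => w y - m * h y) x =
      Laplacian.laplacian w x - m * Laplacian.laplacian h x := by
  have e : (fun y => w y - m * h y) = w - m • h := by
    funext y; simp
  have hh' : ContDiffAt ℝ 2 (m • h) x := hh.const_smul m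
  rw [e, hw.laplacian_sub hh', InnerProductSpace.laplacian_smul m hh]
  simp

lemma contDiffAt_sub_mul {w h : Eu n → ℝ} {x : Eu n} (m : ℝ) (hw : ContDiffAt ℝ 2 w x)
    (hh : ContDiffAt ℝ 2 h x) : ContDiffAt ℝ 2 (fun y => w y - m * h y) x :=
  hw.sub (contDiffAt_const.mul hh)

/-- Minimum principle for a cooperative pair with a positive barrier `b`. -/
theorem ann_system_mp {ρ₁ ρ₂ : ℝ} {w z b : Eu n → ℝ}
    (hwc : ContinuousOn w (Ann n ρ₁ ρ₂)) (hzc : ContinuousOn z (Ann n ρ₁ ρ₂))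
    (hbc : ContinuousOn b (Ann n ρ₁ ρ₂))
    (hwC : ∀ x, ρ₁ < ‖x‖ → ‖x‖ < ρ₂ → ContDiffAt ℝ 2 w x)
    (hzC : ∀ x, ρ₁ < ‖x‖ → ‖x‖ < ρ₂ → ContDiffAt ℝ 2 z x)
    (hbC : ∀ x, ρ₁ < ‖x‖ → ‖x‖ < ρ₂ → ContDiffAt ℝ 2 b x)
    (hbpos : ∀ x ∈ Ann n ρ₁ ρ₂, 0 < b x)
    (hw : ∀ x, ρ₁ < ‖x‖ → ‖x‖ < ρ₂ → ∀ m, m < 0 → w x = m * b x → m * b x ≤ z x →
      Laplacian.laplacian w x < m * Laplacian.laplacian b x)
    (hz : ∀ x, ρ₁ < ‖x‖ → ‖x‖ < ρ₂ → ∀ m, m < 0 → z x = m * b x → m * b x ≤ w x →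
      Laplacian.laplacian z x < m * Laplacian.laplacian b x)
    (hbw : ∀ x, ‖x‖ = ρ₁ ∨ ‖x‖ = ρ₂ → 0 ≤ w x)
    (hbz : ∀ x, ‖x‖ = ρ₁ ∨ ‖x‖ = ρ₂ → 0 ≤ z x) :
    ∀ x ∈ Ann n ρ₁ ρ₂, 0 ≤ w x ∧ 0 ≤ z x := by
  by_contra hcon
  push Not at hcon
  obtain ⟨x₀, hx₀, hx₀neg⟩ := hcon
  set φ : Eu n → ℝ := fun x => min (w x / b x) (z x / b x) with hφ
  have hφc : ContinuousOn φ (Ann n ρ₁ ρ₂) := by
    have h1 : ContinuousOn (fun x => w x / b x) (Ann n ρ₁ ρ₂) :=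
      hwc.div hbc fun x hx => (hbpos x hx).ne'
    have h2 : ContinuousOn (fun x => z x / b x) (Ann n ρ₁ ρ₂) :=
      hzc.div hbc fun x hx => (hbpos x hx).ne'
    intro x hx
    exact Tendsto.min (h1 x hx) (h2 x hx)
  obtain ⟨x₁, hx₁, hmin⟩ := (isCompact_Ann ρ₁ ρ₂).exists_isMinOn ⟨x₀, hx₀⟩ hφc
  have hmin' : ∀ y ∈ Ann n ρ₁ ρ₂, φ x₁ ≤ φ y := fun y hy => hmin hy
  set m := φ x₁ with hm
  have hbpos₁ := hbpos x₁ hx₁
  -- the minimum is negative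
  have hφ₀ : φ x₀ < 0 := by
    have hb₀ := hbpos x₀ hx₀
    by_cases h0 : 0 ≤ w x₀
    · have h1 := hx₀neg h0
      exact lt_of_le_of_lt (min_le_right _ _) (div_neg_of_neg_of_pos h1 hb₀)
    · push Not at h0
      exact lt_of_le_of_lt (min_le_left _ _) (div_neg_of_neg_of_pos h0 hb₀)
  have hmneg : m < 0 := lt_of_le_of_lt (hmin' x₀ hx₀) hφ₀
  -- boundary values are nonnegative
  have hnb : ∀ x ∈ Ann n ρ₁ ρ₂, (‖x‖ = ρ₁ ∨ ‖x‖ = ρ₂) → 0 ≤ φ x := by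
    intro x hx hbd
    have hbx := hbpos x hx
    exact le_min (div_nonneg (hbw x hbd) hbx.le) (div_nonneg (hbz x hbd) hbx.le)
  have h1 : ρ₁ < ‖x₁‖ := by
    apply lt_of_le_of_ne hx₁.1
    intro h
    have := hnb x₁ hx₁ (Or.inl h.symm)
    linarith
  have h2 : ‖x₁‖ < ρ₂ := by
    apply lt_of_le_of_ne hx₁.2
    intro h
    have := hnb x₁ hx₁ (Or.inr h)
    linarith
  -- `w ≥ m b`, `z ≥ m b`
  have hwge : ∀ y ∈ Ann n ρ₁ ρ₂, m * b y ≤ w y := by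
    intro y hy
    have hby := hbpos y hy
    have : m ≤ w y / b y := (hmin' y hy).trans (min_le_left _ _)
    rwa [le_div_iff₀ hby] at this
  have hzge : ∀ y ∈ Ann n ρ₁ ρ₂, m * b y ≤ z y := by
    intro y hy
    have hby := hbpos y hy
    have : m ≤ z y / b y := (hmin' y hy).trans (min_le_right _ _)
    rwa [le_div_iff₀ hby] at this
  rcases min_cases (w x₁ / b x₁) (z x₁ / b x₁) with ⟨h3, h4⟩ | ⟨h3, h4⟩
  · -- minimum attained by `w`
    have hwx : w x₁ = m * b x₁ := by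
      have : m = w x₁ / b x₁ := h3
      rw [this]; field_simp
    have hloc : IsLocalMin (fun y => w y - m * b y) x₁ :=
      isLocalMin_of_Ann (c := 0) h1 h2 (fun y hy => by have := hwge y hy; linarith)
        (by simp [hwx])
    have hC := contDiffAt_sub_mul m (hwC x₁ h1 h2) (hbC x₁ h1 h2)
    have hge := laplacian_nonneg_of_isLocalMin hC hloc
    rw [laplacian_sub_mul m (hwC x₁ h1 h2) (hbC x₁ h1 h2)] at hge
    have := hw x₁ h1 h2 m hmneg hwx (hzge x₁ hx₁)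
    linarith
  · have hzx : z x₁ = m * b x₁ := by
      have : m = z x₁ / b x₁ := h3
      rw [this]; field_simp
    have hloc : IsLocalMin (fun y => z y - m * b y) x₁ :=
      isLocalMin_of_Ann (c := 0) h1 h2 (fun y hy => by have := hzge y hy; linarith)
        (by simp [hzx])
    have hC := contDiffAt_sub_mul m (hzC x₁ h1 h2) (hbC x₁ h1 h2)
    have hge := laplacian_nonneg_of_isLocalMin hC hloc
    rw [laplacian_sub_mul m (hzC x₁ h1 h2) (hbC x₁ h1 h2)] at hge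
    have := hz x₁ h1 h2 m hmneg hzx (hwge x₁ hx₁)
    linarith

/-- Exterior lower bound for strictly superharmonic nonnegative functions: for `‖x‖ ≥ ρ₀`,
`f x * ‖x‖^N ≥ m * ρ₀^N`. Here `n = N + 2`. -/
theorem exterior_bound {N : ℕ} (hn : n = N + 2) (hN : 1 ≤ N) {ρ₀ m : ℝ} (hρ₀ : 0 < ρ₀) {f : Eu n → ℝ}
    (hfc : ContinuousOn f {x | ρ₀ ≤ ‖x‖})
    (hfC : ∀ x, ρ₀ < ‖x‖ → ContDiffAt ℝ 2 f x)
    (hneg : ∀ x, ρ₀ < ‖x‖ → Laplacian.laplacian f x < 0)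
    (hnn : ∀ x, ρ₀ ≤ ‖x‖ → 0 ≤ f x)
    (hm : ∀ x, ‖x‖ = ρ₀ → m ≤ f x) (hm0 : 0 ≤ m)
    {x : Eu n} (hx : ρ₀ ≤ ‖x‖) : m * ρ₀ ^ N ≤ f x * ‖x‖ ^ N := by
  have hxpos : 0 < ‖x‖ := by linarith
  -- the comparison on large annuli
  have hcast : (n:ℝ) = (N:ℝ) + 2 := by rw [hn]; push_cast; ring
  set s : ℝ := -(N:ℝ) with hs
  have hΓ : ∀ y : Eu n, y ≠ 0 → Laplacian.laplacian (fun y : Eu n => ‖y‖ ^ s) y = 0 := by
    intro y hy
    rw [laplacian_rpow_norm s hy, hcast, hs]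
    ring
  have hpowinv : ∀ r : ℝ, 0 < r → r ^ s = (r ^ N)⁻¹ := by
    intro r hr
    rw [hs, Real.rpow_neg hr.le, Real.rpow_natCast]
  have key : ∀ R, ‖x‖ < R → m * ρ₀ ^ N * (‖x‖ ^ s - R ^ s) ≤ f x := by
    intro R hR
    have hRpos : 0 < R := by linarith
    have hρR : ρ₀ < R := lt_of_le_of_lt hx hR
    set c := m * ρ₀ ^ N with hc
    set g : Eu n → ℝ := fun y => f y - c * (‖y‖ ^ s - R ^ s) with hg
    have hne : ∀ y : Eu n, ρ₀ ≤ ‖y‖ → y ≠ 0 := by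
      intro y hy h0
      rw [h0, norm_zero] at hy
      linarith
    have hgC : ∀ y : Eu n, ρ₀ < ‖y‖ → ‖y‖ < R → ContDiffAt ℝ 2 g y := by
      intro y h1 h2
      have h3 : ContDiffAt ℝ 2 (fun y : Eu n => ‖y‖ ^ s - R ^ s) y :=
        (contDiffAt_rpow_norm s (hne y h1.le)).sub contDiffAt_const
      exact (hfC y h1).sub (contDiffAt_const.mul h3)
    have hglap : ∀ y : Eu n, ρ₀ < ‖y‖ → Laplacian.laplacian g y = Laplacian.laplacian f y := by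
      intro y h1
      have hy0 := hne y h1.le
      have hC1 := contDiffAt_rpow_norm (n := n) s hy0
      have e : g = fun y => (fun y => f y + c * R ^ s) y - c * ‖y‖ ^ s := by
        funext y
        simp only [hg]
        ring
      rw [e, laplacian_sub_mul c ((hfC y h1).add contDiffAt_const) hC1, hΓ y hy0]
      have e2 : (fun y => f y + c * R ^ s) = f + fun _ => c * R ^ s := by
        funext y; simp
      rw [e2, (hfC y h1).laplacian_add contDiffAt_const]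
      simp
    have hgcont : ContinuousOn g (Ann n ρ₀ R) := by
      apply ContinuousOn.sub (hfc.mono fun y hy => hy.1)
      apply continuousOn_const.mul
      apply ContinuousOn.sub _ continuousOn_const
      intro y hy
      have hy0 := hne y hy.1
      exact ((contDiffAt_rpow_norm s hy0).continuousAt).continuousWithinAt
    have hmp := ann_min_principle hgcont (fun y h1 h2 => hgC y h1 h2)
      (fun y h1 _ _ => by rw [hglap y h1]; exact hneg y h1)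
      (by
        intro y hy
        rcases hy with h | h
        · -- inner sphere
          simp only [hg]
          rw [h]
          have h4 := hm y h
          have h5 : c * (ρ₀ ^ s - R ^ s) ≤ m := by
            have h6 : ρ₀ ^ s = (ρ₀ ^ N)⁻¹ := hpowinv ρ₀ hρ₀
            have h7 : 0 ≤ R ^ s := by positivity
            have h8 : 0 < ρ₀ ^ N := by positivity
            rw [hc, h6]
            have h9 : m * ρ₀ ^ N * ((ρ₀ ^ N)⁻¹ - R ^ s) = m - m * ρ₀ ^ N * R ^ s := by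
              field_simp
            rw [h9]
            have : 0 ≤ m * ρ₀ ^ N * R ^ s := by positivity
            linarith
          linarith
        · simp only [hg]
          rw [h]
          have h4 := hnn y (by rw [h]; exact hρR.le)
          simp [h4])
    have := hmp x ⟨hx, hR.le⟩
    simp only [hg] at this
    linarith
  -- let `R → ∞`
  have hlim : Tendsto (fun R : ℝ => m * ρ₀ ^ N * (‖x‖ ^ s - R ^ s)) atTop
      (𝓝 (m * ρ₀ ^ N * (‖x‖ ^ s - 0))) := by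
    apply Tendsto.const_mul
    apply Tendsto.sub tendsto_const_nhds
    have hNpos : (0:ℝ) < N := by exact_mod_cast hN
    exact tendsto_rpow_neg_atTop hNpos
  have hle : m * ρ₀ ^ N * (‖x‖ ^ s - 0) ≤ f x := by
    apply le_of_tendsto hlim
    filter_upwards [eventually_gt_atTop ‖x‖] with R hR using key R hR
  rw [sub_zero, hpowinv _ hxpos] at hle
  have hxN : 0 < ‖x‖ ^ N := by positivity
  calc m * ρ₀ ^ N = m * ρ₀ ^ N * (‖x‖ ^ N)⁻¹ * ‖x‖ ^ N := by field_simp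
    _ ≤ f x * ‖x‖ ^ N := by gcongr

end Vale.Agent.Lib.P100
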