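import Mathlib
import Vale.Agent.Lib.P100.Defs
import Vale.Agent.Lib.P100.Kelvin
import Vale.Agent.Lib.P100.MaxPrinciple

/-!
# Moving spheres centred at the origin
-/

namespace Vale.Agent.Lib.P100

open Set Filter Topology Real

variable {n N : ℕ} {p q A B : ℝ} {u v : Eu n → ℝ}

lemma IsPositiveEntireSolution.swap (h : IsPositiveEntireSolution n p q A B u v) :
    IsPositiveEntireSolution n q p B A v u :=
  ⟨h.continuous_v, h.continuous_u, h.contDiffOn_v, h.contDiffOn_u, h.pos_v, h.pos_u, h.eq_v, h.eq_u⟩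

/-- The Kelvin exponent. -/
noncomputable def kap (N : ℕ) (p A : ℝ) : ℝ := N + 4 + 2 * A - N * p

section basic

variable (h : IsPositiveEntireSolution n p q A B u v)
include h

lemma contDiffAt_u {x : Eu n} (hx : x ≠ 0) : ContDiffAt ℝ 2 u x :=
  h.contDiffOn_u.contDiffAt (isOpen_compl_singleton.mem_nhds hx)

lemma contDiffAt_v {x : Eu n} (hx : x ≠ 0) : ContDiffAt ℝ 2 v x :=
  h.contDiffOn_v.contDiffAt (isOpen_compl_singleton.mem_nhds hx)

lemma laplacian_u {x : Eu n} (hx : x ≠ 0) :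
    Laplacian.laplacian u x = -(‖x‖ ^ A * v x ^ p) := by
  have := h.eq_u x hx
  linarith

/-- The Kelvin transform of `u` satisfies the transformed equation. -/
lemma laplacian_kel_u (hn : n = N + 2) {lam : ℝ} (hl : 0 < lam) {x : Eu n} (hx : x ≠ 0) :
    Laplacian.laplacian (kel N lam u) x =
      -(‖x‖ ^ A * (lam / ‖x‖) ^ (kap N p A) * (kel N lam v x) ^ p) := by
  have hr : 0 < ‖x‖ := norm_pos_iff.2 hx
  have hy : inv lam x ≠ 0 := inv_ne_zero hl hx
  rw [laplacian_kel hn hl hx (contDiffAt_u h hy), laplacian_u h hy, norm_inv hl hx]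
  set r := ‖x‖ with hrdef
  set t := lam / r with ht
  have htpos : 0 < t := by positivity
  have e1 : lam ^ 2 / r = r * t ^ 2 := by rw [ht]; field_simp
  have hvy : 0 < v (inv lam x) := h.pos_v _
  rw [e1, Real.mul_rpow hr.le (by positivity)]
  simp only [kel]
  rw [Real.mul_rpow (by positivity) hvy.le]
  have e2 : (t ^ 2) ^ A = t ^ (2 * A) := by
    rw [← Real.rpow_natCast, ← Real.rpow_mul htpos.le]
    norm_num
  have e3 : (t ^ N) ^ p = t ^ ((N:ℝ) * p) := by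
    rw [← Real.rpow_natCast, ← Real.rpow_mul htpos.le]
  have e4 : t ^ (N + 4) = t ^ ((N:ℝ) + 4) := by
    rw [← Real.rpow_natCast]; push_cast; rfl
  have e5 : t ^ (kap N p A) = t ^ ((N:ℝ) + 4) * t ^ (2 * A) / t ^ ((N:ℝ) * p) := by
    rw [← Real.rpow_add htpos, ← Real.rpow_sub htpos, kap]
  rw [e2, e3, e4, e5]
  field_simp

lemma laplacian_kel_v (hn : n = N + 2) {lam : ℝ} (hl : 0 < lam) {x : Eu n} (hx : x ≠ 0) :
    Laplacian.laplacian (kel N lam v) x =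
      -(‖x‖ ^ B * (lam / ‖x‖) ^ (kap N q B) * (kel N lam u x) ^ q) :=
  laplacian_kel_u h.swap hn hl hx

omit h in
lemma kel_pos_of {f : Eu n → ℝ} (hf : ∀ x, 0 < f x) {lam : ℝ} (hl : 0 < lam) {x : Eu n}
    (hx : x ≠ 0) : 0 < kel N lam f x := by
  have hr : 0 < ‖x‖ := norm_pos_iff.2 hx
  have := hf (inv lam x)
  rw [kel]
  positivity

omit h in
lemma continuousAt_kel {f : Eu n → ℝ} (hf : Continuous f) {lam : ℝ} {x : Eu n} (hx : x ≠ 0) :
    ContinuousAt (kel N lam f) x := by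
  have h1 : ContinuousAt (fun y : Eu n => ‖y‖) x := continuous_norm.continuousAt
  have hr : ‖x‖ ≠ 0 := norm_ne_zero_iff.2 hx
  have h2 : ContinuousAt (fun y : Eu n => (lam / ‖y‖) ^ N) x :=
    (continuousAt_const.div h1 hr).pow N
  have h3 : ContinuousAt (inv lam : Eu n → Eu n) x := (contDiffAt_inv hx).continuousAt
  have h4 : ContinuousAt (fun y : Eu n => f (inv lam y)) x := hf.continuousAt.comp h3
  exact h2.mul h4

lemma laplacian_sub_kel_u (hn : n = N + 2) {lam : ℝ} (hl : 0 < lam) {x : Eu n} (hx : x ≠ 0) :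
    Laplacian.laplacian (fun y => u y - kel N lam u y) x =
      ‖x‖ ^ A * ((lam / ‖x‖) ^ (kap N p A) * (kel N lam v x) ^ p - v x ^ p) := by
  have hy : inv lam x ≠ 0 := inv_ne_zero hl hx
  have h1 := contDiffAt_u h hx
  have h2 : ContDiffAt ℝ 2 (kel N lam u) x := contDiffAt_kel hx (contDiffAt_u h hy)
  have e : (fun y => u y - kel N lam u y) = u - kel N lam u := by
    funext y; simp
  rw [e, h1.laplacian_sub h2, laplacian_u h hx, laplacian_kel_u h hn hl hx]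
  ring

lemma laplacian_sub_kel_v (hn : n = N + 2) {lam : ℝ} (hl : 0 < lam) {x : Eu n} (hx : x ≠ 0) :
    Laplacian.laplacian (fun y => v y - kel N lam v y) x =
      ‖x‖ ^ B * ((lam / ‖x‖) ^ (kap N q B) * (kel N lam u x) ^ q - u x ^ q) :=
  laplacian_sub_kel_u h.swap hn hl hx

end basic

/-- Power difference bound. -/
lemma rpow_sub_rpow_le {p l M a b : ℝ} (hp : 0 < p) (hl : 0 < l) (hla : l ≤ a) (hab : a < b)
    (hbM : b ≤ M) : b ^ p - a ^ p ≤ p * (l ^ (p - 1) + M ^ (p - 1)) * (b - a) := by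
  have ha : 0 < a := by linarith
  have hb : 0 < b := by linarith
  have hM : 0 < M := by linarith
  have hder : ∀ x ∈ Ioo a b, HasDerivAt (fun x : ℝ => x ^ p) (p * x ^ (p - 1)) x := fun x hx =>
    Real.hasDerivAt_rpow_const (Or.inl (by linarith [hx.1] : (0:ℝ) < x).ne')
  have hcont : ContinuousOn (fun x : ℝ => x ^ p) (Icc a b) := fun x hx =>
    (Real.continuousAt_rpow_const x p (Or.inl (by linarith [hx.1] : (0:ℝ) < x).ne')).continuousWithinAt
  obtain ⟨ξ, hξ, hξeq⟩ := exists_hasDerivAt_eq_slope (fun x : ℝ => x ^ p)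
    (fun x => p * x ^ (p - 1)) hab hcont hder
  have hξ0 : 0 < ξ := by linarith [hξ.1]
  have hsub : 0 < b - a := by linarith
  have h1 : b ^ p - a ^ p = p * ξ ^ (p - 1) * (b - a) := by
    rw [hξeq]
    field_simp
  have h2 : ξ ^ (p - 1) ≤ l ^ (p - 1) + M ^ (p - 1) := by
    rcases le_total 0 (p - 1) with h0 | h0
    · have : ξ ^ (p - 1) ≤ M ^ (p - 1) :=
        Real.rpow_le_rpow hξ0.le (by linarith [hξ.2]) h0
      have h3 : 0 ≤ l ^ (p - 1) := by positivity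
      linarith
    · have : ξ ^ (p - 1) ≤ l ^ (p - 1) :=
        Real.rpow_le_rpow_of_nonpos hl (by linarith [hξ.1]) h0
      have h3 : 0 ≤ M ^ (p - 1) := by positivity
      linarith
  rw [h1]
  gcongr

/-- Positive bounds on balls. -/
lemma exists_ball_bounds {f g : Eu n → ℝ} (hf : Continuous f) (hg : Continuous g)
    (hfp : ∀ x, 0 < f x) (hgp : ∀ x, 0 < g x) {R : ℝ} (hR : 0 ≤ R) :
    ∃ l M : ℝ, 0 < l ∧ 0 < M ∧ ∀ x : Eu n, ‖x‖ ≤ R →
      l ≤ f x ∧ f x ≤ M ∧ l ≤ g x ∧ g x ≤ M := by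
  have hc : IsCompact (Metric.closedBall (0 : Eu n) R) := isCompact_closedBall _ _
  have hne : (Metric.closedBall (0 : Eu n) R).Nonempty := ⟨0, by simpa using hR⟩
  obtain ⟨x₁, hx₁, hmin₁⟩ := hc.exists_isMinOn hne hf.continuousOn
  obtain ⟨x₂, hx₂, hmax₁⟩ := hc.exists_isMaxOn hne hf.continuousOn
  obtain ⟨x₃, hx₃, hmin₂⟩ := hc.exists_isMinOn hne hg.continuousOn
  obtain ⟨x₄, hx₄, hmax₂⟩ := hc.exists_isMaxOn hne hg.continuousOn
  refine ⟨min (f x₁) (g x₃), max (f x₂) (g x₄), lt_min (hfp _) (hgp _),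
    lt_max_of_lt_left (hfp _), ?_⟩
  intro x hx
  have hxb : x ∈ Metric.closedBall (0 : Eu n) R := by simpa using hx
  exact ⟨(min_le_left _ _).trans (hmin₁ hxb), (hmax₁ hxb).trans (le_max_left _ _),
    (min_le_right _ _).trans (hmin₂ hxb), (hmax₂ hxb).trans (le_max_right _ _)⟩

/-- The Kelvin transform is bounded by the sup over the inner ball. -/
lemma kel_le_of_ball {f : Eu n → ℝ} (hf : ∀ x, 0 < f x) {lam M : ℝ} (hl : 0 < lam) {x : Eu n}
    (hx : lam ≤ ‖x‖) (hM : ∀ y : Eu n, ‖y‖ ≤ lam → f y ≤ M) : kel N lam f x ≤ M := by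
  have hr : 0 < ‖x‖ := by linarith
  have hx0 : x ≠ 0 := norm_pos_iff.1 hr
  have h1 : ‖inv lam x‖ ≤ lam := by
    rw [norm_inv hl hx0, div_le_iff₀ hr]
    nlinarith
  have h2 := hM _ h1
  have h3 : (lam / ‖x‖) ^ N ≤ 1 := by
    apply pow_le_one₀ (by positivity)
    rw [div_le_one hr]
    exact hx
  have hpos := hf (inv lam x)
  have hM0 : 0 ≤ M := by linarith
  rw [kel]
  calc (lam / ‖x‖) ^ N * f (inv lam x) ≤ 1 * M := by
        apply mul_le_mul h3 h2 hpos.le (by norm_num)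
    _ = M := one_mul M

/-- The ordering at radius `lam`. -/
def Ord (N : ℕ) (lam : ℝ) (u v : Eu n → ℝ) : Prop :=
  ∀ x : Eu n, lam ≤ ‖x‖ → kel N lam u x ≤ u x ∧ kel N lam v x ≤ v x

/-- The comparison principle on an annulus outside the sphere of radius `lam`. -/
theorem annulus_compare (h : IsPositiveEntireSolution n p q A B u v) (hn : n = N + 2)
    (hp : 0 < p) (hq : 0 < q) (hκ₁ : 0 ≤ kap N p A) (hκ₂ : 0 ≤ kap N q B) {lam ρ₁ ρ₂ C₁ C₂ : ℝ} (hl : 0 < lam)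
    (hρ : lam ≤ ρ₁) (hC₁0 : 0 ≤ C₁) (hC₂0 : 0 ≤ C₂)
    (hC₁ : ∀ x : Eu n, ρ₁ < ‖x‖ → ‖x‖ < ρ₂ → v x < kel N lam v x →
      kel N lam v x ^ p - v x ^ p ≤ C₁ * (kel N lam v x - v x))
    (hC₂ : ∀ x : Eu n, ρ₁ < ‖x‖ → ‖x‖ < ρ₂ → u x < kel N lam u x →
      kel N lam u x ^ q - u x ^ q ≤ C₂ * (kel N lam u x - u x))
    {b : Eu n → ℝ} (hbc : ContinuousOn b (Ann n ρ₁ ρ₂))
    (hbC : ∀ x, ρ₁ < ‖x‖ → ‖x‖ < ρ₂ → ContDiffAt ℝ 2 b x)
    (hbpos : ∀ x ∈ Ann n ρ₁ ρ₂, 0 < b x)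
    (hb1 : ∀ x : Eu n, ρ₁ < ‖x‖ → ‖x‖ < ρ₂ → C₁ * ‖x‖ ^ A * b x < - Laplacian.laplacian b x)
    (hb2 : ∀ x : Eu n, ρ₁ < ‖x‖ → ‖x‖ < ρ₂ → C₂ * ‖x‖ ^ B * b x < - Laplacian.laplacian b x)
    (hbw : ∀ x : Eu n, ‖x‖ = ρ₁ ∨ ‖x‖ = ρ₂ → kel N lam u x ≤ u x)
    (hbz : ∀ x : Eu n, ‖x‖ = ρ₁ ∨ ‖x‖ = ρ₂ → kel N lam v x ≤ v x) :
    ∀ x ∈ Ann n ρ₁ ρ₂, kel N lam u x ≤ u x ∧ kel N lam v x ≤ v x := by
  have hne : ∀ x : Eu n, ρ₁ ≤ ‖x‖ → x ≠ 0 := by
    intro x hx h0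
    rw [h0, norm_zero] at hx
    linarith
  -- one half of the argument, applied twice
  have key : ∀ {p A : ℝ} {u v : Eu n → ℝ} {C : ℝ}, 0 < p → 0 ≤ kap N p A → 0 ≤ C →
      (∀ x, 0 < u x) → (∀ x, 0 < v x) →
      (∀ x : Eu n, ρ₁ < ‖x‖ → ‖x‖ < ρ₂ → v x < kel N lam v x →
        kel N lam v x ^ p - v x ^ p ≤ C * (kel N lam v x - v x)) →
      (∀ x : Eu n, ρ₁ < ‖x‖ → ‖x‖ < ρ₂ → C * ‖x‖ ^ A * b x < - Laplacian.laplacian b x) →
      ∀ x : Eu n, ρ₁ < ‖x‖ → ‖x‖ < ρ₂ → ∀ m : ℝ, m < 0 → m * b x ≤ v x - kel N lam v x →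
        ‖x‖ ^ A * ((lam / ‖x‖) ^ (kap N p A) * (kel N lam v x) ^ p - v x ^ p)
          < m * Laplacian.laplacian b x := by
    intro p A u v C hp hκ hC _ hvpos hCbd hbd x h1 h2 m hm hz
    have hx0 := hne x h1.le
    have hr : 0 < ‖x‖ := norm_pos_iff.2 hx0
    have hKpos : 0 < kel N lam v x := kel_pos_of hvpos hl hx0
    have hVpos := hvpos x
    set K := kel N lam v x with hK
    set V := v x with hV
    have hτ : (lam / ‖x‖) ^ (kap N p A) ≤ 1 := by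
      apply Real.rpow_le_one (by positivity) _ hκ
      rw [div_le_one hr]
      linarith
    have hKp : 0 < K ^ p := by positivity
    have hAp : 0 < ‖x‖ ^ A := by positivity
    have hbxpos : 0 < b x := hbpos x ⟨h1.le, h2.le⟩
    have hlapb := hbd x h1 h2
    have hb0 : 0 < - Laplacian.laplacian b x := by
      have : 0 ≤ C * ‖x‖ ^ A * b x := by positivity
      linarith
    have hstep : ‖x‖ ^ A * ((lam / ‖x‖) ^ (kap N p A) * K ^ p - V ^ p) ≤
        ‖x‖ ^ A * (K ^ p - V ^ p) := by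
      gcongr
      nlinarith
    have hmb : m * Laplacian.laplacian b x = (-m) * (- Laplacian.laplacian b x) := by ring
    have hmb0 : 0 < (-m) * (- Laplacian.laplacian b x) := mul_pos (by linarith) hb0
    rcases le_or_gt K V with hcase | hcase
    · -- `K ≤ V`
      have : K ^ p ≤ V ^ p := Real.rpow_le_rpow hKpos.le hcase hp.le
      have h3 : ‖x‖ ^ A * (K ^ p - V ^ p) ≤ 0 :=
        mul_nonpos_of_nonneg_of_nonpos hAp.le (by linarith)
      rw [hmb]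
      linarith
    · -- `V < K`
      have h3 := hCbd x h1 h2 hcase
      have h4 : K - V ≤ (-m) * b x := by linarith
      have h5 : ‖x‖ ^ A * (K ^ p - V ^ p) ≤ ‖x‖ ^ A * (C * ((-m) * b x)) := by
        gcongr
        exact h3.trans (mul_le_mul_of_nonneg_left h4 hC)
      have h6 : ‖x‖ ^ A * (C * ((-m) * b x)) = (-m) * (C * ‖x‖ ^ A * b x) := by ring
      have h7 : (-m) * (C * ‖x‖ ^ A * b x) < (-m) * (- Laplacian.laplacian b x) :=
        mul_lt_mul_of_pos_left hlapb (by linarith)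
      rw [hmb]
      linarith
  have hmain := ann_system_mp (w := fun x => u x - kel N lam u x)
    (z := fun x => v x - kel N lam v x) (b := b) (ρ₁ := ρ₁) (ρ₂ := ρ₂)
    (by
      intro x hx
      exact (h.continuous_u.continuousAt.sub
        (continuousAt_kel h.continuous_u (hne x hx.1))).continuousWithinAt)
    (by
      intro x hx
      exact (h.continuous_v.continuousAt.sub
        (continuousAt_kel h.continuous_v (hne x hx.1))).continuousWithinAt)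
    hbc
    (fun x h1 _ => (contDiffAt_u h (hne x h1.le)).sub
      (contDiffAt_kel (hne x h1.le) (contDiffAt_u h (inv_ne_zero hl (hne x h1.le)))))
    (fun x h1 _ => (contDiffAt_v h (hne x h1.le)).sub
      (contDiffAt_kel (hne x h1.le) (contDiffAt_v h (inv_ne_zero hl (hne x h1.le)))))
    hbC hbpos
    (by
      intro x h1 h2 m hm _ hz
      rw [laplacian_sub_kel_u h hn hl (hne x h1.le)]
      exact key hp hκ₁ hC₁0 h.pos_u h.pos_v hC₁ hb1 x h1 h2 m hm hz)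
    (by
      intro x h1 h2 m hm _ hz
      rw [laplacian_sub_kel_v h hn hl (hne x h1.le)]
      exact key hq hκ₂ hC₂0 h.pos_v h.pos_u hC₂ hb2 x h1 h2 m hm hz)
    (fun x hx => by have := hbw x hx; linarith)
    (fun x hx => by have := hbz x hx; linarith)
  intro x hx
  have := hmain x hx
  exact ⟨by linarith [this.1], by linarith [this.2]⟩

/-- The constants in the power difference bound hold on a ball. -/
lemma power_bound (hf : ∀ x : Eu n, 0 < v x) {p l M lam R : ℝ} (hp : 0 < p) (hl0 : 0 < l)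
    (hlam : 0 < lam) (hlamR : lam ≤ R)
    (hbd : ∀ x : Eu n, ‖x‖ ≤ R → l ≤ v x ∧ v x ≤ M) {x : Eu n} (hx1 : lam ≤ ‖x‖) (hx2 : ‖x‖ ≤ R)
    (hlt : v x < kel N lam v x) :
    kel N lam v x ^ p - v x ^ p ≤ (p * (l ^ (p - 1) + M ^ (p - 1))) * (kel N lam v x - v x) := by
  apply rpow_sub_rpow_le hp hl0 (hbd x hx2).1 hlt
  exact kel_le_of_ball hf hlam hx1 (fun y hy => (hbd y (hy.trans hlamR)).2)

/-- Superharmonicity of the solution away from the origin. -/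
lemma laplacian_u_neg (h : IsPositiveEntireSolution n p q A B u v) {x : Eu n} (hx : x ≠ 0) :
    Laplacian.laplacian u x < 0 := by
  rw [laplacian_u h hx]
  have hr : 0 < ‖x‖ := norm_pos_iff.2 hx
  have := h.pos_v x
  have h1 : 0 < ‖x‖ ^ A * v x ^ p := by positivity
  linarith

/-- Start of the moving sphere procedure. -/
theorem moving_start (h : IsPositiveEntireSolution n p q A B u v) (hn : n = N + 2) (hN : 1 ≤ N)
    (hp : 0 < p) (hq : 0 < q) (hA : -2 < A) (hB : -2 < B)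
    (hκ₁ : 0 ≤ kap N p A) (hκ₂ : 0 ≤ kap N q B) :
    ∃ lam₀ > 0, ∀ lam, 0 < lam → lam < lam₀ → Ord N lam u v := by
  obtain ⟨l, M, hl0, hM0, hbd⟩ := exists_ball_bounds h.continuous_u h.continuous_v h.pos_u h.pos_v
    (R := 1) zero_le_one
  set C₁ := p * (l ^ (p - 1) + M ^ (p - 1)) with hC₁
  set C₂ := q * (l ^ (q - 1) + M ^ (q - 1)) with hC₂
  have hC₁0 : 0 < C₁ := by positivity
  have hC₂0 : 0 < C₂ := by positivity
  have hNpos : (0:ℝ) < N := by exact_mod_cast hN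
  set c : ℝ := (N:ℝ) / 2 with hc
  have hcpos : 0 < c := by positivity
  -- choose the radius `r₀`
  have hsmall : ∀ {a C : ℝ}, 0 < a → 0 < C → ∀ᶠ r in 𝓝[>] (0:ℝ), C * r ^ a < c ^ 2 := by
    intro a C ha hC
    have h1 : Tendsto (fun r : ℝ => C * r ^ a) (𝓝 0) (𝓝 (C * (0:ℝ) ^ a)) :=
      ((Real.continuousAt_rpow_const 0 a (Or.inr ha.le)).tendsto).const_mul C
    rw [Real.zero_rpow ha.ne', mul_zero] at h1
    have h2 : ∀ᶠ r in 𝓝 (0:ℝ), C * r ^ a < c ^ 2 := h1.eventually (gt_mem_nhds (by positivity))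
    exact h2.filter_mono nhdsWithin_le_nhds
  obtain ⟨r₀, hr₁, hr₂, hr₃, hr₄⟩ : ∃ r₀ : ℝ, C₁ * r₀ ^ (A + 2) < c ^ 2 ∧
      C₂ * r₀ ^ (B + 2) < c ^ 2 ∧ 0 < r₀ ∧ r₀ < 1 := by
    have h3 : ∀ᶠ r in 𝓝[>] (0:ℝ), r ∈ Ioo (0:ℝ) 1 := Ioo_mem_nhdsGT one_pos
    have := (hsmall (by linarith : 0 < A + 2) hC₁0).and ((hsmall (by linarith : 0 < B + 2) hC₂0).and h3)
    obtain ⟨r, a, b', c'⟩ := this.exists
    exact ⟨r, a, b', c'.1, c'.2⟩
  -- exterior lower bounds for `u`, `v`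
  have hext : ∀ x : Eu n, r₀ ≤ ‖x‖ → l * r₀ ^ N ≤ u x * ‖x‖ ^ N ∧ l * r₀ ^ N ≤ v x * ‖x‖ ^ N := by
    intro x hx
    have hne : ∀ y : Eu n, r₀ < ‖y‖ → y ≠ 0 := by
      intro y hy h0
      rw [h0, norm_zero] at hy
      linarith
    constructor
    · exact exterior_bound hn hN hr₃ h.continuous_u.continuousOn
        (fun y hy => contDiffAt_u h (hne y hy)) (fun y hy => laplacian_u_neg h (hne y hy))
        (fun y _ => (h.pos_u y).le)
        (fun y hy => (hbd y (by rw [hy]; exact hr₄.le)).1) hl0.le hx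
    · exact exterior_bound hn hN hr₃ h.continuous_v.continuousOn
        (fun y hy => contDiffAt_v h (hne y hy)) (fun y hy => laplacian_u_neg h.swap (hne y hy))
        (fun y _ => (h.pos_v y).le)
        (fun y hy => (hbd y (by rw [hy]; exact hr₄.le)).2.2.1) hl0.le hx
  -- the radius `lam₀`
  have hlM : l ≤ M := (hbd 0 (by simp)).1.trans (hbd 0 (by simp)).2.1
  set lam₀ := r₀ * (l / M) with hlam₀
  have hq1 : l / M ≤ 1 := by rw [div_le_one hM0]; exact hlM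
  have hlam₀pos : 0 < lam₀ := by positivity
  have hlam₀le : lam₀ ≤ r₀ := by
    rw [hlam₀]
    nlinarith
  refine ⟨lam₀, hlam₀pos, ?_⟩
  intro lam hl hlt
  have hlamr : lam < r₀ := lt_of_lt_of_le hlt hlam₀le
  have hlam1 : lam ≤ 1 := by linarith
  have hlN : lam ^ N * M ≤ l * r₀ ^ N := by
    have h1 : lam ^ N ≤ lam₀ ^ N := by
      gcongr
    have h2 : lam₀ ^ N * M ≤ l * r₀ ^ N := by
      rw [hlam₀, mul_pow]
      have h3 : (l / M) ^ N ≤ l / M := by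
        calc (l / M) ^ N ≤ (l / M) ^ 1 := pow_le_pow_of_le_one (by positivity) hq1 hN
          _ = l / M := pow_one _
      calc r₀ ^ N * (l / M) ^ N * M ≤ r₀ ^ N * (l / M) * M := by gcongr
        _ = l * r₀ ^ N := by field_simp
    calc lam ^ N * M ≤ lam₀ ^ N * M := by gcongr
      _ ≤ _ := h2
  -- ordering on the exterior
  have hextord : ∀ x : Eu n, r₀ ≤ ‖x‖ → kel N lam u x ≤ u x ∧ kel N lam v x ≤ v x := by
    intro x hx
    have hr : 0 < ‖x‖ := by linarith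
    have hlx : lam ≤ ‖x‖ := by linarith
    obtain ⟨h1, h2⟩ := hext x hx
    have hpow : 0 < ‖x‖ ^ N := by positivity
    have hkey : ∀ {f : Eu n → ℝ}, (∀ y : Eu n, ‖y‖ ≤ lam → f y ≤ M) →
        l * r₀ ^ N ≤ f x * ‖x‖ ^ N → kel N lam f x ≤ f x := by
      intro f hfM hfl
      have hinv : ‖inv lam x‖ ≤ lam := by
        rw [norm_inv hl (norm_pos_iff.1 hr), div_le_iff₀ hr]
        nlinarith
      have h3 := hfM _ hinv
      have e : kel N lam f x * ‖x‖ ^ N = lam ^ N * f (inv lam x) := by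
        rw [kel, div_pow]
        field_simp
      have h4 : lam ^ N * f (inv lam x) ≤ lam ^ N * M := by gcongr
      have h5 : kel N lam f x * ‖x‖ ^ N ≤ f x * ‖x‖ ^ N := by
        rw [e]
        linarith
      exact le_of_mul_le_mul_right h5 hpow
    exact ⟨hkey (fun y hy => (hbd y (hy.trans hlam1)).2.1) h1,
      hkey (fun y hy => (hbd y (hy.trans hlam1)).2.2.2) h2⟩
  -- the annulus
  have hne : ∀ x : Eu n, lam ≤ ‖x‖ → x ≠ 0 := by
    intro x hx h0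
    rw [h0, norm_zero] at hx
    linarith
  have hcast : (n:ℝ) = (N:ℝ) + 2 := by rw [hn]; push_cast; ring
  have hlapb : ∀ x : Eu n, x ≠ 0 → Laplacian.laplacian (fun y : Eu n => ‖y‖ ^ (-c)) x =
      -(c ^ 2 * ‖x‖ ^ (-c - 2)) := by
    intro x hx
    rw [laplacian_rpow_norm (-c) hx, hcast, hc]
    ring
  have hbar : ∀ {a C : ℝ}, C * r₀ ^ (a + 2) < c ^ 2 → 0 < a + 2 → 0 ≤ C → ∀ x : Eu n,
      lam < ‖x‖ → ‖x‖ < r₀ →
      C * ‖x‖ ^ a * ‖x‖ ^ (-c) <
        - Laplacian.laplacian (fun y : Eu n => ‖y‖ ^ (-c)) x := by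
    intro a C hC ha hC0 x h1 h2
    have hr : 0 < ‖x‖ := by linarith
    rw [hlapb x (hne x h1.le), neg_neg]
    have h3 : C * ‖x‖ ^ (a + 2) ≤ C * r₀ ^ (a + 2) := by
      apply mul_le_mul_of_nonneg_left _ hC0
      exact Real.rpow_le_rpow hr.le h2.le ha.le
    have h4 : C * ‖x‖ ^ (a + 2) < c ^ 2 := lt_of_le_of_lt h3 hC
    have e1 : ‖x‖ ^ a * ‖x‖ ^ (-c) = ‖x‖ ^ (a + 2) * ‖x‖ ^ (-c - 2) := by
      rw [← Real.rpow_add hr, ← Real.rpow_add hr]
      congr 1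
      ring
    have hpos : 0 < ‖x‖ ^ (-c - 2) := by positivity
    calc C * ‖x‖ ^ a * ‖x‖ ^ (-c) = (C * ‖x‖ ^ (a + 2)) * ‖x‖ ^ (-c - 2) := by
          rw [mul_assoc, e1]; ring
      _ < c ^ 2 * ‖x‖ ^ (-c - 2) := by gcongr
  have hann := annulus_compare (lam := lam) (ρ₁ := lam) (ρ₂ := r₀) (C₁ := C₁) (C₂ := C₂)
    (b := fun y : Eu n => ‖y‖ ^ (-c)) h hn hp hq hκ₁ hκ₂ hl le_rfl hC₁0.le hC₂0.le
    (fun x h1 h2 hlt => power_bound h.pos_v hp hl0 hl hlam1
      (fun y hy => ⟨(hbd y hy).2.2.1, (hbd y hy).2.2.2⟩) h1.le (by linarith) hlt)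
    (fun x h1 h2 hlt => power_bound h.pos_u hq hl0 hl hlam1
      (fun y hy => ⟨(hbd y hy).1, (hbd y hy).2.1⟩) h1.le (by linarith) hlt)
    (fun x hx => (contDiffAt_rpow_norm (-c) (hne x hx.1)).continuousAt.continuousWithinAt)
    (fun x h1 _ => contDiffAt_rpow_norm (-c) (hne x h1.le))
    (fun x hx => by
      have := norm_pos_iff.2 (hne x hx.1)
      positivity)
    (fun x h1 h2 => hbar hr₁ (by linarith) hC₁0.le x h1 h2)
    (fun x h1 h2 => hbar hr₂ (by linarith) hC₂0.le x h1 h2)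
    (fun x hx => by
      rcases hx with hx | hx
      · rw [kel_of_norm_eq hl hx]
      · exact (hextord x hx.ge).1)
    (fun x hx => by
      rcases hx with hx | hx
      · rw [kel_of_norm_eq hl hx]
      · exact (hextord x hx.ge).2)
  intro x hx
  rcases le_total ‖x‖ r₀ with hxr | hxr
  · exact hann x ⟨hx, hxr⟩
  · exact hextord x hxr

lemma Ord.swap {lam : ℝ} (hO : Ord N lam u v) : Ord N lam v u :=
  fun x hx => ⟨(hO x hx).2, (hO x hx).1⟩

/-- Half of the strictness argument. -/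
lemma half_strict (h : IsPositiveEntireSolution n p q A B u v) (hn : n = N + 2) {lam : ℝ}
    (hl : 0 < lam) (hw : ∀ x : Eu n, lam < ‖x‖ → kel N lam u x ≤ u x)
    (hs : ∀ x : Eu n, lam < ‖x‖ → (lam / ‖x‖) ^ (kap N p A) * (kel N lam v x) ^ p < v x ^ p)
    {x : Eu n} (hx : lam < ‖x‖) : kel N lam u x < u x := by
  have hne : ∀ y : Eu n, lam < ‖y‖ → y ≠ 0 := by
    intro y hy h0
    rw [h0, norm_zero] at hy
    linarith
  apply lt_of_le_of_ne (hw x hx)
  intro heq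
  have hC : ContDiffAt ℝ 2 (fun y => u y - kel N lam u y) x :=
    (contDiffAt_u h (hne x hx)).sub
      (contDiffAt_kel (hne x hx) (contDiffAt_u h (inv_ne_zero hl (hne x hx))))
  have hloc : IsLocalMin (fun y => u y - kel N lam u y) x := by
    have hnh : {y : Eu n | lam < ‖y‖} ∈ 𝓝 x :=
      (isOpen_lt continuous_const continuous_norm).mem_nhds hx
    filter_upwards [hnh] with y hy
    have := hw y hy
    show u x - kel N lam u x ≤ u y - kel N lam u y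
    rw [heq]
    linarith
  have h1 := laplacian_nonneg_of_isLocalMin hC hloc
  rw [laplacian_sub_kel_u h hn hl (hne x hx)] at h1
  have hr : 0 < ‖x‖ := norm_pos_iff.2 (hne x hx)
  have hpos : 0 < ‖x‖ ^ A := by positivity
  have h2 := hs x hx
  have : ‖x‖ ^ A * ((lam / ‖x‖) ^ (kap N p A) * kel N lam v x ^ p - v x ^ p) < 0 :=
    mul_neg_of_pos_of_neg hpos (by linarith)
  linarith

/-- The ordering is strict, when one of the Kelvin exponents is positive. -/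
theorem strict_ord (h : IsPositiveEntireSolution n p q A B u v) (hn : n = N + 2)
    (hp : 0 < p) (hq : 0 < q) (hκ₁ : 0 ≤ kap N p A) (hκ₂ : 0 ≤ kap N q B)
    (hs : 0 < kap N p A ∨ 0 < kap N q B) {lam : ℝ} (hl : 0 < lam) (hO : Ord N lam u v)
    {x : Eu n} (hx : lam < ‖x‖) : kel N lam u x < u x ∧ kel N lam v x < v x := by
  have hne : ∀ y : Eu n, lam < ‖y‖ → y ≠ 0 := by
    intro y hy h0
    rw [h0, norm_zero] at hy
    linarith
  -- from strict `τ`, or from strict ordering of the other function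
  have hstep1 : ∀ {p q A B : ℝ} {u v : Eu n → ℝ}, IsPositiveEntireSolution n p q A B u v → 0 < p →
      0 < kap N p A → Ord N lam u v → ∀ y : Eu n, lam < ‖y‖ → kel N lam u y < u y := by
    intro p q A B u v h hp hκ hO y hy
    apply half_strict h hn hl (fun z hz => (hO z hz.le).1) _ hy
    intro z hz
    have hr : 0 < ‖z‖ := norm_pos_iff.2 (hne z hz)
    have hτ : (lam / ‖z‖) ^ (kap N p A) < 1 := by
      apply Real.rpow_lt_one (by positivity) _ hκ
      rw [div_lt_one hr]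
      exact hz
    have hK : 0 < kel N lam v z := kel_pos_of h.pos_v hl (hne z hz)
    have hKp : 0 < kel N lam v z ^ p := by positivity
    have hle : kel N lam v z ^ p ≤ v z ^ p :=
      Real.rpow_le_rpow hK.le (hO z hz.le).2 hp.le
    nlinarith
  have hstep2 : ∀ {p q A B : ℝ} {u v : Eu n → ℝ}, IsPositiveEntireSolution n p q A B u v → 0 < q →
      0 ≤ kap N q B → Ord N lam u v → (∀ y : Eu n, lam < ‖y‖ → kel N lam u y < u y) →
      ∀ y : Eu n, lam < ‖y‖ → kel N lam v y < v y := by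
    intro p q A B u v h hq hκ hO hstrict y hy
    apply half_strict h.swap hn hl (fun z hz => (hO z hz.le).2) _ hy
    intro z hz
    have hr : 0 < ‖z‖ := norm_pos_iff.2 (hne z hz)
    have hτ : (lam / ‖z‖) ^ (kap N q B) ≤ 1 := by
      apply Real.rpow_le_one (by positivity) _ hκ
      rw [div_le_one hr]
      exact hz.le
    have hK : 0 < kel N lam u z := kel_pos_of h.pos_u hl (hne z hz)
    have hKp : 0 < kel N lam u z ^ q := by positivity
    have hlt : kel N lam u z ^ q < u z ^ q :=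
      Real.rpow_lt_rpow hK.le (hstrict z hz) hq
    nlinarith
  rcases hs with hs | hs
  · have h1 := hstep1 h hp hs hO
    exact ⟨h1 x hx, hstep2 h hq hκ₂ hO h1 x hx⟩
  · have h1 := hstep1 h.swap hq hs hO.swap
    exact ⟨hstep2 h.swap hp hκ₁ hO.swap h1 x hx, h1 x hx⟩

/-- Lower bound for positive continuous functions on compact sets. -/
lemma pos_lower_bound {K : Set (Eu n)} (hK : IsCompact K) {f : Eu n → ℝ} (hc : ContinuousOn f K)
    (hpos : ∀ x ∈ K, 0 < f x) : ∃ m > 0, ∀ x ∈ K, m ≤ f x := by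
  rcases K.eq_empty_or_nonempty with h0 | hne
  · exact ⟨1, one_pos, by simp [h0]⟩
  · obtain ⟨x₁, hx₁, hmin⟩ := hK.exists_isMinOn hne hc
    exact ⟨f x₁, hpos x₁ hx₁, fun x hx => hmin hx⟩

/-- The exterior estimate for the Kelvin difference. -/
lemma exterior_w (h : IsPositiveEntireSolution n p q A B u v) (hn : n = N + 2) (hN : 1 ≤ N)
    (hp : 0 < p) (hκ₁ : 0 ≤ kap N p A) {lam ρ m : ℝ} (hl : 0 < lam) (hρ : lam < ρ) (hm0 : 0 ≤ m)
    (hstrictu : ∀ x : Eu n, lam < ‖x‖ → kel N lam u x < u x)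
    (hstrictv : ∀ x : Eu n, lam < ‖x‖ → kel N lam v x < v x)
    (hm : ∀ x : Eu n, ‖x‖ = ρ → m ≤ u x - kel N lam u x) {x : Eu n} (hx : ρ ≤ ‖x‖) :
    m * ρ ^ N ≤ (u x - kel N lam u x) * ‖x‖ ^ N := by
  have hρ0 : 0 < ρ := by linarith
  have hne : ∀ y : Eu n, ρ ≤ ‖y‖ → y ≠ 0 := by
    intro y hy h0
    rw [h0, norm_zero] at hy
    linarith
  apply exterior_bound (f := fun y => u y - kel N lam u y) hn hN hρ0 _ _ _ _ hm hm0 hx
  · intro y hy
    exact (h.continuous_u.continuousAt.sub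
      (continuousAt_kel h.continuous_u (hne y hy))).continuousWithinAt
  · intro y hy
    exact (contDiffAt_u h (hne y hy.le)).sub
      (contDiffAt_kel (hne y hy.le) (contDiffAt_u h (inv_ne_zero hl (hne y hy.le))))
  · intro y hy
    have hy0 := hne y hy.le
    have hr : 0 < ‖y‖ := norm_pos_iff.2 hy0
    rw [laplacian_sub_kel_u h hn hl hy0]
    have hly : lam < ‖y‖ := by linarith
    have hτ : (lam / ‖y‖) ^ (kap N p A) ≤ 1 := by
      apply Real.rpow_le_one (by positivity) _ hκ₁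
      rw [div_le_one hr]
      exact hly.le
    have hK : 0 < kel N lam v y := kel_pos_of h.pos_v hl hy0
    have hKp : 0 < kel N lam v y ^ p := by positivity
    have hlt : kel N lam v y ^ p < v y ^ p :=
      Real.rpow_lt_rpow hK.le (hstrictv y hly) hp
    apply mul_neg_of_pos_of_neg (by positivity)
    nlinarith
  · intro y hy
    have := hstrictu y (by linarith)
    show 0 ≤ u y - kel N lam u y
    linarith

/-- The joint parametrisation of the Kelvin transform. -/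
lemma kel_mul_norm_pow (lam : ℝ) (f : Eu n → ℝ) {x : Eu n} (hx : x ≠ 0) :
    kel N lam f x * ‖x‖ ^ N = lam ^ N * f (lam ^ 2 • ((‖x‖ ^ 2)⁻¹ • x)) := by
  have hr : 0 < ‖x‖ := norm_pos_iff.2 hx
  have e : inv lam x = lam ^ 2 • ((‖x‖ ^ 2)⁻¹ • x) := by
    rw [inv, smul_smul, div_eq_mul_inv]
  rw [kel, e, div_pow]
  field_simp

lemma rpow_le_sum {A a r : ℝ} (ha : 0 < a) (h1 : a ≤ r) (h2 : r ≤ a + 1) :
    r ^ A ≤ a ^ A + (a + 1) ^ A := by
  have hr : 0 < r := by linarith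
  rcases le_total 0 A with h0 | h0
  · have : r ^ A ≤ (a + 1) ^ A := Real.rpow_le_rpow hr.le h2 h0
    have h3 : 0 ≤ a ^ A := by positivity
    linarith
  · have : r ^ A ≤ a ^ A := Real.rpow_le_rpow_of_nonpos ha h1 h0
    have h3 : 0 ≤ (a + 1) ^ A := by positivity
    linarith

/-- Uniform continuity of the parametrised Kelvin transform. -/
lemma uniform_kelvin {f : Eu n → ℝ} (hf : Continuous f) (lb ρ ε : ℝ) (hε : 0 < ε) :
    ∃ δ > 0, ∀ lam, lb ≤ lam → lam ≤ lb + 1 → lam - lb < δ → ∀ ζ : Eu n, ‖ζ‖ ≤ ρ →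
      |lam ^ N * f (lam ^ 2 • ζ) - lb ^ N * f (lb ^ 2 • ζ)| < ε := by
  have hcont : Continuous (fun P : ℝ × Eu n => P.1 ^ N * f (P.1 ^ 2 • P.2)) := by
    have h1 : Continuous (fun P : ℝ × Eu n => P.1 ^ 2 • P.2) :=
      (continuous_fst.pow 2).smul continuous_snd
    exact (continuous_fst.pow N).mul (hf.comp h1)
  have hK : IsCompact (Icc lb (lb + 1) ×ˢ Metric.closedBall (0 : Eu n) ρ) :=
    isCompact_Icc.prod (isCompact_closedBall _ _)
  have huc := hK.uniformContinuousOn_of_continuous hcont.continuousOn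
  rw [Metric.uniformContinuousOn_iff] at huc
  obtain ⟨δ, hδ, hδb⟩ := huc ε hε
  refine ⟨δ, hδ, ?_⟩
  intro lam h1 h2 h3 ζ hζ
  have hζb : ζ ∈ Metric.closedBall (0 : Eu n) ρ := by simpa using hζ
  have hmem1 : (lam, ζ) ∈ Icc lb (lb + 1) ×ˢ Metric.closedBall (0 : Eu n) ρ :=
    ⟨⟨h1, h2⟩, hζb⟩
  have hmem2 : (lb, ζ) ∈ Icc lb (lb + 1) ×ˢ Metric.closedBall (0 : Eu n) ρ :=
    ⟨⟨le_rfl, by linarith⟩, hζb⟩
  have hdist : dist (lam, ζ) (lb, ζ) < δ := by
    rw [Prod.dist_eq, dist_self, max_eq_left dist_nonneg, Real.dist_eq, abs_of_nonneg (by linarith)]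
    exact h3
  have := hδb _ hmem1 _ hmem2 hdist
  rwa [Real.dist_eq] at this

/-- Passing strict exterior bounds to nearby radii. -/
lemma exterior_nearby {f : Eu n → ℝ} (hf : Continuous f) {lb ρ₃ ε : ℝ} (hρ₃0 : 0 < ρ₃) (hε : 0 < ε)
    (hext : ∀ x : Eu n, ρ₃ ≤ ‖x‖ → ε ≤ (f x - kel N lb f x) * ‖x‖ ^ N) :
    ∃ δ > 0, ∀ lam, lb < lam → lam ≤ lb + 1 → lam - lb < δ → ∀ x : Eu n, ρ₃ ≤ ‖x‖ →
      kel N lam f x ≤ f x := by
  obtain ⟨δ, hδ, hb⟩ := uniform_kelvin (N := N) hf lb (1 / ρ₃) ε hε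
  refine ⟨δ, hδ, ?_⟩
  intro lam h1 h2 h3 x hx
  have hr : 0 < ‖x‖ := by linarith
  have hx0 : x ≠ 0 := norm_pos_iff.1 hr
  have hpow : 0 < ‖x‖ ^ N := by positivity
  have hζ : ‖(‖x‖ ^ 2)⁻¹ • x‖ ≤ 1 / ρ₃ := by
    rw [norm_smul, _root_.norm_inv, norm_pow, norm_norm]
    have : (‖x‖ ^ 2)⁻¹ * ‖x‖ = 1 / ‖x‖ := by field_simp
    rw [this]
    exact one_div_le_one_div_of_le hρ₃0 hx
  have e1 := kel_mul_norm_pow (N := N) lam f hx0
  have e2 := kel_mul_norm_pow (N := N) lb f hx0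
  have h4 := (abs_lt.1 (hb lam h1.le h2 h3 _ hζ)).2
  rw [← e1, ← e2] at h4
  have h5 := hext x hx
  have h6 : kel N lam f x * ‖x‖ ^ N ≤ f x * ‖x‖ ^ N := by nlinarith
  exact le_of_mul_le_mul_right h6 hpow

/-- The parabola barrier. -/
lemma parabola_barrier {lb lam W η : ℝ} (hn3 : 2 ≤ n) (hl : 0 < lb) (hW0 : 0 < W) (hlam : lb < lam)
    (hWη : W * η ^ 2 ≤ 1 / 4) :
    let H : Eu n → ℝ := fun y => 1 - W * (‖y‖ - lb) ^ 2
    (ContinuousOn H (Ann n lam (lb + η))) ∧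
    (∀ x : Eu n, lam < ‖x‖ → ContDiffAt ℝ 2 H x) ∧
    (∀ x ∈ Ann n lam (lb + η), 0 < H x) ∧
    (∀ x : Eu n, lam < ‖x‖ → 2 * W ≤ - Laplacian.laplacian H x) ∧
    (∀ x : Eu n, H x ≤ 1) := by
  intro H
  have hφ : ContDiff ℝ 2 (fun r : ℝ => 1 - W * (r - lb) ^ 2) := by
    apply ContDiff.sub contDiff_const
    apply ContDiff.mul contDiff_const
    exact (contDiff_id.sub contDiff_const).pow 2
  have hHd : ∀ s, 0 < s → HasDerivAt (fun r : ℝ => 1 - W * (r - lb) ^ 2)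
      ((fun r : ℝ => -(W * (2 * (r - lb)))) s) s := by
    intro s _
    have h1 : HasDerivAt (fun r : ℝ => r - lb) 1 s := (hasDerivAt_id s).sub_const lb
    have h2 : HasDerivAt (fun r : ℝ => (r - lb) ^ 2) (2 * (s - lb)) s := by
      have h3 : HasDerivAt (fun r : ℝ => (r - lb) ^ 2) (((2:ℕ):ℝ) * (s - lb) ^ (2 - 1) * 1) s :=
        h1.pow 2
      convert h3 using 1
      norm_num
    have h3 : HasDerivAt (fun r : ℝ => 1 - W * (r - lb) ^ 2) (-(W * (2 * (s - lb)))) s :=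
      (h2.const_mul W).const_sub 1
    exact h3
  have hHd1 : ∀ s, 0 < s → HasDerivAt (fun r : ℝ => -(W * (2 * (r - lb))))
      ((fun _ : ℝ => -(W * 2)) s) s := by
    intro s _
    have h1 : HasDerivAt (fun r : ℝ => r - lb) 1 s := (hasDerivAt_id s).sub_const lb
    have h2 : HasDerivAt (fun r : ℝ => 2 * (r - lb)) (2 * 1) s := h1.const_mul 2
    have h3 : HasDerivAt (fun r : ℝ => W * (2 * (r - lb))) (W * (2 * 1)) s := h2.const_mul W
    have h4 : HasDerivAt (fun r : ℝ => -(W * (2 * (r - lb)))) (-(W * (2 * 1))) s := h3.fun_neg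
    simpa using h4
  have hn1 : (1:ℝ) ≤ n := by
    have : 1 ≤ n := by omega
    exact_mod_cast this
  refine ⟨?_, ?_, ?_, ?_, ?_⟩
  · exact (hφ.continuous.comp continuous_norm).continuousOn
  · intro x hx
    have hx0 : x ≠ 0 := by
      intro h0
      rw [h0, norm_zero] at hx
      linarith
    exact ContDiffAt.comp (g := fun r : ℝ => 1 - W * (r - lb) ^ 2) (f := fun y : Eu n => ‖y‖) x
      hφ.contDiffAt (contDiffAt_norm ℝ hx0)
  · intro x hx
    have h3 : 0 ≤ ‖x‖ - lb := by linarith [hx.1]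
    have h4 : ‖x‖ - lb ≤ η := by linarith [hx.2]
    have h5 : (‖x‖ - lb) ^ 2 ≤ η ^ 2 := by gcongr
    have h6 : W * (‖x‖ - lb) ^ 2 ≤ W * η ^ 2 := by gcongr
    show 0 < 1 - W * (‖x‖ - lb) ^ 2
    linarith
  · intro x hx
    have hr : 0 < ‖x‖ := by linarith
    have hx0 := norm_pos_iff.1 hr
    have e := laplacian_radial_general hHd hHd1 hx0 hφ.contDiffAt
    show 2 * W ≤ - Laplacian.laplacian (fun y : Eu n => (1 - W * (‖y‖ - lb) ^ 2 : ℝ)) x
    rw [e]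
    have h1 : 0 ≤ ((n:ℝ) - 1) / ‖x‖ * (W * (2 * (‖x‖ - lb))) := by
      apply mul_nonneg (div_nonneg (by linarith) hr.le)
      apply mul_nonneg hW0.le
      linarith
    nlinarith
  · intro x
    show 1 - W * (‖x‖ - lb) ^ 2 ≤ 1
    nlinarith [mul_nonneg hW0.le (sq_nonneg (‖x‖ - lb))]

/-- Closing the argument on the annulus, given the exterior. -/
lemma moving_annulus (h : IsPositiveEntireSolution n p q A B u v) (hn : n = N + 2)
    (hp : 0 < p) (hq : 0 < q) (hκ₁ : 0 ≤ kap N p A) (hκ₂ : 0 ≤ kap N q B) {lb lam η l M : ℝ}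
    (hl : 0 < lb) (hl0 : 0 < l) (hlam : lb < lam) (hlamη : lam ≤ lb + η) (hη1 : η ≤ 1)
    (hbd : ∀ x : Eu n, ‖x‖ ≤ lb + 2 → l ≤ u x ∧ u x ≤ M ∧ l ≤ v x ∧ v x ≤ M)
    (hW1 : ((p * (l ^ (p - 1) + M ^ (p - 1))) * (lb ^ A + (lb + 1) ^ A) +
      (q * (l ^ (q - 1) + M ^ (q - 1))) * (lb ^ B + (lb + 1) ^ B) + 1) * η ^ 2 ≤ 1 / 4)
    (hext : ∀ x : Eu n, lb + η ≤ ‖x‖ → kel N lam u x ≤ u x ∧ kel N lam v x ≤ v x)
    {x : Eu n} (hx : lam ≤ ‖x‖) (hxr : ‖x‖ ≤ lb + η) :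
    kel N lam u x ≤ u x ∧ kel N lam v x ≤ v x := by
  obtain ⟨C₁, hC₁⟩ : ∃ C₁, C₁ = p * (l ^ (p - 1) + M ^ (p - 1)) := ⟨_, rfl⟩
  obtain ⟨C₂, hC₂⟩ : ∃ C₂, C₂ = q * (l ^ (q - 1) + M ^ (q - 1)) := ⟨_, rfl⟩
  obtain ⟨S₁, hS₁⟩ : ∃ S₁, S₁ = lb ^ A + (lb + 1) ^ A := ⟨_, rfl⟩
  obtain ⟨S₂, hS₂⟩ : ∃ S₂, S₂ = lb ^ B + (lb + 1) ^ B := ⟨_, rfl⟩
  have hM0 : 0 < M := lt_of_lt_of_le hl0 (((hbd 0 (by simp; linarith)).1).trans (hbd 0 (by simp; linarith)).2.1)
  have hC₁0 : 0 < C₁ := by rw [hC₁]; positivity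
  have hC₂0 : 0 < C₂ := by rw [hC₂]; positivity
  have hS₁0 : 0 < S₁ := by rw [hS₁]; positivity
  have hS₂0 : 0 < S₂ := by rw [hS₂]; positivity
  rw [← hC₁, ← hC₂, ← hS₁, ← hS₂] at hW1
  obtain ⟨W, hW⟩ : ∃ W, W = C₁ * S₁ + C₂ * S₂ + 1 := ⟨_, rfl⟩
  rw [← hW] at hW1
  have hW0 : 0 < W := by rw [hW]; positivity
  have hlam0 : 0 < lam := by linarith
  have hcs1 : C₁ * S₁ ≤ W := by
    rw [hW]; have := mul_pos hC₂0 hS₂0; linarith
  have hcs2 : C₂ * S₂ ≤ W := by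
    rw [hW]; have := mul_pos hC₁0 hS₁0; linarith
  have hne : ∀ x : Eu n, lam ≤ ‖x‖ → x ≠ 0 := by
    intro x hx h0
    rw [h0, norm_zero] at hx
    linarith
  obtain ⟨hb1, hb2, hb3, hb4, hb5⟩ := parabola_barrier (n := n) (by omega) hl hW0 hlam hW1
  have hbar : ∀ {a C S : ℝ}, (∀ r, lb ≤ r → r ≤ lb + 1 → r ^ a ≤ S) → 0 ≤ C → C * S ≤ W →
      ∀ x : Eu n, lam < ‖x‖ → ‖x‖ < lb + η →
      C * ‖x‖ ^ a * (1 - W * (‖x‖ - lb) ^ 2) <
        - Laplacian.laplacian (fun y : Eu n => (1 - W * (‖y‖ - lb) ^ 2 : ℝ)) x := by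
    intro a C S hS hC0 hCS x h1 h2
    have hr : 0 < ‖x‖ := by linarith
    have h3 := hb4 x h1
    have h4 : ‖x‖ ^ a ≤ S := hS _ (by linarith) (by linarith)
    have h5 := hb5 x
    have hp1 : 0 < ‖x‖ ^ a := by positivity
    have h7 := hb3 x ⟨h1.le, h2.le⟩
    have h6 : C * ‖x‖ ^ a * (1 - W * (‖x‖ - lb) ^ 2) ≤ C * S * 1 := by
      have h8 : C * ‖x‖ ^ a ≤ C * S := by gcongr
      apply mul_le_mul h8 h5 h7.le (by nlinarith)
    nlinarith
  have hann := annulus_compare (lam := lam) (ρ₁ := lam) (ρ₂ := lb + η) (C₁ := C₁) (C₂ := C₂)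
    (b := fun y : Eu n => (1 - W * (‖y‖ - lb) ^ 2 : ℝ)) h hn hp hq hκ₁ hκ₂ hlam0 le_rfl hC₁0.le hC₂0.le
    (fun x h1 h2 hlt => by
      rw [hC₁]
      exact power_bound (R := lb + 2) h.pos_v hp hl0 hlam0 (by linarith)
        (fun y hy => ⟨(hbd y hy).2.2.1, (hbd y hy).2.2.2⟩) h1.le (by linarith) hlt)
    (fun x h1 h2 hlt => by
      rw [hC₂]
      exact power_bound (R := lb + 2) h.pos_u hq hl0 hlam0 (by linarith)
        (fun y hy => ⟨(hbd y hy).1, (hbd y hy).2.1⟩) h1.le (by linarith) hlt)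
    hb1 (fun x h1 _ => hb2 x h1) hb3
    (fun x h1 h2 => hbar (C := C₁) (S := S₁) (fun r a b => by
        rw [hS₁]; exact rpow_le_sum hl a b) hC₁0.le hcs1 x h1 h2)
    (fun x h1 h2 => hbar (C := C₂) (S := S₂) (fun r a b => by
        rw [hS₂]; exact rpow_le_sum hl a b) hC₂0.le hcs2 x h1 h2)
    (fun x hx => by
      rcases hx with hx | hx
      · rw [kel_of_norm_eq hlam0 hx]
      · exact (hext x hx.ge).1)
    (fun x hx => by
      rcases hx with hx | hx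
      · rw [kel_of_norm_eq hlam0 hx]
      · exact (hext x hx.ge).2)
  exact hann x ⟨hx, hxr⟩

/-- Continuation of the moving sphere procedure. -/
theorem moving_continue (h : IsPositiveEntireSolution n p q A B u v) (hn : n = N + 2) (hN : 1 ≤ N)
    (hp : 0 < p) (hq : 0 < q) (hκ₁ : 0 ≤ kap N p A) (hκ₂ : 0 ≤ kap N q B)
    (hs : 0 < kap N p A ∨ 0 < kap N q B) {lb : ℝ} (hl : 0 < lb) (hO : Ord N lb u v) :
    ∃ δ > 0, ∀ lam, lb < lam → lam < lb + δ → Ord N lam u v := by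
  obtain ⟨l, M, hl0, hM0, hbd⟩ := exists_ball_bounds h.continuous_u h.continuous_v h.pos_u h.pos_v
    (R := lb + 2) (by linarith)
  -- a suitable `η`
  obtain ⟨W, hW⟩ : ∃ W, W = (p * (l ^ (p - 1) + M ^ (p - 1))) * (lb ^ A + (lb + 1) ^ A) +
      (q * (l ^ (q - 1) + M ^ (q - 1))) * (lb ^ B + (lb + 1) ^ B) + 1 := ⟨_, rfl⟩
  have hW1 : 1 ≤ W := by
    have h1 : 0 ≤ (p * (l ^ (p - 1) + M ^ (p - 1))) * (lb ^ A + (lb + 1) ^ A) +
      (q * (l ^ (q - 1) + M ^ (q - 1))) * (lb ^ B + (lb + 1) ^ B) := by positivity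
    rw [hW]
    linarith
  have hW0 : 0 < W := by linarith
  obtain ⟨η, hη⟩ : ∃ η, η = 1 / (2 * W) := ⟨_, rfl⟩
  have hη0 : 0 < η := by rw [hη]; positivity
  have hη1 : η ≤ 1 := by
    rw [hη, div_le_one (by positivity)]
    linarith
  have hWη : W * η ^ 2 ≤ 1 / 4 := by
    have : W * η ^ 2 = 1 / (4 * W) := by
      rw [hη]; field_simp; ring
    rw [this, div_le_div_iff₀ (by positivity) (by norm_num)]
    linarith
  obtain ⟨ρ₃, hρ₃⟩ : ∃ ρ₃, ρ₃ = lb + η := ⟨_, rfl⟩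
  have hρ₃lb : lb < ρ₃ := by linarith
  have hρ₃0 : 0 < ρ₃ := by linarith
  have hstr := fun (x : Eu n) (hx : lb < ‖x‖) => strict_ord h hn hp hq hκ₁ hκ₂ hs hl hO hx
  have hne3 : ∀ y : Eu n, ‖y‖ = ρ₃ → y ≠ 0 := by
    intro y hy h0
    rw [h0, norm_zero] at hy
    linarith
  -- positive lower bound on the sphere
  obtain ⟨m₁, hm₁, hm₁b⟩ := pos_lower_bound (isCompact_Ann (n := n) ρ₃ ρ₃)
    (f := fun x => u x - kel N lb u x)
    (by
      intro x hx
      have hx' : ‖x‖ = ρ₃ := le_antisymm hx.2 hx.1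
      exact (h.continuous_u.continuousAt.sub
        (continuousAt_kel h.continuous_u (hne3 x hx'))).continuousWithinAt)
    (by
      intro x hx
      have hx' : ‖x‖ = ρ₃ := le_antisymm hx.2 hx.1
      have := (hstr x (by rw [hx']; exact hρ₃lb)).1
      show 0 < u x - kel N lb u x
      linarith)
  obtain ⟨m₂, hm₂, hm₂b⟩ := pos_lower_bound (isCompact_Ann (n := n) ρ₃ ρ₃)
    (f := fun x => v x - kel N lb v x)
    (by
      intro x hx
      have hx' : ‖x‖ = ρ₃ := le_antisymm hx.2 hx.1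
      exact (h.continuous_v.continuousAt.sub
        (continuousAt_kel h.continuous_v (hne3 x hx'))).continuousWithinAt)
    (by
      intro x hx
      have hx' : ‖x‖ = ρ₃ := le_antisymm hx.2 hx.1
      have := (hstr x (by rw [hx']; exact hρ₃lb)).2
      show 0 < v x - kel N lb v x
      linarith)
  obtain ⟨ε, hε⟩ : ∃ ε, ε = min m₁ m₂ * ρ₃ ^ N := ⟨_, rfl⟩
  have hε0 : 0 < ε := by
    have : 0 < min m₁ m₂ := lt_min hm₁ hm₂
    rw [hε]
    positivity
  have hextu : ∀ x : Eu n, ρ₃ ≤ ‖x‖ → ε ≤ (u x - kel N lb u x) * ‖x‖ ^ N := by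
    intro x hx
    rw [hε]
    exact exterior_w h hn hN hp hκ₁ hl hρ₃lb (lt_min hm₁ hm₂).le
      (fun y hy => (hstr y hy).1) (fun y hy => (hstr y hy).2)
      (fun y hy => (min_le_left _ _).trans (hm₁b y ⟨hy.ge, hy.le⟩)) hx
  have hextv : ∀ x : Eu n, ρ₃ ≤ ‖x‖ → ε ≤ (v x - kel N lb v x) * ‖x‖ ^ N := by
    intro x hx
    rw [hε]
    exact exterior_w h.swap hn hN hq hκ₂ hl hρ₃lb (lt_min hm₁ hm₂).le
      (fun y hy => (hstr y hy).2) (fun y hy => (hstr y hy).1)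
      (fun y hy => (min_le_right _ _).trans (hm₂b y ⟨hy.ge, hy.le⟩)) hx
  obtain ⟨δ₁, hδ₁, hb₁⟩ := exterior_nearby h.continuous_u hρ₃0 hε0 hextu
  obtain ⟨δ₂, hδ₂, hb₂⟩ := exterior_nearby h.continuous_v hρ₃0 hε0 hextv
  refine ⟨min (min δ₁ δ₂) η, lt_min (lt_min hδ₁ hδ₂) hη0, ?_⟩
  intro lam hlam1 hlam2
  have hd1 : lam - lb < δ₁ := by
    have : min (min δ₁ δ₂) η ≤ δ₁ := (min_le_left _ _).trans (min_le_left _ _)
    linarith
  have hd2 : lam - lb < δ₂ := by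
    have : min (min δ₁ δ₂) η ≤ δ₂ := (min_le_left _ _).trans (min_le_right _ _)
    linarith
  have hd3 : lam < lb + η := by
    have : min (min δ₁ δ₂) η ≤ η := min_le_right _ _
    linarith
  have hextord : ∀ x : Eu n, lb + η ≤ ‖x‖ → kel N lam u x ≤ u x ∧ kel N lam v x ≤ v x := by
    intro x hx
    rw [← hρ₃] at hx
    exact ⟨hb₁ lam hlam1 (by linarith) hd1 x hx, hb₂ lam hlam1 (by linarith) hd2 x hx⟩
  intro x hx
  rcases le_total ‖x‖ (lb + η) with hxr | hxr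
  · exact moving_annulus h hn hp hq hκ₁ hκ₂ hl hl0 hlam1 hd3.le hη1 hbd
      (by rw [← hW]; exact hWη) hextord hx hxr
  · exact hextord x hxr

/-- The ordering passes to the limit from below. -/
theorem ord_closed (hu : Continuous u) (hv : Continuous v) {lb : ℝ} (hl : 0 < lb)
    (hO : ∀ μ, 0 < μ → μ < lb → Ord N μ u v) : Ord N lb u v := by
  have hkey : ∀ {f : Eu n → ℝ}, Continuous f → (∀ μ, 0 < μ → μ < lb → ∀ x : Eu n,
      μ ≤ ‖x‖ → kel N μ f x ≤ f x) → ∀ x : Eu n, lb ≤ ‖x‖ → kel N lb f x ≤ f x := by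
    intro f hf hOf x hx
    rcases hx.eq_or_lt with hx' | hx'
    · rw [kel_of_norm_eq hl hx'.symm]
    have hr : 0 < ‖x‖ := by linarith
    have hcont : Continuous (fun μ : ℝ => kel N μ f x) := by
      unfold kel inv
      have h1 : Continuous (fun μ : ℝ => (μ ^ 2 / ‖x‖ ^ 2) • x) := by fun_prop
      exact ((continuous_id.div_const _).pow N).mul (hf.comp h1)
    have hlim : Tendsto (fun μ : ℝ => kel N μ f x) (𝓝[<] lb) (𝓝 (kel N lb f x)) :=
      (hcont.tendsto lb).mono_left nhdsWithin_le_nhds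
    apply le_of_tendsto hlim
    have hev : ∀ᶠ μ in 𝓝[<] lb, μ ∈ Ioo 0 lb := Ioo_mem_nhdsLT hl
    filter_upwards [hev] with μ hμ
    exact hOf μ hμ.1 hμ.2 x (by linarith [hμ.2])
  intro x hx
  exact ⟨hkey hu (fun μ h1 h2 y hy => (hO μ h1 h2 y hy).1) x hx,
    hkey hv (fun μ h1 h2 y hy => (hO μ h1 h2 y hy).2) x hx⟩

/-- The moving sphere procedure never stops. -/
theorem all_ord (h : IsPositiveEntireSolution n p q A B u v) (hn : n = N + 2) (hN : 1 ≤ N)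
    (hp : 0 < p) (hq : 0 < q) (hA : -2 < A) (hB : -2 < B)
    (hκ₁ : 0 ≤ kap N p A) (hκ₂ : 0 ≤ kap N q B)
    (hs : 0 < kap N p A ∨ 0 < kap N q B) : ∀ lam, 0 < lam → Ord N lam u v := by
  by_contra hcon
  push Not at hcon
  obtain ⟨lam₁, hlam₁, hnot⟩ := hcon
  set T : Set ℝ := {lam | 0 < lam ∧ ¬ Ord N lam u v} with hT
  have hTne : T.Nonempty := ⟨lam₁, hlam₁, hnot⟩
  have hTbd : BddBelow T := ⟨0, fun x hx => hx.1.le⟩
  obtain ⟨lam₀, hlam₀, hstart⟩ := moving_start h hn hN hp hq hA hB hκ₁ hκ₂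
  set lb := sInf T with hlb
  have hlbge : lam₀ ≤ lb := by
    apply le_csInf hTne
    intro x hx
    by_contra hlt
    push Not at hlt
    exact hx.2 (hstart x hx.1 hlt)
  have hlb0 : 0 < lb := by linarith
  have hbelow : ∀ μ, 0 < μ → μ < lb → Ord N μ u v := by
    intro μ h1 h2
    by_contra hnot
    have : μ ∈ T := ⟨h1, hnot⟩
    have := csInf_le hTbd this
    linarith
  have hOb := ord_closed h.continuous_u h.continuous_v hlb0 hbelow
  obtain ⟨δ, hδ, hcont⟩ := moving_continue h hn hN hp hq hκ₁ hκ₂ hs hlb0 hOb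
  have : lb + δ ≤ lb := by
    apply le_csInf hTne
    intro x hx
    by_contra hlt
    push Not at hlt
    have h1 : lb ≤ x := csInf_le hTbd hx
    rcases h1.eq_or_lt with h2 | h2
    · rw [← h2] at hx
      exact hx.2 hOb
    · exact hx.2 (hcont x h2 hlt)
  linarith

end Vale.Agent.Lib.P100
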