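import Mathlib
import Vale.Agent.Lib.P100.MovingSphere

/-!
# Lower bounds by comparison on balls, and the recursion on exponents
-/

namespace Vale.Agent.Lib.P100

open Set Filter Topology Real

variable {n N : ℕ} {p q A B : ℝ} {u v : Eu n → ℝ}

/-- `f` is bounded below by `ε R^(-s)` on balls of radius `R ≥ 1`. -/
def PB (f : Eu n → ℝ) (s : ℝ) : Prop :=
  ∃ ε > 0, ∀ R : ℝ, 1 ≤ R → ∀ x : Eu n, ‖x‖ ≤ R → ε * R ^ (-s) ≤ f x

lemma PB.nonneg {f : Eu n → ℝ} {s : ℝ} (h : PB f s) : 0 ≤ s := by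
  by_contra hs
  push Not at hs
  obtain ⟨ε, hε, hb⟩ := h
  have h1 : Tendsto (fun R : ℝ => ε * R ^ (-s)) atTop atTop :=
    (tendsto_rpow_atTop (by linarith)).const_mul_atTop hε
  have h2 := (h1.eventually (eventually_gt_atTop (f 0))).and (eventually_ge_atTop (1:ℝ))
  obtain ⟨R, hR, hR1⟩ := h2.exists
  have := hb R hR1 0 (by simp; linarith)
  linarith

/-- The real-variable part of the recursion. -/
theorem exponent_contradiction {Su Sv : Set ℝ} {p q a b a₁ b₁ : ℝ} (hp : 0 < p) (hq : 0 < q)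
    (ha : 0 < a) (hb : 0 < b) (hSu : ∀ s ∈ Su, 0 ≤ s) (hSv : ∀ t ∈ Sv, 0 ≤ t)
    (h1 : ∀ t ∈ Sv, p * t - a ∈ Su) (h2 : ∀ s ∈ Su, q * s - b ∈ Sv)
    (ha₁ : a₁ ∈ Su) (hb₁ : b₁ ∈ Sv) (hk₁ : p * b₁ - a ≤ a₁) (hk₂ : q * a₁ - b ≤ b₁)
    (hs : p * b₁ - a < a₁ ∨ q * a₁ - b < b₁) : False := by
  have hbu : BddBelow Su := ⟨0, fun s hs => hSu s hs⟩
  have hbv : BddBelow Sv := ⟨0, fun s hs => hSv s hs⟩
  obtain ⟨s₀, hs₀⟩ : ∃ s₀, s₀ = sInf Su := ⟨_, rfl⟩
  obtain ⟨t₀, ht₀⟩ : ∃ t₀, t₀ = sInf Sv := ⟨_, rfl⟩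
  have hs0 : 0 ≤ s₀ := by
    rw [hs₀]
    exact le_csInf ⟨a₁, ha₁⟩ hSu
  have ht0 : 0 ≤ t₀ := by
    rw [ht₀]
    exact le_csInf ⟨b₁, hb₁⟩ hSv
  have hsa : s₀ ≤ a₁ := by rw [hs₀]; exact csInf_le hbu ha₁
  have htb : t₀ ≤ b₁ := by rw [ht₀]; exact csInf_le hbv hb₁
  have h3 : s₀ ≤ p * t₀ - a := by
    have : (s₀ + a) / p ≤ t₀ := by
      rw [ht₀]
      apply le_csInf ⟨b₁, hb₁⟩
      intro t ht
      rw [div_le_iff₀ hp]
      have : s₀ ≤ p * t - a := by rw [hs₀]; exact csInf_le hbu (h1 t ht)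
      linarith
    rw [div_le_iff₀ hp] at this
    linarith
  have h4 : t₀ ≤ q * s₀ - b := by
    have : (t₀ + b) / q ≤ s₀ := by
      rw [hs₀]
      apply le_csInf ⟨a₁, ha₁⟩
      intro s hs
      rw [div_le_iff₀ hq]
      have : t₀ ≤ q * s - b := by rw [ht₀]; exact csInf_le hbv (h2 s hs)
      linarith
    rw [div_le_iff₀ hq] at this
    linarith
  -- `p q > 1`
  have hpq : 1 < p * q := by
    by_contra hcon
    push Not at hcon
    have h5 : p * t₀ ≤ p * (q * s₀ - b) := by gcongr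
    have h6 : p * q * s₀ ≤ s₀ := by nlinarith
    have h7 : 0 < p * b := by positivity
    nlinarith
  -- the two gaps
  have hx : p * (b₁ - t₀) ≤ a₁ - s₀ := by nlinarith
  have hy : q * (a₁ - s₀) ≤ b₁ - t₀ := by nlinarith
  have hx0 : a₁ - s₀ ≤ 0 := by
    have h5 : p * (q * (a₁ - s₀)) ≤ p * (b₁ - t₀) := by gcongr
    nlinarith
  have hy0 : b₁ - t₀ ≤ 0 := by
    have h5 : q * (p * (b₁ - t₀)) ≤ q * (a₁ - s₀) := by gcongr
    nlinarith
  have e1 : a₁ = s₀ := by linarith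
  have e2 : b₁ = t₀ := by linarith
  subst e1 e2
  rcases hs with hs | hs <;> linarith

/-- Linear combinations of Laplacians. -/
lemma laplacian_add_two {f h₁ h₂ : Eu n → ℝ} {x : Eu n} (c₁ c₂ d : ℝ) (hf : ContDiffAt ℝ 2 f x)
    (h1 : ContDiffAt ℝ 2 h₁ x) (h2 : ContDiffAt ℝ 2 h₂ x) :
    Laplacian.laplacian (fun y => f y + c₁ * h₁ y + c₂ * h₂ y + d) x =
      Laplacian.laplacian f x + c₁ * Laplacian.laplacian h₁ x + c₂ * Laplacian.laplacian h₂ x := by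
  have e : (fun y => f y + c₁ * h₁ y + c₂ * h₂ y + d) =
      fun y => (fun y => (fun y => f y + d) y - (-c₁) * h₁ y) y - (-c₂) * h₂ y := by
    funext y
    ring
  have hd : ContDiffAt ℝ 2 (fun y => f y + d) x := hf.add contDiffAt_const
  rw [e, laplacian_sub_mul (-c₂) (contDiffAt_sub_mul (-c₁) hd h1) h2, laplacian_sub_mul (-c₁) hd h1]
  have e2 : (fun y => f y + d) = f + fun _ => d := by
    funext y; simp
  rw [e2, hf.laplacian_add contDiffAt_const]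
  simp

/-- The removable singularity form of the minimum principle. Here `n = N + 2`. -/
theorem punctured_min_principle (hn : n = N + 2) {g : Eu n → ℝ} {R : ℝ}
    (hc : ∀ x : Eu n, x ≠ 0 → ‖x‖ ≤ R → ContinuousAt g x)
    (hC : ∀ x : Eu n, x ≠ 0 → ‖x‖ < R → ContDiffAt ℝ 2 g x)
    (hneg : ∀ x : Eu n, x ≠ 0 → ‖x‖ < R → Laplacian.laplacian g x < 0)
    (hb : ∀ x : Eu n, ‖x‖ = R → 0 ≤ g x)
    (hsing : ∀ δ > 0, ∃ ρ₀ > 0, ∀ y : Eu n, y ≠ 0 → ‖y‖ < ρ₀ → 0 ≤ g y + δ * ‖y‖ ^ (-(N:ℝ)))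
    {x : Eu n} (hx : x ≠ 0) (hxR : ‖x‖ ≤ R) : 0 ≤ g x := by
  have hr : 0 < ‖x‖ := norm_pos_iff.2 hx
  have hcast : (n:ℝ) = (N:ℝ) + 2 := by rw [hn]; push_cast; ring
  have hΓ : ∀ y : Eu n, y ≠ 0 → Laplacian.laplacian (fun y : Eu n => ‖y‖ ^ (-(N:ℝ))) y = 0 := by
    intro y hy
    rw [laplacian_rpow_norm _ hy, hcast]
    ring
  have hRpos : 0 < R := by linarith
  have key : ∀ δ > 0, 0 ≤ g x + δ * ‖x‖ ^ (-(N:ℝ)) := by
    intro δ hδ
    obtain ⟨ρ₀, hρ₀, hb₀⟩ := hsing δ hδ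
    obtain ⟨ρ, hρ⟩ : ∃ ρ, ρ = min (‖x‖ / 2) (ρ₀ / 2) := ⟨_, rfl⟩
    have hρ0 : 0 < ρ := by
      rw [hρ]
      exact lt_min (by positivity) (by positivity)
    have hρ1 : ρ < ‖x‖ := by
      have : ρ ≤ ‖x‖ / 2 := by rw [hρ]; exact min_le_left _ _
      linarith
    have hρ2 : ρ < ρ₀ := by
      have : ρ ≤ ρ₀ / 2 := by rw [hρ]; exact min_le_right _ _
      linarith
    have hne : ∀ y : Eu n, ρ ≤ ‖y‖ → y ≠ 0 := by
      intro y hy h0
      rw [h0, norm_zero] at hy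
      linarith
    have hmp := ann_min_principle (ρ₁ := ρ) (ρ₂ := R)
      (g := fun y => g y + δ * ‖y‖ ^ (-(N:ℝ)))
      (by
        intro y hy
        have hy0 := hne y hy.1
        have h1 : ContinuousAt (fun y : Eu n => ‖y‖ ^ (-(N:ℝ))) y :=
          (contDiffAt_rpow_norm _ hy0).continuousAt
        exact ((hc y hy0 hy.2).add (continuousAt_const.mul h1)).continuousWithinAt)
      (by
        intro y h1 h2
        have hy0 := hne y h1.le
        exact (hC y hy0 h2).add (contDiffAt_const.mul (contDiffAt_rpow_norm _ hy0)))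
      (by
        intro y h1 h2 _
        have hy0 := hne y h1.le
        have e : (fun y => g y + δ * ‖y‖ ^ (-(N:ℝ))) =
            fun y => g y - (-δ) * ‖y‖ ^ (-(N:ℝ)) := by
          funext y; ring
        rw [e, laplacian_sub_mul (-δ) (hC y hy0 h2) (contDiffAt_rpow_norm _ hy0), hΓ y hy0]
        have := hneg y hy0 h2
        linarith)
      (by
        intro y hy
        rcases hy with hy | hy
        · have hy0 : y ≠ 0 := hne y hy.ge
          exact hb₀ y hy0 (by rw [hy]; exact hρ2)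
        · have h1 := hb y hy
          have h2 : 0 ≤ ‖y‖ ^ (-(N:ℝ)) := by positivity
          show 0 ≤ g y + δ * ‖y‖ ^ (-(N:ℝ))
          have : 0 ≤ δ * ‖y‖ ^ (-(N:ℝ)) := by positivity
          linarith)
    exact hmp x ⟨hρ1.le, hxR⟩
  -- let `δ → 0`
  by_contra hneg'
  push Not at hneg'
  have hpos : 0 < ‖x‖ ^ (-(N:ℝ)) := by positivity
  have := key (-(g x) / (2 * ‖x‖ ^ (-(N:ℝ)))) (by
    apply div_pos (by linarith) (by positivity))
  have e : -(g x) / (2 * ‖x‖ ^ (-(N:ℝ))) * ‖x‖ ^ (-(N:ℝ)) = -(g x) / 2 := by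
    field_simp
  rw [e] at this
  linarith

/-- Smallness for the singular barrier: constants. -/
lemma singular_const {C δ : ℝ} {N : ℕ} (hN : 1 ≤ N) (hδ : 0 < δ) :
    ∃ ρ₀ > 0, ∀ r : ℝ, 0 < r → r < ρ₀ → C ≤ δ * r ^ (-(N:ℝ)) := by
  have hNpos : (0:ℝ) < N := by exact_mod_cast hN
  have h1 : Tendsto (fun r : ℝ => δ * r ^ (-(N:ℝ))) (𝓝[>] 0) atTop :=
    (tendsto_rpow_neg_nhdsGT_zero (by linarith : -(N:ℝ) < 0)).const_mul_atTop hδ
  have h2 := h1.eventually (eventually_ge_atTop C)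
  obtain ⟨ρ₀, hρ₀, hb⟩ := (mem_nhdsGT_iff_exists_Ioo_subset).1 h2
  refine ⟨ρ₀, hρ₀, ?_⟩
  intro r h3 h4
  exact hb ⟨h3, h4⟩

/-- The comparison on a ball. Here `a = 2 + A > 0` -/
theorem ball_compare (h : IsPositiveEntireSolution n p q A B u v) (hn : n = N + 2) (hN : 1 ≤ N)
    (hp : 0 < p) (hA : -2 < A) {R m : ℝ} (hR : 0 < R) (hm : 0 < m)
    (hv : ∀ y : Eu n, ‖y‖ ≤ R → m ≤ v y) {x : Eu n} (hx : x ≠ 0) (hxR : ‖x‖ ≤ R) :
    m ^ p / (2 * ((2 + A) * (n + A))) * (R ^ (2 + A) - ‖x‖ ^ (2 + A)) ≤ u x := by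
  have hcast : (n:ℝ) = (N:ℝ) + 2 := by rw [hn]; push_cast; ring
  have hNpos : (1:ℝ) ≤ N := by exact_mod_cast hN
  have ha : 0 < 2 + A := by linarith
  have hnA : 0 < (n:ℝ) + A := by rw [hcast]; linarith
  obtain ⟨κ, hκ⟩ : ∃ κ, κ = m ^ p / (2 * ((2 + A) * (n + A))) := ⟨_, rfl⟩
  have hκ0 : 0 < κ := by rw [hκ]; positivity
  rw [← hκ]
  have hmp : 0 < m ^ p := by positivity
  have hκe : κ * ((2 + A) * (n + A)) = m ^ p / 2 := by
    rw [hκ]; field_simp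
  have hP : ∀ y : Eu n, y ≠ 0 → Laplacian.laplacian (fun y : Eu n => ‖y‖ ^ (2 + A)) y =
      (2 + A) * (n + A) * ‖y‖ ^ A := by
    intro y hy
    rw [laplacian_rpow_norm _ hy]
    have e1 : 2 + A - 2 = A := by ring
    have e2 : 2 + A + (n:ℝ) - 2 = n + A := by ring
    rw [e1, e2]
  -- the comparison function
  have hmain := punctured_min_principle (N := N) (R := R)
    (g := fun y => u y + κ * ‖y‖ ^ (2 + A) + 0 * ‖y‖ ^ (2 + A) + (-(κ * R ^ (2 + A)))) hn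
    (by
      intro y hy _
      have h1 : ContinuousAt (fun y : Eu n => ‖y‖ ^ (2 + A)) y :=
        (contDiffAt_rpow_norm _ hy).continuousAt
      exact ((h.continuous_u.continuousAt.add (continuousAt_const.mul h1)).add
        (continuousAt_const.mul h1)).add continuousAt_const)
    (by
      intro y hy _
      have h1 := contDiffAt_rpow_norm (n := n) (2 + A) hy
      exact (((contDiffAt_u h hy).add (contDiffAt_const.mul h1)).add
        (contDiffAt_const.mul h1)).add contDiffAt_const)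
    (by
      intro y hy hyR
      have h1 := contDiffAt_rpow_norm (n := n) (2 + A) hy
      rw [laplacian_add_two κ 0 _ (contDiffAt_u h hy) h1 h1, hP y hy, laplacian_u h hy]
      have hr : 0 < ‖y‖ := norm_pos_iff.2 hy
      have hAp : 0 < ‖y‖ ^ A := by positivity
      have h2 : m ^ p ≤ v y ^ p := Real.rpow_le_rpow hm.le (hv y hyR.le) hp.le
      have e : κ * ((2 + A) * (n + A) * ‖y‖ ^ A) = m ^ p / 2 * ‖y‖ ^ A := by
        rw [← hκe]; ring
      rw [e]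
      nlinarith)
    (by
      intro y hy
      have := h.pos_u y
      rw [hy]
      nlinarith)
    (by
      intro δ hδ
      obtain ⟨ρ₀, hρ₀, hb⟩ := singular_const (C := κ * R ^ (2 + A)) hN hδ
      refine ⟨ρ₀, hρ₀, ?_⟩
      intro y hy hyρ
      have hr : 0 < ‖y‖ := norm_pos_iff.2 hy
      have h1 := hb ‖y‖ hr hyρ
      have h2 := h.pos_u y
      have h3 : 0 < ‖y‖ ^ (2 + A) := by positivity
      have h4 : 0 < κ * ‖y‖ ^ (2 + A) := by positivity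
      show 0 ≤ u y + κ * ‖y‖ ^ (2 + A) + 0 * ‖y‖ ^ (2 + A) + (-(κ * R ^ (2 + A))) + δ * ‖y‖ ^ (-(N:ℝ))
      linarith)
    hx hxR
  have e : u x + κ * ‖x‖ ^ (2 + A) + 0 * ‖x‖ ^ (2 + A) + (-(κ * R ^ (2 + A))) =
      u x - κ * (R ^ (2 + A) - ‖x‖ ^ (2 + A)) := by ring
  have hmain' : 0 ≤ u x + κ * ‖x‖ ^ (2 + A) + 0 * ‖x‖ ^ (2 + A) + (-(κ * R ^ (2 + A))) := hmain
  rw [e] at hmain'
  linarith

/-- From punctured neighbourhoods to the origin. -/
lemma le_at_zero (hn : 1 ≤ n) {f : Eu n → ℝ} (hf : Continuous f) {c r : ℝ} (hr : 0 < r)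
    (h : ∀ x : Eu n, x ≠ 0 → ‖x‖ ≤ r → c ≤ f x) : c ≤ f 0 := by
  obtain ⟨e, he⟩ : ∃ e : Eu n, ‖e‖ = 1 :=
    ⟨EuclideanSpace.single ⟨0, by omega⟩ 1, by simp⟩
  have hlim : Tendsto (fun t : ℝ => f (t • e)) (𝓝[>] 0) (𝓝 (f 0)) := by
    have h1 : Tendsto (fun t : ℝ => t • e) (𝓝 0) (𝓝 0) := by
      have : Continuous (fun t : ℝ => t • e) := by fun_prop
      simpa using this.tendsto 0
    exact ((hf.tendsto 0).comp h1).mono_left nhdsWithin_le_nhds
  apply ge_of_tendsto hlim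
  have hev : ∀ᶠ t in 𝓝[>] (0:ℝ), t ∈ Ioo 0 r := Ioo_mem_nhdsGT hr
  filter_upwards [hev] with t ht
  apply h
  · intro h0
    have := congrArg norm h0
    rw [norm_smul, he, mul_one, norm_zero, Real.norm_eq_abs, abs_of_pos ht.1] at this
    linarith [ht.1]
  · rw [norm_smul, he, mul_one, Real.norm_eq_abs, abs_of_pos ht.1]
    exact ht.2.le

/-- One step of the recursion. -/
theorem PB_step (h : IsPositiveEntireSolution n p q A B u v) (hn : n = N + 2) (hN : 1 ≤ N)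
    (hp : 0 < p) (hA : -2 < A) {t : ℝ} (hv : PB v t) : PB u (p * t - (2 + A)) := by
  obtain ⟨ε, hε, hb⟩ := hv
  have ha : 0 < 2 + A := by linarith
  have hcast : (n:ℝ) = (N:ℝ) + 2 := by rw [hn]; push_cast; ring
  have hNpos : (1:ℝ) ≤ N := by exact_mod_cast hN
  have hnA : 0 < (n:ℝ) + A := by rw [hcast]; linarith
  have h2a : (2:ℝ) ^ (-(2 + A)) < 1 := Real.rpow_lt_one_of_one_lt_of_neg (by norm_num) (by linarith)
  obtain ⟨K, hK⟩ : ∃ K, K = (1 - (2:ℝ) ^ (-(2 + A))) / (2 * ((2 + A) * (n + A))) := ⟨_, rfl⟩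
  have hK0 : 0 < K := by
    rw [hK]
    apply div_pos (by linarith) (by positivity)
  refine ⟨K * ε ^ p * (2:ℝ) ^ (-(p * t - (2 + A))), by positivity, ?_⟩
  intro R hR x hx
  have hR0 : 0 < R := by linarith
  obtain ⟨S, hS⟩ : ∃ S, S = 2 * R := ⟨_, rfl⟩
  have hS1 : 1 ≤ S := by rw [hS]; linarith
  have hS0 : 0 < S := by linarith
  obtain ⟨m, hm⟩ : ∃ m, m = ε * S ^ (-t) := ⟨_, rfl⟩
  have hm0 : 0 < m := by rw [hm]; positivity
  have hvm : ∀ y : Eu n, ‖y‖ ≤ S → m ≤ v y := fun y hy => by rw [hm]; exact hb S hS1 y hy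
  have hmain : ∀ x : Eu n, x ≠ 0 → ‖x‖ ≤ R →
      K * ε ^ p * (2:ℝ) ^ (-(p * t - (2 + A))) * R ^ (-(p * t - (2 + A))) ≤ u x := by
    intro x hx0 hxR
    have hr : 0 < ‖x‖ := norm_pos_iff.2 hx0
    have h1 := ball_compare h hn hN hp hA hS0 hm0 hvm hx0 (by rw [hS]; linarith)
    have h2 : K * ε ^ p * (2:ℝ) ^ (-(p * t - (2 + A))) * R ^ (-(p * t - (2 + A))) =
        (m ^ p / (2 * ((2 + A) * (n + A)))) * (S ^ (2 + A) * (1 - (2:ℝ) ^ (-(2 + A)))) := by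
      -- algebra of the powers
      have e1 : (2:ℝ) ^ (-(p * t - (2 + A))) * R ^ (-(p * t - (2 + A))) =
          S ^ (-(p * t - (2 + A))) := by
        rw [hS, Real.mul_rpow (by norm_num) hR0.le]
      have e2 : m ^ p = ε ^ p * S ^ (-t * p) := by
        rw [hm, Real.mul_rpow hε.le (by positivity), ← Real.rpow_mul hS0.le]
      have e3 : S ^ (-(p * t - (2 + A))) = S ^ (-t * p) * S ^ (2 + A) := by
        rw [← Real.rpow_add hS0]
        congr 1
        ring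
      rw [mul_assoc, e1, e3, e2, hK]
      field_simp
    rw [h2]
    refine le_trans ?_ h1
    · -- monotonicity
      have h3 : ‖x‖ ^ (2 + A) ≤ (S / 2) ^ (2 + A) :=
        Real.rpow_le_rpow hr.le (by rw [hS]; linarith) ha.le
      have h4 : (S / 2) ^ (2 + A) = S ^ (2 + A) * (2:ℝ) ^ (-(2 + A)) := by
        rw [Real.div_rpow hS0.le (by norm_num), Real.rpow_neg (by norm_num)]
        rfl
      have h5 : S ^ (2 + A) * (1 - (2:ℝ) ^ (-(2 + A))) ≤ S ^ (2 + A) - ‖x‖ ^ (2 + A) := by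
        rw [h4] at h3
        linarith
      apply mul_le_mul_of_nonneg_left h5
      positivity
  rcases eq_or_ne x 0 with rfl | hx0
  · exact le_at_zero (by omega) h.continuous_u hR0 hmain
  · exact hmain x hx0 hx

/-- The lower bound from the moving sphere ordering. -/
theorem PB_of_ord {f : Eu n → ℝ} (hf : Continuous f) (hpos : ∀ x, 0 < f x) (hN : 1 ≤ N)
    (hO : ∀ lam, 0 < lam → ∀ x : Eu n, lam ≤ ‖x‖ → kel N lam f x ≤ f x) :
    PB f ((N:ℝ) / 2) := by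
  obtain ⟨l, M, hl0, _, hbd⟩ := exists_ball_bounds hf hf hpos hpos (R := 1) zero_le_one
  refine ⟨l, hl0, ?_⟩
  intro R hR x hx
  have hNpos : (1:ℝ) ≤ N := by exact_mod_cast hN
  have hR0 : 0 < R := by linarith
  rcases le_or_gt ‖x‖ 1 with hx1 | hx1
  · have h1 : R ^ (-((N:ℝ) / 2)) ≤ 1 := Real.rpow_le_one_of_one_le_of_nonpos hR (by linarith)
    have h2 := (hbd x hx1).1
    nlinarith
  · obtain ⟨r, hr⟩ : ∃ r, r = ‖x‖ := ⟨_, rfl⟩
    have hr1 : 1 < r := by rw [hr]; exact hx1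
    have hr0 : 0 < r := by linarith
    have hx0 : x ≠ 0 := by
      intro h0
      rw [h0, norm_zero] at hx1
      linarith
    obtain ⟨lam, hlam⟩ : ∃ lam, lam = r ^ ((1:ℝ) / 2) := ⟨_, rfl⟩
    have hlam0 : 0 < lam := by rw [hlam]; positivity
    have hlam2 : lam ^ 2 = r := by
      rw [hlam, ← Real.rpow_natCast, ← Real.rpow_mul hr0.le]
      norm_num
    have hlamr : lam ≤ r := by
      rw [hlam]
      calc r ^ ((1:ℝ) / 2) ≤ r ^ (1:ℝ) := Real.rpow_le_rpow_of_exponent_le hr1.le (by norm_num)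
        _ = r := Real.rpow_one r
    have h1 := hO lam hlam0 x (by rw [← hr]; exact hlamr)
    have hinv : ‖inv lam x‖ ≤ 1 := by
      rw [norm_inv hlam0 hx0, ← hr, hlam2, div_self hr0.ne']
    have h2 := (hbd _ hinv).1
    have h3 : (lam / r) ^ N = r ^ (-((N:ℝ) / 2)) := by
      have e1 : lam / r = r ^ (-(1:ℝ) / 2) := by
        rw [hlam, div_eq_iff hr0.ne']
        nth_rewrite 3 [← Real.rpow_one r]
        rw [← Real.rpow_add hr0]
        norm_num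
      rw [e1, ← Real.rpow_natCast, ← Real.rpow_mul hr0.le]
      congr 1
      ring
    have h4 : R ^ (-((N:ℝ) / 2)) ≤ r ^ (-((N:ℝ) / 2)) :=
      Real.rpow_le_rpow_of_nonpos hr0 (by rw [hr]; exact hx) (by linarith)
    have h5 : kel N lam f x = r ^ (-((N:ℝ) / 2)) * f (inv lam x) := by
      rw [kel, ← hr, h3]
    rw [h5] at h1
    have h6 : 0 < r ^ (-((N:ℝ) / 2)) := by positivity
    have h7 : 0 < R ^ (-((N:ℝ) / 2)) := by positivity
    calc l * R ^ (-((N:ℝ) / 2)) ≤ l * r ^ (-((N:ℝ) / 2)) := by gcongr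
      _ ≤ f (inv lam x) * r ^ (-((N:ℝ) / 2)) := by gcongr
      _ = r ^ (-((N:ℝ) / 2)) * f (inv lam x) := by ring
      _ ≤ f x := h1

/-- The main nonexistence result, for weights above `-2`. -/
theorem no_solution_core (h : IsPositiveEntireSolution n p q A B u v) (hn : n = N + 2) (hN : 1 ≤ N)
    (hp : 0 < p) (hq : 0 < q) (hA : -2 < A) (hB : -2 < B)
    (hκ₁ : 0 ≤ kap N p A) (hκ₂ : 0 ≤ kap N q B)
    (hs : 0 < kap N p A ∨ 0 < kap N q B) : False := by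
  have hord := all_ord h hn hN hp hq hA hB hκ₁ hκ₂ hs
  have h1 : PB u ((N:ℝ) / 2) := PB_of_ord h.continuous_u h.pos_u hN
    (fun lam hl x hx => (hord lam hl x hx).1)
  have h2 : PB v ((N:ℝ) / 2) := PB_of_ord h.continuous_v h.pos_v hN
    (fun lam hl x hx => (hord lam hl x hx).2)
  have e1 : p * ((N:ℝ) / 2) - (2 + A) = (N:ℝ) / 2 - kap N p A / 2 := by
    rw [kap]; ring
  have e2 : q * ((N:ℝ) / 2) - (2 + B) = (N:ℝ) / 2 - kap N q B / 2 := by
    rw [kap]; ring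
  refine exponent_contradiction (Su := {s | PB u s}) (Sv := {s | PB v s}) (p := p) (q := q)
    (a := 2 + A) (b := 2 + B) (a₁ := (N:ℝ) / 2) (b₁ := (N:ℝ) / 2) hp hq (by linarith) (by linarith)
    (fun s hs => PB.nonneg hs) (fun s hs => PB.nonneg hs)
    (fun t ht => PB_step h hn hN hp hA ht) (fun s hs => PB_step h.swap hn hN hq hB hs) h1 h2
    (by rw [e1]; linarith) (by rw [e2]; linarith) ?_
  rcases hs with hs | hs
  · left; rw [e1]; linarith
  · right; rw [e2]; linarith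

end Vale.Agent.Lib.P100
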