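import Mathlib
import Vale.Agent.Lib.P100.Recursion

/-!
# The cases `A ≤ -2` and `n = 2`
-/

namespace Vale.Agent.Lib.P100

open Set Filter Topology Real

variable {n N : ℕ} {p q A B : ℝ} {u v : Eu n → ℝ}

/-- Laplacian of the logarithm of the norm. -/
lemma laplacian_log_norm {x : Eu n} (hx : x ≠ 0) :
    Laplacian.laplacian (fun y : Eu n => Real.log ‖y‖) x = ((n:ℝ) - 2) * ‖x‖ ^ (-(2:ℝ)) := by
  have hr : 0 < ‖x‖ := norm_pos_iff.2 hx
  have hH : ∀ t : ℝ, 0 < t → HasDerivAt Real.log (t⁻¹) t :=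
    fun t ht => Real.hasDerivAt_log ht.ne'
  have hH₁ : ∀ t : ℝ, 0 < t → HasDerivAt (fun t : ℝ => t⁻¹) (-(t ^ 2)⁻¹) t :=
    fun t ht => hasDerivAt_inv ht.ne'
  have hC : ContDiffAt ℝ 2 Real.log ‖x‖ := Real.contDiffAt_log.2 hr.ne'
  have := laplacian_radial_general hH hH₁ hx hC
  rw [this, Real.rpow_neg hr.le]
  have e : ‖x‖ ^ (2:ℝ) = ‖x‖ ^ 2 := by
    rw [← Real.rpow_natCast]; norm_num
  rw [e]
  field_simp
  ring

lemma contDiffAt_log_norm {x : Eu n} (hx : x ≠ 0) :
    ContDiffAt ℝ 2 (fun y : Eu n => Real.log ‖y‖) x := by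
  have hr : 0 < ‖x‖ := norm_pos_iff.2 hx
  have hC : ContDiffAt ℝ 2 Real.log ‖x‖ := Real.contDiffAt_log.2 hr.ne'
  exact ContDiffAt.comp x hC (contDiffAt_norm ℝ hx)

/-- A weight at most `-2` excludes solutions, for `n ≥ 3`. -/
theorem no_solution_of_low_weight (h : IsPositiveEntireSolution n p q A B u v) (hn : n = N + 2)
    (hN : 1 ≤ N) (hp : 0 < p) (hA : A ≤ -2) : False := by
  have hcast : (n:ℝ) = (N:ℝ) + 2 := by rw [hn]; push_cast; ring
  have hNpos : (1:ℝ) ≤ N := by exact_mod_cast hN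
  obtain ⟨l, M, hl0, hM0, hbd⟩ := exists_ball_bounds h.continuous_u h.continuous_v h.pos_u h.pos_v
    (R := 1) zero_le_one
  obtain ⟨κ, hκ⟩ : ∃ κ, κ = l ^ p / (2 * N) := ⟨_, rfl⟩
  have hκ0 : 0 < κ := by rw [hκ]; positivity
  have hκe : κ * N = l ^ p / 2 := by
    rw [hκ]; field_simp
  have hmain : ∀ x : Eu n, x ≠ 0 → ‖x‖ ≤ 1 → 0 ≤ u x + κ * Real.log ‖x‖ + 0 * Real.log ‖x‖ + 0 := by
    intro x hx hx1
    refine punctured_min_principle (N := N) (R := 1)
      (g := fun y => u y + κ * Real.log ‖y‖ + 0 * Real.log ‖y‖ + 0) hn ?_ ?_ ?_ ?_ ?_ hx hx1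
    · intro y hy _
      have h1 : ContinuousAt (fun y : Eu n => Real.log ‖y‖) y :=
        (contDiffAt_log_norm hy).continuousAt
      exact ((h.continuous_u.continuousAt.add (continuousAt_const.mul h1)).add
        (continuousAt_const.mul h1)).add continuousAt_const
    · intro y hy _
      have h1 := contDiffAt_log_norm (n := n) hy
      exact (((contDiffAt_u h hy).add (contDiffAt_const.mul h1)).add
        (contDiffAt_const.mul h1)).add contDiffAt_const
    · intro y hy hy1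
      have h1 := contDiffAt_log_norm (n := n) hy
      rw [laplacian_add_two κ 0 _ (contDiffAt_u h hy) h1 h1, laplacian_log_norm hy,
        laplacian_u h hy, hcast]
      have hr : 0 < ‖y‖ := norm_pos_iff.2 hy
      have h2 : ‖y‖ ^ (-(2:ℝ)) ≤ ‖y‖ ^ A :=
        Real.rpow_le_rpow_of_exponent_ge hr hy1.le hA
      have h3 : l ^ p ≤ v y ^ p := Real.rpow_le_rpow hl0.le (hbd y hy1.le).2.2.1 hp.le
      have h4 : 0 < ‖y‖ ^ (-(2:ℝ)) := by positivity
      have h5 : 0 < l ^ p := by positivity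
      have h6 : ‖y‖ ^ (-(2:ℝ)) * l ^ p ≤ ‖y‖ ^ A * v y ^ p := by gcongr
      have e : κ * (((N:ℝ) + 2 - 2) * ‖y‖ ^ (-(2:ℝ))) = l ^ p / 2 * ‖y‖ ^ (-(2:ℝ)) := by
        rw [← hκe]; ring
      rw [e]
      nlinarith
    · intro y hy
      have := h.pos_u y
      rw [hy]
      simp only [Real.log_one]
      linarith
    · intro δ hδ
      have hNpos' : (0:ℝ) < N := by linarith
      have h1 : Tendsto (fun r : ℝ => Real.log r * r ^ (N:ℝ)) (𝓝[>] 0) (𝓝 0) :=
        tendsto_log_mul_rpow_nhdsGT_zero hNpos'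
      have h2 : Tendsto (fun r : ℝ => κ * (Real.log r * r ^ (N:ℝ))) (𝓝[>] 0) (𝓝 (κ * 0)) :=
        h1.const_mul κ
      rw [mul_zero] at h2
      have h3 := h2.eventually (lt_mem_nhds (by linarith : -δ < 0))
      obtain ⟨ρ₀, hρ₀, hb⟩ := (mem_nhdsGT_iff_exists_Ioo_subset).1 h3
      refine ⟨ρ₀, hρ₀, ?_⟩
      intro y hy hyρ
      have hr : 0 < ‖y‖ := norm_pos_iff.2 hy
      have h4 : -δ < κ * (Real.log ‖y‖ * ‖y‖ ^ (N:ℝ)) := hb ⟨hr, hyρ⟩
      have h5 := h.pos_u y
      have h6 : 0 < ‖y‖ ^ (-(N:ℝ)) := by positivity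
      have e1 : ‖y‖ ^ (N:ℝ) * ‖y‖ ^ (-(N:ℝ)) = 1 := by
        rw [← Real.rpow_add hr]; simp
      have h7 : -δ * ‖y‖ ^ (-(N:ℝ)) < κ * Real.log ‖y‖ := by
        have := mul_lt_mul_of_pos_right h4 h6
        have e2 : κ * (Real.log ‖y‖ * ‖y‖ ^ (N:ℝ)) * ‖y‖ ^ (-(N:ℝ)) = κ * Real.log ‖y‖ := by
          calc κ * (Real.log ‖y‖ * ‖y‖ ^ (N:ℝ)) * ‖y‖ ^ (-(N:ℝ))
              = κ * Real.log ‖y‖ * (‖y‖ ^ (N:ℝ) * ‖y‖ ^ (-(N:ℝ))) := by ring
            _ = κ * Real.log ‖y‖ := by rw [e1, mul_one]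
        rwa [e2] at this
      show 0 ≤ u y + κ * Real.log ‖y‖ + 0 * Real.log ‖y‖ + 0 + δ * ‖y‖ ^ (-(N:ℝ))
      nlinarith
  -- contradiction with boundedness
  obtain ⟨e, he⟩ : ∃ e : Eu n, ‖e‖ = 1 :=
    ⟨EuclideanSpace.single ⟨0, by omega⟩ 1, by simp⟩
  obtain ⟨t, ht⟩ : ∃ t, t = Real.exp (-(M / κ) - 1) := ⟨_, rfl⟩
  have ht0 : 0 < t := by rw [ht]; exact Real.exp_pos _
  have ht1 : t ≤ 1 := by
    rw [ht]
    apply Real.exp_le_one_iff.2
    have : 0 < M / κ := by positivity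
    linarith
  have hnt : ‖t • e‖ = t := by
    rw [norm_smul, he, mul_one, Real.norm_eq_abs, abs_of_pos ht0]
  have hne : t • e ≠ 0 := by
    intro h0
    rw [h0, norm_zero] at hnt
    linarith
  have h1 := hmain (t • e) hne (by rw [hnt]; exact ht1)
  have hlogt : Real.log ‖t • e‖ = -(M / κ) - 1 := by rw [hnt, ht, Real.log_exp]
  rw [hlogt] at h1
  have h2 := (hbd (t • e) (by rw [hnt]; exact ht1)).2.1
  have e3 : κ * (-(M / κ) - 1) = -M - κ := by
    field_simp
  have : u (t • e) + κ * (-(M / κ) - 1) + 0 * (-(M / κ) - 1) + 0 = u (t • e) - M - κ := by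
    rw [e3]; ring
  rw [this] at h1
  linarith

/-- Harmonicity of the logarithm in dimension two. -/
lemma laplacian_log_norm_two {x : Eu 2} (hx : x ≠ 0) :
    Laplacian.laplacian (fun y : Eu 2 => Real.log ‖y‖) x = 0 := by
  rw [laplacian_log_norm hx]
  norm_num

/-- The comparison in dimension two. -/
lemma dim_two_compare {f : Eu 2 → ℝ} (hf : Continuous f)
    (hC : ∀ x : Eu 2, x ≠ 0 → ContDiffAt ℝ 2 f x)
    (hneg : ∀ x : Eu 2, x ≠ 0 → Laplacian.laplacian f x < 0) {ρ₁ ρ₂ c d : ℝ} (hρ₁ : 0 < ρ₁)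
    (hb : ∀ x : Eu 2, ‖x‖ = ρ₁ ∨ ‖x‖ = ρ₂ → 0 ≤ f x + c * Real.log ‖x‖ + 0 * Real.log ‖x‖ + d)
    {x : Eu 2} (hx : x ∈ Ann 2 ρ₁ ρ₂) : 0 ≤ f x + c * Real.log ‖x‖ + 0 * Real.log ‖x‖ + d := by
  have hne : ∀ y : Eu 2, ρ₁ ≤ ‖y‖ → y ≠ 0 := by
    intro y hy h0
    rw [h0, norm_zero] at hy
    linarith
  refine ann_min_principle (ρ₁ := ρ₁) (ρ₂ := ρ₂)
    (g := fun y => f y + c * Real.log ‖y‖ + 0 * Real.log ‖y‖ + d) ?_ ?_ ?_ hb x hx
  · intro y hy
    have hy0 := hne y hy.1
    have h1 : ContinuousAt (fun y : Eu 2 => Real.log ‖y‖) y :=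
      (contDiffAt_log_norm hy0).continuousAt
    exact (((hf.continuousAt.add (continuousAt_const.mul h1)).add
      (continuousAt_const.mul h1)).add continuousAt_const).continuousWithinAt
  · intro y h1 _
    have hy0 := hne y h1.le
    have h2 := contDiffAt_log_norm (n := 2) hy0
    exact (((hC y hy0).add (contDiffAt_const.mul h2)).add
      (contDiffAt_const.mul h2)).add contDiffAt_const
  · intro y h1 _ _
    have hy0 := hne y h1.le
    have h2 := contDiffAt_log_norm (n := 2) hy0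
    rw [laplacian_add_two c 0 _ (hC y hy0) h2 h2, laplacian_log_norm_two hy0]
    have := hneg y hy0
    linarith

/-- Dimension two: a positive strictly superharmonic function on the punctured plane which is
continuous on the plane does not exist. -/
theorem no_superharmonic_dim_two {f : Eu 2 → ℝ} (hf : Continuous f) (hpos : ∀ x, 0 < f x)
    (hC : ∀ x : Eu 2, x ≠ 0 → ContDiffAt ℝ 2 f x)
    (hneg : ∀ x : Eu 2, x ≠ 0 → Laplacian.laplacian f x < 0) : False := by
  obtain ⟨e, he⟩ : ∃ e : Eu 2, ‖e‖ = 1 :=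
    ⟨EuclideanSpace.single ⟨0, by omega⟩ 1, by simp⟩
  obtain ⟨x₁, hx₁, hmin⟩ := (isCompact_Ann (n := 2) 1 1).exists_isMinOn ⟨e, he.ge, he.le⟩
    hf.continuousOn
  have hx₁1 : ‖x₁‖ = 1 := le_antisymm hx₁.2 hx₁.1
  have hx₁0 : x₁ ≠ 0 := by
    intro h0
    rw [h0, norm_zero] at hx₁1
    norm_num at hx₁1
  obtain ⟨m, hm⟩ : ∃ m, m = f x₁ := ⟨_, rfl⟩
  have hm0 : 0 < m := by rw [hm]; exact hpos _
  have hS : ∀ y : Eu 2, ‖y‖ = 1 → m ≤ f y := fun y hy => by
    rw [hm]
    exact hmin ⟨hy.ge, hy.le⟩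
  -- outside the unit sphere
  have hout : ∀ y : Eu 2, 1 < ‖y‖ → m ≤ f y := by
    intro y hy
    have hr : 0 < Real.log ‖y‖ := Real.log_pos hy
    have hkey : ∀ R : ℝ, ‖y‖ < R → m - m * (Real.log R)⁻¹ * Real.log ‖y‖ ≤ f y := by
      intro R hR
      have hR1 : 1 < R := by linarith
      have hlogR : 0 < Real.log R := Real.log_pos hR1
      have h1 := dim_two_compare (ρ₁ := 1) (ρ₂ := R) (c := m * (Real.log R)⁻¹) (d := -m) (x := y)
        hf hC hneg one_pos ?_ ⟨hy.le, hR.le⟩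
      · linarith
      · intro z hz
        rcases hz with hz | hz
        · rw [hz, Real.log_one]
          have := hS z hz
          linarith
        · rw [hz]
          have e1 : m * (Real.log R)⁻¹ * Real.log R = m := by field_simp
          have := hpos z
          rw [e1]
          linarith
    have hlim : Tendsto (fun R : ℝ => m - m * (Real.log R)⁻¹ * Real.log ‖y‖) atTop
        (𝓝 (m - m * 0 * Real.log ‖y‖)) := by
      apply Tendsto.sub tendsto_const_nhds
      apply Tendsto.mul_const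
      apply Tendsto.const_mul
      exact tendsto_inv_atTop_zero.comp Real.tendsto_log_atTop
    have : m - m * 0 * Real.log ‖y‖ ≤ f y := by
      apply le_of_tendsto hlim
      filter_upwards [eventually_gt_atTop ‖y‖] with R hR using hkey R hR
    simpa using this
  -- inside the unit sphere
  have hin : ∀ y : Eu 2, y ≠ 0 → ‖y‖ < 1 → m ≤ f y := by
    intro y hy0 hy
    have hr : 0 < ‖y‖ := norm_pos_iff.2 hy0
    have hkey : ∀ δ > 0, m + δ * Real.log ‖y‖ ≤ f y := by
      intro δ hδ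
      obtain ⟨ρ, hρ⟩ : ∃ ρ, ρ = min (‖y‖ / 2) (Real.exp (-(m / δ))) := ⟨_, rfl⟩
      have hρ0 : 0 < ρ := by
        rw [hρ]
        exact lt_min (by positivity) (Real.exp_pos _)
      have hρ1 : ρ ≤ ‖y‖ := by
        have : ρ ≤ ‖y‖ / 2 := by rw [hρ]; exact min_le_left _ _
        linarith
      have hρ2 : Real.log ρ ≤ -(m / δ) := by
        have : ρ ≤ Real.exp (-(m / δ)) := by rw [hρ]; exact min_le_right _ _
        have h3 := Real.log_le_log hρ0 this
        rwa [Real.log_exp] at h3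
      have h1 := dim_two_compare (ρ₁ := ρ) (ρ₂ := 1) (c := -δ) (d := -m) (x := y)
        hf hC hneg hρ0 ?_ ⟨hρ1, hy.le⟩
      · linarith
      · intro z hz
        rcases hz with hz | hz
        · rw [hz]
          have h3 := hpos z
          have h4 : δ * Real.log ρ ≤ δ * (-(m / δ)) := by gcongr
          have h5 : δ * (-(m / δ)) = -m := by field_simp
          linarith
        · rw [hz, Real.log_one]
          have := hS z hz
          linarith
    have hlog : Real.log ‖y‖ < 0 := Real.log_neg hr hy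
    by_contra hcon
    push Not at hcon
    have hgap : 0 < m - f y := by linarith
    have := hkey ((m - f y) / (2 * (-Real.log ‖y‖))) (by
      apply div_pos hgap
      linarith)
    have e1 : (m - f y) / (2 * (-Real.log ‖y‖)) * Real.log ‖y‖ = -(m - f y) / 2 := by
      have : Real.log ‖y‖ ≠ 0 := hlog.ne
      field_simp
    rw [e1] at this
    linarith
  have hloc : IsLocalMin f x₁ := by
    filter_upwards [isOpen_compl_singleton.mem_nhds hx₁0] with y hy
    rw [← hm]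
    rcases lt_trichotomy ‖y‖ 1 with h1 | h1 | h1
    · exact hin y hy h1
    · exact hS y h1
    · exact hout y h1
  have h1 := laplacian_nonneg_of_isLocalMin (hC x₁ hx₁0) hloc
  have h2 := hneg x₁ hx₁0
  linarith

/-- Dimension two: there is no positive solution at all. -/
theorem no_solution_dim_two {u v : Eu 2 → ℝ} (h : IsPositiveEntireSolution 2 p q A B u v) :
    False :=
  no_superharmonic_dim_two h.continuous_u h.pos_u (fun _ hx => contDiffAt_u h hx)
    (fun _ hx => laplacian_u_neg h hx)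

/-- Everything together: the nonexistence for exponents below the weighted critical exponents. -/
theorem no_solution_main (hn : 2 ≤ n) (hp : 0 < p) (hq : 0 < q)
    (h1 : ((n:ℝ) - 2) * p ≤ n + 2 + 2 * A) (h2 : ((n:ℝ) - 2) * q ≤ n + 2 + 2 * B)
    (hs : ((n:ℝ) - 2) * p < n + 2 + 2 * A ∨ ((n:ℝ) - 2) * q < n + 2 + 2 * B)
    (h : IsPositiveEntireSolution n p q A B u v) : False := by
  obtain ⟨N, rfl⟩ : ∃ N, n = N + 2 := ⟨n - 2, by omega⟩
  rcases Nat.eq_zero_or_pos N with rfl | hN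
  · exact no_solution_dim_two h
  have hcast : (((N + 2 : ℕ) : ℝ)) = (N:ℝ) + 2 := by push_cast; ring
  rw [hcast] at h1 h2 hs
  have hA : -2 < A := by
    by_contra hA
    push Not at hA
    exact no_solution_of_low_weight h rfl hN hp hA
  have hB : -2 < B := by
    by_contra hB
    push Not at hB
    exact no_solution_of_low_weight h.swap rfl hN hq hB
  refine no_solution_core h rfl hN hp hq hA hB ?_ ?_ ?_
  · rw [kap]; linarith
  · rw [kap]; linarith
  · rw [kap, kap]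
    rcases hs with hs | hs
    · left; linarith
    · right; linarith

end Vale.Agent.Lib.P100
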