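import Mathlib
import Vale.Agent.Lib.P100.Kelvin

/-!
# The Kelvin transform with a real exponent
-/

namespace Vale.Agent.Lib.P100

open Set Filter Topology Real

variable {n : ℕ}

/-- The Kelvin-type transform with real exponent `c`. -/
noncomputable def kelr (c lam : ℝ) (u : Eu n → ℝ) (x : Eu n) : ℝ :=
  (lam / ‖x‖) ^ c * u (inv lam x)

lemma kelr_of_norm_eq {c lam : ℝ} (hl : 0 < lam) {u : Eu n → ℝ} {x : Eu n} (hx : ‖x‖ = lam) :
    kelr c lam u x = u x := by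
  rw [kelr, inv_of_norm_eq hl hx, hx, div_self hl.ne', Real.one_rpow, one_mul]

lemma contDiffAt_kelr {c lam : ℝ} (hl : 0 < lam) {u : Eu n → ℝ} {x : Eu n} (hx : x ≠ 0)
    (hu : ContDiffAt ℝ 2 u (inv lam x)) : ContDiffAt ℝ 2 (kelr c lam u) x := by
  have h1 : ContDiffAt ℝ 2 (fun y : Eu n => ‖y‖) x := contDiffAt_norm ℝ hx
  have hr : 0 < ‖x‖ := norm_pos_iff.2 hx
  have h2 : ContDiffAt ℝ 2 (fun y : Eu n => (lam / ‖y‖) ^ c) x :=
    (contDiffAt_const.div h1 hr.ne').rpow_const_of_ne (div_pos hl hr).ne'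
  have h3 : ContDiffAt ℝ 2 (fun y : Eu n => u (inv lam y)) x :=
    ContDiffAt.comp x hu (contDiffAt_inv hx)
  exact h2.mul h3

/-- The radial factor and its derivatives. -/
lemma hasDerivAt_Pr (c : ℝ) {lam r : ℝ} (hl : 0 < lam) (hr : 0 < r) :
    HasDerivAt (fun r : ℝ => (lam / r) ^ c) (-(c / r) * (lam / r) ^ c) r := by
  have h1 : HasDerivAt (fun r : ℝ => lam / r) (-lam / r ^ 2) r := by
    have h0 : HasDerivAt (fun r : ℝ => lam * r⁻¹) (lam * (-(r ^ 2)⁻¹)) r :=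
      (hasDerivAt_inv hr.ne').const_mul lam
    have e : (fun r : ℝ => lam / r) = fun r : ℝ => lam * r⁻¹ := by
      funext s; rw [div_eq_mul_inv]
    rw [e]
    refine h0.congr_deriv ?_
    field_simp
  have hpos : 0 < lam / r := by positivity
  have h2 := h1.rpow_const (p := c) (Or.inl hpos.ne')
  refine h2.congr_deriv ?_
  have e : (lam / r) ^ c = (lam / r) ^ (c - 1) * (lam / r) := by
    rw [← Real.rpow_add_one hpos.ne']
    congr 1
    ring
  rw [e]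
  field_simp

lemma hasDerivAt_Pr1 (c : ℝ) {lam r : ℝ} (hl : 0 < lam) (hr : 0 < r) :
    HasDerivAt (fun r : ℝ => -(c / r) * (lam / r) ^ c)
      (c * (c + 1) / r ^ 2 * (lam / r) ^ c) r := by
  have h1 : HasDerivAt (fun r : ℝ => -(c / r)) (c / r ^ 2) r := by
    have h0 : HasDerivAt (fun r : ℝ => -(c * r⁻¹)) (-(c * (-(r ^ 2)⁻¹))) r :=
      ((hasDerivAt_inv hr.ne').const_mul c).neg
    have e : (fun r : ℝ => -(c / r)) = fun r : ℝ => -(c * r⁻¹) := by
      funext s; rw [div_eq_mul_inv]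
    rw [e]
    refine h0.congr_deriv ?_
    field_simp
  have h2 : HasDerivAt (fun r : ℝ => -(c / r) * (lam / r) ^ c) _ r :=
    h1.mul (hasDerivAt_Pr c hl hr)
  refine h2.congr_deriv ?_
  field_simp
  ring

/-- Second derivative of the transform in a unit direction. -/
theorem kelvinr_second {c lam : ℝ} (hl : 0 < lam) {u : Eu n → ℝ} {x e : Eu n}
    (hx : x ≠ 0) (he : ‖e‖ = 1) (hu : ContDiffAt ℝ 2 u (inv lam x)) :
    fderiv ℝ (fderiv ℝ (kelr c lam u)) x e e =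
      ((c * (c + 1) / ‖x‖ ^ 2 * (lam / ‖x‖) ^ c) * (inner ℝ e x / ‖x‖) ^ 2
        + (-(c / ‖x‖) * (lam / ‖x‖) ^ c) * (1 / ‖x‖ - (inner ℝ e x) ^ 2 / ‖x‖ ^ 3)) * u (inv lam x)
      + 2 * ((-(c / ‖x‖) * (lam / ‖x‖) ^ c) * (inner ℝ e x / ‖x‖)) *
          (fderiv ℝ u (inv lam x) ((-(lam ^ 2 * (2 * inner ℝ e x)) / ‖x‖ ^ 4) • x
            + (lam ^ 2 / ‖x‖ ^ 2) • e))
      + (lam / ‖x‖) ^ c *
        (fderiv ℝ (fderiv ℝ u) (inv lam x)
            ((-(lam ^ 2 * (2 * inner ℝ e x)) / ‖x‖ ^ 4) • x + (lam ^ 2 / ‖x‖ ^ 2) • e)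
            ((-(lam ^ 2 * (2 * inner ℝ e x)) / ‖x‖ ^ 4) • x + (lam ^ 2 / ‖x‖ ^ 2) • e)
          + fderiv ℝ u (inv lam x)
            ((lam ^ 2 * (8 * (inner ℝ e x) ^ 2 / ‖x‖ ^ 6 - 2 / ‖x‖ ^ 4)) • x
              + (2 * (-(lam ^ 2 * (2 * inner ℝ e x)) / ‖x‖ ^ 4)) • e)) := by
  have hr : 0 < ‖x‖ := norm_pos_iff.2 hx
  set σ : ℝ := inner ℝ e x with hσ
  set r := ‖x‖ with hrdef
  set y := inv lam x with hy
  -- the scalar functions
  set s : ℝ → ℝ := fun t => r ^ 2 + 2 * σ * t + t ^ 2 with hs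
  set a : ℝ → ℝ := fun t => lam ^ 2 / s t with ha
  set a1 : ℝ → ℝ := fun t => -(lam ^ 2 * (2 * σ + 2 * t)) / s t ^ 2 with ha1
  set γ : ℝ → Eu n := fun t => a t • (x + t • e) with hγ
  set γ₁ : ℝ → Eu n := fun t => a1 t • (x + t • e) + a t • e with hγ₁
  have hs0 : s 0 = r ^ 2 := by simp [hs]
  have ha0 : a 0 = lam ^ 2 / r ^ 2 := by simp [ha, hs0]
  have ha10 : a1 0 = -(lam ^ 2 * (2 * σ)) / r ^ 4 := by
    simp only [ha1, hs0]
    rw [mul_zero, add_zero]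
    congr 1
    ring
  have hγ0 : γ 0 = y := by
    simp only [hγ, ha0, zero_smul, add_zero, hy, inv]
    rfl
  have hγ₁0 : γ₁ 0 = (-(lam ^ 2 * (2 * σ)) / r ^ 4) • x + (lam ^ 2 / r ^ 2) • e := by
    simp only [hγ₁, ha0, ha10, zero_smul, add_zero]
  have hline : ∀ t : ℝ, HasDerivAt (fun t : ℝ => x + t • e) e t := by
    intro t
    have := ((hasDerivAt_id t).smul_const e).const_add x
    simpa using this
  have hne : ∀ᶠ t in 𝓝 (0:ℝ), x + t • e ≠ 0 :=
    (tendsto_line x e).eventually (isOpen_compl_singleton.mem_nhds hx)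
  have hadot : ∀ t, x + t • e ≠ 0 → HasDerivAt a (a1 t) t := fun t ht => hasDerivAt_a he ht
  have hadot0 : HasDerivAt a (a1 0) 0 := hadot 0 (by simpa using hx)
  have ha1dot : HasDerivAt a1 (lam ^ 2 * (8 * σ ^ 2 / r ^ 6 - 2 / r ^ 4)) 0 := hasDerivAt_a1 hx
  have hγdot : ∀ t, x + t • e ≠ 0 → HasDerivAt γ (γ₁ t) t := by
    intro t ht
    have := (hadot t ht).smul (hline t)
    refine HasDerivAt.congr_deriv (f := γ) this ?_
    rw [hγ₁]
    exact add_comm _ _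
  have hγ₁dot : HasDerivAt γ₁ ((lam ^ 2 * (8 * σ ^ 2 / r ^ 6 - 2 / r ^ 4)) • x
      + (2 * (-(lam ^ 2 * (2 * σ)) / r ^ 4)) • e) 0 := by
    have h1 := ha1dot.smul (hline 0)
    have h2 := hadot0.smul_const e
    have h3 := h1.add h2
    refine HasDerivAt.congr_deriv (f := γ₁) h3 ?_
    simp only [zero_smul, add_zero, ha10, two_mul, add_smul]
    abel
  -- norm identities
  have hnorm : ∀ t, ‖x + t • e‖ ^ 2 = s t := fun t => norm_line_sq he t
  have hinv : ∀ t, inv lam (x + t • e) = γ t := by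
    intro t
    simp only [inv, hnorm, hγ, ha]
  have hg : ContDiffAt ℝ 2 (kelr c lam u) x := contDiffAt_kelr hl hx hu
  -- derivatives of `u` along the curve
  have hucurve : ∀ᶠ t in 𝓝 (0:ℝ), ContDiffAt ℝ 2 u (γ t) := by
    have hcont : ContinuousAt γ 0 := (hγdot 0 (by simpa using hx)).continuousAt
    have h2 : Tendsto γ (𝓝 0) (𝓝 y) := by
      have := hcont.tendsto
      rwa [hγ0] at this
    exact h2.eventually (hu.eventually (by simp))
  have hy0 : y = γ 0 := hγ0.symm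
  have hL : HasFDerivAt (fderiv ℝ u) (fderiv ℝ (fderiv ℝ u) y) (γ 0) := by
    have h1 : ContDiffAt ℝ 1 (fderiv ℝ u) y := hu.fderiv_right (m := 1) (by norm_num)
    rw [hγ0]
    exact (h1.differentiableAt (by norm_num)).hasFDerivAt
  have hγ0dot := hγdot 0 (by simpa using hx)
  have hLcurve := hL.comp_hasDerivAt (0:ℝ) hγ0dot
  have hLapp := hLcurve.clm_apply hγ₁dot
  have hucomp0 : HasDerivAt (fun t => u (γ t)) (fderiv ℝ u y (γ₁ 0)) 0 := by
    have h1 : HasFDerivAt u (fderiv ℝ u y) (γ 0) := by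
      rw [hγ0]
      exact (hu.differentiableAt (by norm_num)).hasFDerivAt
    exact h1.comp_hasDerivAt (0:ℝ) hγ0dot
  -- the first line derivative
  set H₁ : ℝ → ℝ := fun r => -(c / r) * (lam / r) ^ c with hH₁
  set H₂ : ℝ → ℝ := fun r => c * (c + 1) / r ^ 2 * (lam / r) ^ c with hH₂
  have hH₁dot : ∀ s, 0 < s → HasDerivAt H₁ (H₂ s) s := fun s hs => hasDerivAt_Pr1 c hl hs
  have hradial := hasDerivAt_radial_line hH₁dot hx he
  have hPline : HasDerivAt (fun t : ℝ => (lam / ‖x + t • e‖) ^ c)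
      (H₁ r * (σ / r)) 0 := by
    have h0 : x + (0:ℝ) • e ≠ 0 := by simpa using hx
    have hρ := hasDerivAt_norm_line he h0
    have hρ0 : ‖x + (0:ℝ) • e‖ = r := by simp [hrdef]
    rw [hρ0] at hρ
    have := HasDerivAt.comp (h₂ := fun r : ℝ => (lam / r) ^ c)
      (h := fun t : ℝ => ‖x + t • e‖) (0:ℝ) (by rw [hρ0]; exact hasDerivAt_Pr c hl hr) hρ
    refine HasDerivAt.congr_deriv this ?_
    simp only [hH₁, add_zero]
    rfl
  refine second_deriv_eq (ψ := fun t => (H₁ ‖x + t • e‖ * ((σ + t) / ‖x + t • e‖)) * u (γ t)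
      + (lam / ‖x + t • e‖) ^ c * (fderiv ℝ u (γ t) (γ₁ t))) hg ?_ ?_
  · filter_upwards [hne, hucurve] with t ht hut
    have hpos : 0 < ‖x + t • e‖ := norm_pos_iff.2 ht
    have h1 : HasDerivAt (fun t : ℝ => (lam / ‖x + t • e‖) ^ c)
        (H₁ ‖x + t • e‖ * ((σ + t) / ‖x + t • e‖)) t :=
      HasDerivAt.comp (h₂ := fun r : ℝ => (lam / r) ^ c)
        (h := fun t : ℝ => ‖x + t • e‖) t (hasDerivAt_Pr c hl hpos) (hasDerivAt_norm_line he ht)
    have h2 : HasDerivAt (fun t => u (γ t)) (fderiv ℝ u (γ t) (γ₁ t)) t := by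
      have h3 : HasFDerivAt u (fderiv ℝ u (γ t)) (γ t) :=
        (hut.differentiableAt (by norm_num)).hasFDerivAt
      exact h3.comp_hasDerivAt t (hγdot t ht)
    have h4 := h1.mul h2
    have h5 : (fun t : ℝ => kelr c lam u (x + t • e)) =
        (fun t : ℝ => (lam / ‖x + t • e‖) ^ c) * fun t => u (γ t) := by
      funext s
      simp only [kelr, hinv, Pi.mul_apply]
    rw [h5]
    exact h4
  · have h1 := hradial.mul hucomp0
    have hρ0 : ‖x + (0:ℝ) • e‖ = r := by simp [hrdef]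
    have h0 : (lam / ‖x + (0:ℝ) • e‖) ^ c = (lam / r) ^ c := by rw [hρ0]
    have h2 := hPline.mul hLapp
    have h3 := h1.add h2
    refine HasDerivAt.congr_deriv (f := fun t => (H₁ ‖x + t • e‖ * ((σ + t) / ‖x + t • e‖)) * u (γ t)
      + (lam / ‖x + t • e‖) ^ c * (fderiv ℝ u (γ t) (γ₁ t))) h3 ?_
    simp only [hγ0, add_zero, zero_smul, Function.comp, hH₁, hH₂]
    rw [hγ₁0]
    ring

/-- The Laplacian of the transform with real exponent. -/
theorem laplacian_kelr {N : ℕ} (hn : n = N + 2) {c lam : ℝ} (hl : 0 < lam) {u : Eu n → ℝ}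
    {x : Eu n} (hx : x ≠ 0) (hu : ContDiffAt ℝ 2 u (inv lam x)) :
    Laplacian.laplacian (kelr c lam u) x =
      (lam / ‖x‖) ^ c * (lam / ‖x‖) ^ 4 * Laplacian.laplacian u (inv lam x)
      + 2 * (c - N) / ‖x‖ ^ 2 * (lam / ‖x‖) ^ c *
        (fderiv ℝ u (inv lam x) (inv lam x) + c / 2 * u (inv lam x)) := by
  have hr : 0 < ‖x‖ := norm_pos_iff.2 hx
  rw [laplacian_eq_sum, laplacian_eq_sum u (inv lam x)]
  set b := EuclideanSpace.basisFun (Fin n) ℝ with hb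
  have hyx : inv lam x = (lam ^ 2 / ‖x‖ ^ 2) • x := rfl
  set y := inv lam x with hy
  set L := fderiv ℝ u y with hL
  set Q := fderiv ℝ (fderiv ℝ u) y with hQ
  set r := ‖x‖ with hrdef
  set P := (lam / r) ^ c with hP
  -- per-direction formula
  have h1 : ∀ i, fderiv ℝ (fderiv ℝ (kelr c lam u)) x (b i) (b i) =
      (P * ((c * (c + 2)) / r ^ 4 * u y - 4 * (c / r ^ 2) * 0)) * (inner ℝ (b i) x) ^ 2
      + (P * (-(c / r ^ 2)) * u y) * 1
      + (P * (lam ^ 2 / r ^ 2) * (4 * c / r ^ 4 * L x) +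
          P * (lam ^ 2 / r ^ 2) * ((8 / r ^ 4) * L x)
          + P * (lam ^ 2 / r ^ 2) ^ 2 * (4 / r ^ 4 * Q x x)) * (inner ℝ (b i) x) ^ 2
      + (P * (lam ^ 2 / r ^ 2) * (-(2 / r ^ 2) * L x)) * 1
      + (P * (lam ^ 2 / r ^ 2) * (-(2 * c / r ^ 2)) + P * (lam ^ 2 / r ^ 2) * (-(4 / r ^ 2)))
          * (inner ℝ (b i) x * L (b i))
      + (P * (lam ^ 2 / r ^ 2) ^ 2 * (-(2 / r ^ 2))) * (inner ℝ (b i) x * Q x (b i))
      + (P * (lam ^ 2 / r ^ 2) ^ 2 * (-(2 / r ^ 2))) * (inner ℝ (b i) x * Q (b i) x)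
      + (P * (lam ^ 2 / r ^ 2) ^ 2) * Q (b i) (b i) := by
    intro i
    have he : ‖b i‖ = 1 := by simp [hb]
    rw [kelvinr_second hl hx he hu]
    simp only [map_add, map_smul, add_apply, smul_apply, smul_eq_mul]
    field_simp
    ring
  simp only [h1]
  -- the sums
  have hsq : ∑ i, (inner ℝ (b i) x) ^ 2 = r ^ 2 := by
    have := b.sum_sq_norm_inner_right x
    simpa [Real.norm_eq_abs, sq_abs] using this
  have hs1 : ∀ f : Eu n →L[ℝ] ℝ, ∑ i, inner ℝ (b i) x * f (b i) = f x := by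
    intro f
    calc ∑ i, inner ℝ (b i) x * f (b i) = f (∑ i, inner ℝ (b i) x • b i) := by
          rw [map_sum]
          simp only [map_smul, smul_eq_mul]
      _ = f x := by rw [b.sum_repr' x]
  have hsL : ∑ i, inner ℝ (b i) x * L (b i) = L x := hs1 L
  have hsQ1 : ∑ i, inner ℝ (b i) x * Q x (b i) = Q x x := hs1 (Q x)
  have hsQ2 : ∑ i, inner ℝ (b i) x * Q (b i) x = Q x x := by
    have := hs1 (Q.flip x)
    simpa using this
  simp only [Finset.sum_add_distrib, ← Finset.mul_sum]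
  rw [hsq, hsL, hsQ1, hsQ2]
  simp only [Finset.sum_const, Finset.card_univ, Fintype.card_fin, nsmul_eq_mul, mul_one]
  have hcast : (n:ℝ) = (N:ℝ) + 2 := by rw [hn]; push_cast; ring
  rw [hcast]
  have hLy : L y = lam ^ 2 / r ^ 2 * L x := by
    rw [hyx, map_smul, smul_eq_mul]
  rw [hLy]
  have hP4 : (lam / r) ^ (4:ℕ) = (lam ^ 2 / r ^ 2) ^ 2 := by
    field_simp
  rw [hP4]
  field_simp
  ring

end Vale.Agent.Lib.P100
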