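import Mathlib
import Vale.Agent.Lib.P100.KelvinReal
import Vale.Agent.Lib.P100.Recursion

/-!
# Moving spheres with different exponents for the two components
-/

namespace Vale.Agent.Lib.P100

open Set Filter Topology Real

variable {n N : ℕ} {p q A B a₁ b₁ : ℝ} {u v : Eu n → ℝ}

/-- The first order quantity `y · ∇f(y) + a f(y)`. -/
noncomputable def Dl (a : ℝ) (f : Eu n → ℝ) (y : Eu n) : ℝ := fderiv ℝ f y y + a * f y

/-- The exponent appearing in the transformed equation. -/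
noncomputable def kapr (a₁ b₁ p A : ℝ) : ℝ := 2 + A + a₁ - b₁ * p

/-- The ordering at radius `lam`. -/
def Ordr (a₁ b₁ lam : ℝ) (u v : Eu n → ℝ) : Prop :=
  ∀ x : Eu n, lam ≤ ‖x‖ → kelr (2 * a₁) lam u x ≤ u x ∧ kelr (2 * b₁) lam v x ≤ v x

lemma Ordr.swap {lam : ℝ} (hO : Ordr a₁ b₁ lam u v) : Ordr b₁ a₁ lam v u :=
  fun x hx => ⟨(hO x hx).2, (hO x hx).1⟩

omit n in
lemma kelr_pos_of {n : ℕ} {f : Eu n → ℝ} (hf : ∀ x, 0 < f x) {c lam : ℝ} (hl : 0 < lam) {x : Eu n}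
    (hx : x ≠ 0) : 0 < kelr c lam f x := by
  have hr : 0 < ‖x‖ := norm_pos_iff.2 hx
  have := hf (inv lam x)
  rw [kelr]
  positivity

lemma continuousAt_kelr {f : Eu n → ℝ} (hf : Continuous f) {c lam : ℝ} (hl : 0 < lam) {x : Eu n}
    (hx : x ≠ 0) : ContinuousAt (kelr c lam f) x := by
  have h1 : ContinuousAt (fun y : Eu n => ‖y‖) x := continuous_norm.continuousAt
  have hr : 0 < ‖x‖ := norm_pos_iff.2 hx
  have h2 : ContinuousAt (fun y : Eu n => (lam / ‖y‖) ^ c) x :=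
    (continuousAt_const.div h1 hr.ne').rpow_const (Or.inl (div_pos hl hr).ne')
  have h3 : ContinuousAt (inv lam : Eu n → Eu n) x := (contDiffAt_inv hx).continuousAt
  have h4 : ContinuousAt (fun y : Eu n => f (inv lam y)) x := hf.continuousAt.comp h3
  exact h2.mul h4

/-- The transformed equation. -/
lemma laplacian_kelr_u (h : IsPositiveEntireSolution n p q A B u v) (hn : n = N + 2) {lam : ℝ}
    (hl : 0 < lam) {x : Eu n} (hx : x ≠ 0) :
    Laplacian.laplacian (kelr (2 * a₁) lam u) x =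
      -(‖x‖ ^ A * (lam / ‖x‖) ^ (2 * kapr a₁ b₁ p A) * (kelr (2 * b₁) lam v x) ^ p)
      + 2 * (2 * a₁ - N) / ‖x‖ ^ 2 * (lam / ‖x‖) ^ (2 * a₁) * Dl a₁ u (inv lam x) := by
  have hr : 0 < ‖x‖ := norm_pos_iff.2 hx
  have hy : inv lam x ≠ 0 := inv_ne_zero hl hx
  rw [laplacian_kelr hn hl hx (contDiffAt_u h hy), laplacian_u h hy, norm_inv hl hx, Dl]
  have e0 : 2 * a₁ / 2 = a₁ := by ring
  rw [e0]
  obtain ⟨r, hrdef⟩ : ∃ r, r = ‖x‖ := ⟨_, rfl⟩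
  rw [← hrdef] at hr ⊢
  obtain ⟨t, ht⟩ : ∃ t, t = lam / r := ⟨_, rfl⟩
  have htpos : 0 < t := by rw [ht]; positivity
  have e1 : lam ^ 2 / r = r * t ^ 2 := by rw [ht]; field_simp
  have hvy : 0 < v (inv lam x) := h.pos_v _
  rw [e1, Real.mul_rpow hr.le (by positivity), kelr, ← hrdef, ← ht,
    Real.mul_rpow (by positivity) hvy.le]
  have e2 : (t ^ 2) ^ A = t ^ (2 * A) := by
    rw [← Real.rpow_natCast, ← Real.rpow_mul htpos.le]
    norm_num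
  have e3 : (t ^ (2 * b₁)) ^ p = t ^ (2 * b₁ * p) := by
    rw [← Real.rpow_mul htpos.le]
  have e4 : t ^ (4:ℕ) = t ^ (4:ℝ) := by
    rw [← Real.rpow_natCast]; norm_num
  have e5 : t ^ (2 * kapr a₁ b₁ p A) = t ^ (2 * a₁) * t ^ (4:ℝ) * t ^ (2 * A) / t ^ (2 * b₁ * p) := by
    rw [← Real.rpow_add htpos, ← Real.rpow_add htpos, ← Real.rpow_sub htpos, kapr]
    congr 1
    ring
  rw [e2, e3, e4, e5]
  field_simp

/-- The equation for the difference. -/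
lemma laplacian_sub_kelr_u (h : IsPositiveEntireSolution n p q A B u v) (hn : n = N + 2) {lam : ℝ}
    (hl : 0 < lam) {x : Eu n} (hx : x ≠ 0) :
    Laplacian.laplacian (fun y => u y - kelr (2 * a₁) lam u y) x =
      ‖x‖ ^ A * ((lam / ‖x‖) ^ (2 * kapr a₁ b₁ p A) * (kelr (2 * b₁) lam v x) ^ p - v x ^ p)
      - 2 * (2 * a₁ - N) / ‖x‖ ^ 2 * (lam / ‖x‖) ^ (2 * a₁) * Dl a₁ u (inv lam x) := by
  have hy : inv lam x ≠ 0 := inv_ne_zero hl hx
  have h1 := contDiffAt_u h hx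
  have h2 : ContDiffAt ℝ 2 (kelr (2 * a₁) lam u) x := contDiffAt_kelr hl hx (contDiffAt_u h hy)
  have e : (fun y => u y - kelr (2 * a₁) lam u y) = u - kelr (2 * a₁) lam u := by
    funext y; simp
  rw [e, h1.laplacian_sub h2, laplacian_u h hx, laplacian_kelr_u h hn hl hx]
  ring

/-- Upper bound for the equation of the difference, when the first order term has a sign. -/
lemma laplacian_sub_kelr_le (h : IsPositiveEntireSolution n p q A B u v) (hn : n = N + 2) {lam : ℝ}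
    (hl : 0 < lam) {x : Eu n} (hx : x ≠ 0) (hE : 0 ≤ (2 * a₁ - N) * Dl a₁ u (inv lam x)) :
    Laplacian.laplacian (fun y => u y - kelr (2 * a₁) lam u y) x ≤
      ‖x‖ ^ A * ((lam / ‖x‖) ^ (2 * kapr a₁ b₁ p A) * (kelr (2 * b₁) lam v x) ^ p - v x ^ p) := by
  rw [laplacian_sub_kelr_u (a₁ := a₁) (b₁ := b₁) h hn hl hx]
  have hr : 0 < ‖x‖ := norm_pos_iff.2 hx
  have e : 2 * (2 * a₁ - N) / ‖x‖ ^ 2 * (lam / ‖x‖) ^ (2 * a₁) * Dl a₁ u (inv lam x) =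
      2 / ‖x‖ ^ 2 * (lam / ‖x‖) ^ (2 * a₁) * ((2 * a₁ - N) * Dl a₁ u (inv lam x)) := by
    ring
  rw [e]
  have : 0 ≤ 2 / ‖x‖ ^ 2 * (lam / ‖x‖) ^ (2 * a₁) * ((2 * a₁ - N) * Dl a₁ u (inv lam x)) := by
    positivity
  linarith

/-- The pointwise inequality in the cooperative comparison. -/
lemma key_ineq {p C rA τ K V m bx L : ℝ} (hp : 0 < p) (hC : 0 ≤ C) (hrA : 0 < rA) (hτ : τ ≤ 1)
    (hK : 0 < K) (hV : 0 < V) (hCbd : V < K → K ^ p - V ^ p ≤ C * (K - V)) (hbx : 0 < bx)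
    (hL : C * rA * bx < L) (hm : m < 0) (hz : m * bx ≤ V - K) :
    rA * (τ * K ^ p - V ^ p) < (-m) * L := by
  have hKp : 0 < K ^ p := by positivity
  have hL0 : 0 < L := by
    have : 0 ≤ C * rA * bx := by positivity
    linarith
  have hstep : rA * (τ * K ^ p - V ^ p) ≤ rA * (K ^ p - V ^ p) := by
    gcongr
    nlinarith
  have hmb0 : 0 < (-m) * L := mul_pos (by linarith) hL0
  rcases le_or_gt K V with hcase | hcase
  · have : K ^ p ≤ V ^ p := Real.rpow_le_rpow hK.le hcase hp.le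
    have h3 : rA * (K ^ p - V ^ p) ≤ 0 := mul_nonpos_of_nonneg_of_nonpos hrA.le (by linarith)
    linarith
  · have h3 := hCbd hcase
    have h4 : K - V ≤ (-m) * bx := by linarith
    have h5 : rA * (K ^ p - V ^ p) ≤ rA * (C * ((-m) * bx)) := by
      gcongr
      exact h3.trans (mul_le_mul_of_nonneg_left h4 hC)
    have h6 : rA * (C * ((-m) * bx)) = (-m) * (C * rA * bx) := by ring
    have h7 : (-m) * (C * rA * bx) < (-m) * L := mul_lt_mul_of_pos_left hL (by linarith)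
    linarith

/-- The comparison principle on an annulus outside the sphere of radius `lam`. -/
theorem annulus_compareR (h : IsPositiveEntireSolution n p q A B u v) (hn : n = N + 2)
    (hp : 0 < p) (hq : 0 < q) (hκ₁ : 0 ≤ kapr a₁ b₁ p A) (hκ₂ : 0 ≤ kapr b₁ a₁ q B)
    {lam ρ₁ ρ₂ C₁ C₂ : ℝ} (hl : 0 < lam) (hρ : lam ≤ ρ₁) (hC₁0 : 0 ≤ C₁) (hC₂0 : 0 ≤ C₂)
    (hE₁ : ∀ x : Eu n, ρ₁ < ‖x‖ → ‖x‖ < ρ₂ → 0 ≤ (2 * a₁ - N) * Dl a₁ u (inv lam x))
    (hE₂ : ∀ x : Eu n, ρ₁ < ‖x‖ → ‖x‖ < ρ₂ → 0 ≤ (2 * b₁ - N) * Dl b₁ v (inv lam x))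
    (hC₁ : ∀ x : Eu n, ρ₁ < ‖x‖ → ‖x‖ < ρ₂ → v x < kelr (2 * b₁) lam v x →
      kelr (2 * b₁) lam v x ^ p - v x ^ p ≤ C₁ * (kelr (2 * b₁) lam v x - v x))
    (hC₂ : ∀ x : Eu n, ρ₁ < ‖x‖ → ‖x‖ < ρ₂ → u x < kelr (2 * a₁) lam u x →
      kelr (2 * a₁) lam u x ^ q - u x ^ q ≤ C₂ * (kelr (2 * a₁) lam u x - u x))
    {b : Eu n → ℝ} (hbc : ContinuousOn b (Ann n ρ₁ ρ₂))
    (hbC : ∀ x, ρ₁ < ‖x‖ → ‖x‖ < ρ₂ → ContDiffAt ℝ 2 b x)
    (hbpos : ∀ x ∈ Ann n ρ₁ ρ₂, 0 < b x)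
    (hb1 : ∀ x : Eu n, ρ₁ < ‖x‖ → ‖x‖ < ρ₂ → C₁ * ‖x‖ ^ A * b x < - Laplacian.laplacian b x)
    (hb2 : ∀ x : Eu n, ρ₁ < ‖x‖ → ‖x‖ < ρ₂ → C₂ * ‖x‖ ^ B * b x < - Laplacian.laplacian b x)
    (hbw : ∀ x : Eu n, ‖x‖ = ρ₁ ∨ ‖x‖ = ρ₂ → kelr (2 * a₁) lam u x ≤ u x)
    (hbz : ∀ x : Eu n, ‖x‖ = ρ₁ ∨ ‖x‖ = ρ₂ → kelr (2 * b₁) lam v x ≤ v x) :
    ∀ x ∈ Ann n ρ₁ ρ₂, kelr (2 * a₁) lam u x ≤ u x ∧ kelr (2 * b₁) lam v x ≤ v x := by
  have hne : ∀ x : Eu n, ρ₁ ≤ ‖x‖ → x ≠ 0 := by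
    intro x hx h0
    rw [h0, norm_zero] at hx
    linarith
  -- one half of the argument, applied twice
  have key : ∀ {p q A B a₁ b₁ : ℝ} {u v : Eu n → ℝ} {C : ℝ}, IsPositiveEntireSolution n p q A B u v →
      0 < p → 0 ≤ kapr a₁ b₁ p A → 0 ≤ C →
      (∀ x : Eu n, ρ₁ < ‖x‖ → ‖x‖ < ρ₂ → 0 ≤ (2 * a₁ - N) * Dl a₁ u (inv lam x)) →
      (∀ x : Eu n, ρ₁ < ‖x‖ → ‖x‖ < ρ₂ → v x < kelr (2 * b₁) lam v x →
        kelr (2 * b₁) lam v x ^ p - v x ^ p ≤ C * (kelr (2 * b₁) lam v x - v x)) →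
      (∀ x : Eu n, ρ₁ < ‖x‖ → ‖x‖ < ρ₂ → C * ‖x‖ ^ A * b x < - Laplacian.laplacian b x) →
      ∀ x : Eu n, ρ₁ < ‖x‖ → ‖x‖ < ρ₂ → ∀ m : ℝ, m < 0 →
        m * b x ≤ v x - kelr (2 * b₁) lam v x →
        Laplacian.laplacian (fun y => u y - kelr (2 * a₁) lam u y) x
          < m * Laplacian.laplacian b x := by
    intro p q A B a₁ b₁ u v C h hp hκ hC hE hCbd hbd x h1 h2 m hm hz
    have hx0 := hne x h1.le
    have hr : 0 < ‖x‖ := norm_pos_iff.2 hx0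
    have hτ : (lam / ‖x‖) ^ (2 * kapr a₁ b₁ p A) ≤ 1 := by
      apply Real.rpow_le_one (by positivity) _ (by linarith)
      rw [div_le_one hr]
      linarith
    have h3 := laplacian_sub_kelr_le (a₁ := a₁) (b₁ := b₁) h hn hl hx0 (hE x h1 h2)
    have h4 := key_ineq hp hC (by positivity : 0 < ‖x‖ ^ A) hτ (kelr_pos_of h.pos_v hl hx0)
      (h.pos_v x) (hCbd x h1 h2) (hbpos x ⟨h1.le, h2.le⟩) (hbd x h1 h2) hm hz
    have e : (-m) * (- Laplacian.laplacian b x) = m * Laplacian.laplacian b x := by ring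
    rw [e] at h4
    linarith
  have hmain := ann_system_mp (w := fun x => u x - kelr (2 * a₁) lam u x)
    (z := fun x => v x - kelr (2 * b₁) lam v x) (b := b) (ρ₁ := ρ₁) (ρ₂ := ρ₂)
    (by
      intro x hx
      exact (h.continuous_u.continuousAt.sub
        (continuousAt_kelr h.continuous_u hl (hne x hx.1))).continuousWithinAt)
    (by
      intro x hx
      exact (h.continuous_v.continuousAt.sub
        (continuousAt_kelr h.continuous_v hl (hne x hx.1))).continuousWithinAt)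
    hbc
    (fun x h1 _ => (contDiffAt_u h (hne x h1.le)).sub
      (contDiffAt_kelr hl (hne x h1.le) (contDiffAt_u h (inv_ne_zero hl (hne x h1.le)))))
    (fun x h1 _ => (contDiffAt_v h (hne x h1.le)).sub
      (contDiffAt_kelr hl (hne x h1.le) (contDiffAt_v h (inv_ne_zero hl (hne x h1.le)))))
    hbC hbpos
    (by
      intro x h1 h2 m hm _ hz
      exact key h hp hκ₁ hC₁0 hE₁ hC₁ hb1 x h1 h2 m hm hz)
    (by
      intro x h1 h2 m hm _ hz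
      exact key h.swap hq hκ₂ hC₂0 hE₂ hC₂ hb2 x h1 h2 m hm hz)
    (fun x hx => by have := hbw x hx; linarith)
    (fun x hx => by have := hbz x hx; linarith)
  intro x hx
  have := hmain x hx
  exact ⟨by linarith [this.1], by linarith [this.2]⟩

/-- A function with a minimum from the right at `0` has a nonnegative derivative there. -/
lemma deriv_nonneg_of_right_ge {g : ℝ → ℝ} {d : ℝ} (h : HasDerivAt g d 0)
    (hev : ∀ᶠ t in 𝓝[>] (0:ℝ), g 0 ≤ g t) : 0 ≤ d := by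
  have h1 : Tendsto (slope g 0) (𝓝[>] 0) (𝓝 d) :=
    (hasDerivAt_iff_tendsto_slope.1 h).mono_left (nhdsWithin_mono 0 (fun t (ht : 0 < t) => ht.ne'))
  apply ge_of_tendsto h1
  filter_upwards [hev, self_mem_nhdsWithin] with t ht ht0
  rw [slope_def_field]
  exact div_nonneg (by linarith) (by simpa using ht0.le)

/-- Derivative of `f` along a ray. -/
lemma hasDerivAt_ray {f : Eu n → ℝ} {y : Eu n} (hf : DifferentiableAt ℝ f y) :
    HasDerivAt (fun t : ℝ => f ((1 + t) • y)) (fderiv ℝ f y y) 0 := by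
  have h1 : HasDerivAt (fun t : ℝ => (1 + t) • y) y 0 := by
    have := ((hasDerivAt_id (0:ℝ)).const_add 1).smul_const y
    simpa using this
  have h2 : HasFDerivAt f (fderiv ℝ f y) ((1 + (0:ℝ)) • y) := by
    simpa using hf.hasFDerivAt
  exact h2.comp_hasDerivAt (0:ℝ) h1

/-- Derivative of `f` along the inverted ray. -/
lemma hasDerivAt_ray_inv {f : Eu n → ℝ} {y : Eu n} (hf : DifferentiableAt ℝ f y) :
    HasDerivAt (fun t : ℝ => f ((1 + t)⁻¹ • y)) (-(fderiv ℝ f y y)) 0 := by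
  have h0 : HasDerivAt (fun t : ℝ => (1 + t)⁻¹) (-1) 0 := by
    have h3 : HasDerivAt (fun t : ℝ => 1 + t) 1 0 := by
      simpa using (hasDerivAt_id (0:ℝ)).const_add 1
    have := h3.fun_inv (by norm_num)
    simpa using this
  have h1 : HasDerivAt (fun t : ℝ => (1 + t)⁻¹ • y) ((-1 : ℝ) • y) 0 := h0.smul_const y
  have h2 : HasFDerivAt f (fderiv ℝ f y) ((1 + (0:ℝ))⁻¹ • y) := by
    simpa using hf.hasFDerivAt
  have h4 : HasDerivAt (fun t : ℝ => f ((1 + t)⁻¹ • y)) (fderiv ℝ f y ((-1 : ℝ) • y)) 0 :=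
    h2.comp_hasDerivAt (0:ℝ) h1
  exact h4.congr_deriv (by simp)

/-- Derivative of real powers of `1 + t` at `0`. -/
lemma hasDerivAt_one_add_rpow (s : ℝ) : HasDerivAt (fun t : ℝ => (1 + t) ^ s) s 0 := by
  have h3 : HasDerivAt (fun t : ℝ => 1 + t) 1 0 := by
    simpa using (hasDerivAt_id (0:ℝ)).const_add 1
  have := h3.rpow_const (p := s) (Or.inl (by norm_num))
  simpa using this

lemma norm_scale {s : ℝ} (hs : 0 < s) (x : Eu n) : ‖s • x‖ = s * ‖x‖ := by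
  rw [norm_smul, Real.norm_eq_abs, abs_of_pos hs]

/-- The transform on a ray through a point of the sphere of inversion. -/
lemma kelr_scale {c lam s : ℝ} (hl : 0 < lam) (hs : 0 < s) {f : Eu n → ℝ} {x₀ : Eu n}
    (hx₀ : ‖x₀‖ = lam) : kelr c lam f (s • x₀) = s ^ (-c) * f (s⁻¹ • x₀) := by
  have h1 : inv lam (s • x₀) = s⁻¹ • x₀ := by
    rw [inv, norm_scale hs, hx₀, smul_smul]
    congr 1
    field_simp
  rw [kelr, h1, norm_scale hs, hx₀]
  have h2 : lam / (s * lam) = s⁻¹ := by field_simp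
  rw [h2, Real.inv_rpow hs.le, Real.rpow_neg hs.le]

/-- Derivative at the sphere of the Kelvin difference, along a ray. -/
lemma hasDerivAt_W {c lam : ℝ} (hl : 0 < lam) {f : Eu n → ℝ} {x₀ : Eu n} (hx₀ : ‖x₀‖ = lam)
    (hf : DifferentiableAt ℝ f x₀) :
    HasDerivAt (fun t : ℝ => f ((1 + t) • x₀) - kelr c lam f ((1 + t) • x₀))
      (2 * fderiv ℝ f x₀ x₀ + c * f x₀) 0 := by
  have h1 := hasDerivAt_ray hf
  have h2 := (hasDerivAt_one_add_rpow (-c)).mul (hasDerivAt_ray_inv hf)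
  have h3 := h1.sub h2
  have hev : (fun t : ℝ => f ((1 + t) • x₀) - kelr c lam f ((1 + t) • x₀)) =ᶠ[𝓝 0]
      (fun t : ℝ => f ((1 + t) • x₀)) - ((fun t : ℝ => (1 + t) ^ (-c)) * fun t => f ((1 + t)⁻¹ • x₀)) := by
    have : ∀ᶠ t in 𝓝 (0:ℝ), 0 < 1 + t := by
      have h4 : Tendsto (fun t : ℝ => 1 + t) (𝓝 0) (𝓝 (1 + 0)) := tendsto_const_nhds.add tendsto_id
      exact h4.eventually (lt_mem_nhds (by norm_num))
    filter_upwards [this] with t ht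
    simp only [Pi.sub_apply, Pi.mul_apply]
    rw [kelr_scale hl ht hx₀]
  refine (h3.congr_of_eventuallyEq hev).congr_deriv ?_
  simp
  ring

/-- Monotonicity along rays, from the ordering at all smaller radii. -/
theorem Dl_nonneg_of_ord {f : Eu n → ℝ} {a lam₀ : ℝ} {y : Eu n} (hf : DifferentiableAt ℝ f y)
    (hO : ∀ lam, 0 < lam → lam < lam₀ → ∀ x : Eu n, lam ≤ ‖x‖ → kelr (2 * a) lam f x ≤ f x)
    (hy : y ≠ 0) (hyl : ‖y‖ < lam₀) : 0 ≤ Dl a f y := by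
  have ht : 0 < ‖y‖ := norm_pos_iff.2 hy
  have h1 := hasDerivAt_ray hf
  have h2 := (hasDerivAt_one_add_rpow (-a)).mul_const (f y)
  have h3 := h1.sub h2
  have h4 := deriv_nonneg_of_right_ge h3 ?_
  · rw [Dl]
    linarith
  -- the inequality
  have hnh : ∀ᶠ s in 𝓝[>] (0:ℝ), s ∈ Ioo 0 ((lam₀ - ‖y‖) / ‖y‖) :=
    Ioo_mem_nhdsGT (div_pos (by linarith) ht)
  filter_upwards [hnh] with s hs
  have hs0 := hs.1
  have hs1 : (1 + s) * ‖y‖ < lam₀ := by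
    have := hs.2
    rw [lt_div_iff₀ ht] at this
    linarith
  obtain ⟨w, hw⟩ : ∃ w, w = 1 + s := ⟨_, rfl⟩
  have hw1 : 1 < w := by linarith
  have hw0 : 0 < w := by linarith
  rw [← hw] at hs1
  simp only [Pi.sub_apply]
  have e0 : ((1:ℝ) + 0) = 1 := by norm_num
  simp only [add_zero, one_smul, Real.one_rpow, one_mul, sub_self]
  rw [← hw]
  obtain ⟨lam, hlam⟩ : ∃ lam, lam = ‖y‖ * w ^ ((1:ℝ) / 2) := ⟨_, rfl⟩
  have hsq : w ^ ((1:ℝ) / 2) * w ^ ((1:ℝ) / 2) = w := by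
    rw [← Real.rpow_add hw0]
    norm_num
  have hroot : w ^ ((1:ℝ) / 2) ≤ w := by
    calc w ^ ((1:ℝ) / 2) ≤ w ^ (1:ℝ) := Real.rpow_le_rpow_of_exponent_le hw1.le (by norm_num)
      _ = w := Real.rpow_one w
  have hroot0 : 0 < w ^ ((1:ℝ) / 2) := by positivity
  have hlam0 : 0 < lam := by rw [hlam]; positivity
  have hlaml : lam ≤ w * ‖y‖ := by
    rw [hlam, mul_comm]
    gcongr
  have hnx : ‖w • y‖ = w * ‖y‖ := norm_scale hw0 y
  have h5 := hO lam hlam0 (by linarith) (w • y) (by rw [hnx]; exact hlaml)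
  have hinv : inv lam (w • y) = y := by
    rw [inv, hnx, smul_smul]
    have : lam ^ 2 / (w * ‖y‖) ^ 2 * w = 1 := by
      rw [hlam]
      have e : (‖y‖ * w ^ ((1:ℝ) / 2)) ^ 2 = ‖y‖ ^ 2 * w := by
        rw [mul_pow, sq (w ^ ((1:ℝ) / 2)), hsq]
      rw [e]
      field_simp
    rw [this, one_smul]
  have hfac : (lam / (w * ‖y‖)) ^ (2 * a) = w ^ (-a) := by
    have e : lam / (w * ‖y‖) = w ^ (-((1:ℝ) / 2)) := by
      rw [hlam, Real.rpow_neg hw0.le]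
      field_simp
      rw [sq, hsq]
    rw [e, ← Real.rpow_mul hw0.le]
    congr 1
    ring
  rw [kelr, hinv, hnx, hfac] at h5
  linarith

/-- Derivative of a real power of the norm along a ray. -/
lemma hasDerivAt_norm_ray (s : ℝ) {lam : ℝ} (hl : 0 < lam) {x₀ : Eu n} (hx₀ : ‖x₀‖ = lam) :
    HasDerivAt (fun t : ℝ => ‖(1 + t) • x₀‖ ^ s) (s * lam ^ s) 0 := by
  have h1 := (hasDerivAt_one_add_rpow s).mul_const (lam ^ s)
  have hev : (fun t : ℝ => ‖(1 + t) • x₀‖ ^ s) =ᶠ[𝓝 0] fun t : ℝ => (1 + t) ^ s * lam ^ s := by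
    have : ∀ᶠ t in 𝓝 (0:ℝ), 0 < 1 + t := by
      have h4 : Tendsto (fun t : ℝ => 1 + t) (𝓝 0) (𝓝 (1 + 0)) := tendsto_const_nhds.add tendsto_id
      exact h4.eventually (lt_mem_nhds (by norm_num))
    filter_upwards [this] with t ht
    rw [norm_scale ht, hx₀, Real.mul_rpow ht.le hl.le]
  exact h1.congr_of_eventuallyEq hev

/-- A radial barrier gives a lower bound for the radial derivative at the inner sphere. -/
theorem radial_barrier_compare (hn : n = N + 2) (hN : 1 ≤ N) {W : Eu n → ℝ} {lam K d : ℝ}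
    (hl : 0 < lam) (hK : 0 < K)
    (hWc : ∀ x : Eu n, lam ≤ ‖x‖ → ContinuousAt W x)
    (hWC : ∀ x : Eu n, lam < ‖x‖ → ‖x‖ < 2 * lam → ContDiffAt ℝ 2 W x)
    (hWΔ : ∀ x : Eu n, lam < ‖x‖ → ‖x‖ < 2 * lam → Laplacian.laplacian W x ≤ K)
    (hW1 : ∀ x : Eu n, ‖x‖ = lam → W x = 0) (hW2 : ∀ x : Eu n, ‖x‖ = 2 * lam → 0 ≤ W x)
    {x₀ : Eu n} (hx₀ : ‖x₀‖ = lam) (hd : HasDerivAt (fun t : ℝ => W ((1 + t) • x₀)) d 0) :
    -(6 * K * lam ^ 2) ≤ d := by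
  have hcast : (n:ℝ) = (N:ℝ) + 2 := by rw [hn]; push_cast; ring
  have hNpos : (1:ℝ) ≤ N := by exact_mod_cast hN
  have hn0 : (0:ℝ) < n := by rw [hcast]; linarith
  obtain ⟨B₀, hB₀⟩ : ∃ B₀, B₀ = 3 * lam ^ 2 / n := ⟨_, rfl⟩
  have hB₀0 : 0 < B₀ := by rw [hB₀]; positivity
  obtain ⟨c₁, hc₁⟩ : ∃ c₁, c₁ = -(2 * K * B₀ * lam ^ N) := ⟨_, rfl⟩
  obtain ⟨c₂, hc₂⟩ : ∃ c₂, c₂ = -(K / n) := ⟨_, rfl⟩
  obtain ⟨c₀, hc₀⟩ : ∃ c₀, c₀ = 2 * K * B₀ + K * lam ^ 2 / n := ⟨_, rfl⟩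
  have hne : ∀ x : Eu n, lam ≤ ‖x‖ → x ≠ 0 := by
    intro x hx h0
    rw [h0, norm_zero] at hx
    linarith
  have hpow1 : lam ^ (-(N:ℝ)) * lam ^ N = 1 := by
    rw [Real.rpow_neg hl.le, Real.rpow_natCast]
    field_simp
  have hsq : ∀ r : ℝ, 0 < r → r ^ (2:ℝ) = r ^ 2 := by
    intro r _
    rw [← Real.rpow_natCast]
    norm_num
  have hmp : ∀ x ∈ Ann n lam (2 * lam),
      0 ≤ W x + c₁ * ‖x‖ ^ (-(N:ℝ)) + c₂ * ‖x‖ ^ (2:ℝ) + c₀ := by
    refine ann_min_principle (ρ₁ := lam) (ρ₂ := 2 * lam)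
      (g := fun y => W y + c₁ * ‖y‖ ^ (-(N:ℝ)) + c₂ * ‖y‖ ^ (2:ℝ) + c₀) ?_ ?_ ?_ ?_
    · intro y hy
      have hy0 := hne y hy.1
      have h1 : ContinuousAt (fun y : Eu n => ‖y‖ ^ (-(N:ℝ))) y :=
        (contDiffAt_rpow_norm _ hy0).continuousAt
      have h2 : ContinuousAt (fun y : Eu n => ‖y‖ ^ (2:ℝ)) y :=
        (contDiffAt_rpow_norm _ hy0).continuousAt
      exact (((hWc y hy.1).add (continuousAt_const.mul h1)).add
        (continuousAt_const.mul h2)).add continuousAt_const |>.continuousWithinAt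
    · intro y h1 h2
      have hy0 := hne y h1.le
      exact (((hWC y h1 h2).add (contDiffAt_const.mul (contDiffAt_rpow_norm _ hy0))).add
        (contDiffAt_const.mul (contDiffAt_rpow_norm _ hy0))).add contDiffAt_const
    · intro y h1 h2 _
      have hy0 := hne y h1.le
      have hr : 0 < ‖y‖ := norm_pos_iff.2 hy0
      rw [laplacian_add_two c₁ c₂ c₀ (hWC y h1 h2) (contDiffAt_rpow_norm _ hy0)
        (contDiffAt_rpow_norm _ hy0), laplacian_rpow_norm _ hy0, laplacian_rpow_norm _ hy0]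
      have e1 : -(N:ℝ) * (-(N:ℝ) + (n:ℝ) - 2) = 0 := by rw [hcast]; ring
      have e2 : ‖y‖ ^ ((2:ℝ) - 2) = 1 := by norm_num
      rw [e1, e2, hc₂]
      have e3 : -(K / n) * ((2:ℝ) * (2 + (n:ℝ) - 2) * 1) = -(2 * K) := by
        field_simp
        ring
      rw [e3]
      have := hWΔ y h1 h2
      nlinarith
    · intro y hy
      rcases hy with hy | hy
      · show 0 ≤ W y + c₁ * ‖y‖ ^ (-(N:ℝ)) + c₂ * ‖y‖ ^ (2:ℝ) + c₀
        rw [hW1 y hy, hy, hsq lam hl, hc₁, hc₂, hc₀]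
        have e : -(2 * K * B₀ * lam ^ N) * lam ^ (-(N:ℝ)) = -(2 * K * B₀) := by
          calc -(2 * K * B₀ * lam ^ N) * lam ^ (-(N:ℝ))
              = -(2 * K * B₀ * (lam ^ (-(N:ℝ)) * lam ^ N)) := by ring
            _ = -(2 * K * B₀) := by rw [hpow1, mul_one]
        rw [e]
        have : -(K / n) * lam ^ 2 = -(K * lam ^ 2 / n) := by ring
        rw [this]
        linarith
      · show 0 ≤ W y + c₁ * ‖y‖ ^ (-(N:ℝ)) + c₂ * ‖y‖ ^ (2:ℝ) + c₀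
        have h2 := hW2 y hy
        have h2l : 0 < 2 * lam := by linarith
        rw [hy, hsq _ h2l, hc₁, hc₂, hc₀]
        have hq : (2 * lam) ^ (-(N:ℝ)) * lam ^ N ≤ 1 / 2 := by
          rw [Real.rpow_neg h2l.le, Real.rpow_natCast, mul_pow]
          have h3 : (2:ℝ) ≤ 2 ^ N := by
            calc (2:ℝ) = 2 ^ 1 := by norm_num
              _ ≤ 2 ^ N := pow_le_pow_right₀ (by norm_num) hN
          have h4 : 0 < lam ^ N := by positivity
          rw [mul_inv, mul_assoc, inv_mul_cancel₀ h4.ne', mul_one]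
          rw [inv_le_comm₀ (by positivity) (by norm_num)]
          norm_num
          exact h3
        have e : -(2 * K * B₀ * lam ^ N) * (2 * lam) ^ (-(N:ℝ)) =
            -(2 * K * B₀ * ((2 * lam) ^ (-(N:ℝ)) * lam ^ N)) := by ring
        rw [e]
        have h5 : 2 * K * B₀ * ((2 * lam) ^ (-(N:ℝ)) * lam ^ N) ≤ 2 * K * B₀ * (1 / 2) := by
          gcongr
        have e2 : -(K / n) * (2 * lam) ^ 2 = -(4 * (K * lam ^ 2 / n)) := by ring
        rw [e2]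
        have e3 : 2 * K * B₀ * (1 / 2) = 3 * (K * lam ^ 2 / n) := by
          rw [hB₀]; ring
        have h6 : 0 < K * lam ^ 2 / n := by positivity
        nlinarith
  -- derivative at the inner sphere
  have h1 := hasDerivAt_norm_ray (-(N:ℝ)) hl hx₀
  have h2 := hasDerivAt_norm_ray (2:ℝ) hl hx₀
  have h3 := ((hd.add (h1.const_mul c₁)).add (h2.const_mul c₂)).add_const c₀
  have h4 := deriv_nonneg_of_right_ge (g := fun t : ℝ => W ((1 + t) • x₀) +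
      c₁ * ‖(1 + t) • x₀‖ ^ (-(N:ℝ)) + c₂ * ‖(1 + t) • x₀‖ ^ (2:ℝ) + c₀) h3 ?_
  · -- evaluate
    have e1 : c₁ * (-(N:ℝ) * lam ^ (-(N:ℝ))) = 2 * K * B₀ * N := by
      rw [hc₁]
      calc -(2 * K * B₀ * lam ^ N) * (-(N:ℝ) * lam ^ (-(N:ℝ)))
          = 2 * K * B₀ * N * (lam ^ (-(N:ℝ)) * lam ^ N) := by ring
        _ = 2 * K * B₀ * N := by rw [hpow1, mul_one]
    have e2 : c₂ * (2 * lam ^ (2:ℝ)) = -(2 * K * lam ^ 2 / n) := by
      rw [hc₂, hsq lam hl]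
      ring
    rw [e1, e2] at h4
    have h5 : 2 * K * B₀ * N ≤ 6 * K * lam ^ 2 := by
      rw [hB₀]
      have h6 : (N:ℝ) / n ≤ 1 := by
        rw [div_le_one hn0, hcast]
        linarith
      have e3 : 2 * K * (3 * lam ^ 2 / n) * N = 6 * K * lam ^ 2 * ((N:ℝ) / n) := by
        ring
      rw [e3]
      have h7 : 0 < 6 * K * lam ^ 2 := by positivity
      nlinarith
    have h8 : 0 < 2 * K * lam ^ 2 / n := by positivity
    linarith
  · have hnh : ∀ᶠ t in 𝓝[>] (0:ℝ), t ∈ Ioo (0:ℝ) 1 := Ioo_mem_nhdsGT one_pos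
    filter_upwards [hnh] with t ht
    have hs : 0 < 1 + t := by linarith [ht.1]
    have hnorm : ‖(1 + t) • x₀‖ = (1 + t) * lam := by rw [norm_scale hs, hx₀]
    have h5 := hmp ((1 + t) • x₀) ⟨by
      rw [hnorm]; nlinarith [ht.1], by rw [hnorm]; nlinarith [ht.2]⟩
    have h6 := hmp x₀ ⟨hx₀.ge, by rw [hx₀]; linarith⟩
    have e0 : W ((1 + (0:ℝ)) • x₀) + c₁ * ‖(1 + (0:ℝ)) • x₀‖ ^ (-(N:ℝ)) +
        c₂ * ‖(1 + (0:ℝ)) • x₀‖ ^ (2:ℝ) + c₀ = 0 := by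
      simp only [add_zero, one_smul]
      rw [hW1 x₀ hx₀, hx₀, hsq lam hl, hc₁, hc₂, hc₀]
      have e : -(2 * K * B₀ * lam ^ N) * lam ^ (-(N:ℝ)) = -(2 * K * B₀) := by
        calc -(2 * K * B₀ * lam ^ N) * lam ^ (-(N:ℝ))
            = -(2 * K * B₀ * (lam ^ (-(N:ℝ)) * lam ^ N)) := by ring
          _ = -(2 * K * B₀) := by rw [hpow1, mul_one]
      rw [e]
      ring
    simp only [e0]
    exact h5

/-- Powers on a dyadic interval. -/
lemma rpow_le_dyadic {ρ lam A : ℝ} (hl : 0 < lam) (h1 : lam / 2 ≤ ρ) (h2 : ρ ≤ lam) :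
    ρ ^ A ≤ lam ^ A * (1 + 2 ^ (-A)) := by
  have hρ : 0 < ρ := by linarith
  have h3 : 0 < lam ^ A := by positivity
  have h4 : 0 < (2:ℝ) ^ (-A) := by positivity
  rcases le_total 0 A with h0 | h0
  · have : ρ ^ A ≤ lam ^ A := Real.rpow_le_rpow hρ.le h2 h0
    nlinarith
  · have h5 : ρ ^ A ≤ (lam / 2) ^ A := Real.rpow_le_rpow_of_nonpos (by positivity) h1 h0
    have h6 : (lam / 2) ^ A = lam ^ A * 2 ^ (-A) := by
      rw [Real.div_rpow hl.le (by norm_num), Real.rpow_neg (by norm_num)]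
      rfl
    rw [h6] at h5
    nlinarith

/-- The estimate on the inner sphere for small radii. -/
lemma sphere_lower (h : IsPositiveEntireSolution n p q A B u v) (hn : n = N + 2) (hN : 1 ≤ N)
    (hp : 0 < p) {lam M : ℝ} (hl : 0 < lam) (hlam1 : lam ≤ 1) (hM0 : 0 < M)
    (hM : ∀ x : Eu n, ‖x‖ ≤ 1 → v x ≤ M)
    (hout : ∀ x : Eu n, ‖x‖ = 2 * lam → 0 ≤ u x - kelr (N:ℝ) lam u x)
    {y : Eu n} (hy : ‖y‖ = lam) (hy0 : y ≠ 0) :
    -(6 * (M ^ p * (lam ^ A * (1 + 2 ^ (-A)))) * lam ^ 2) ≤ 2 * fderiv ℝ u y y + (N:ℝ) * u y := by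
  obtain ⟨K, hK⟩ : ∃ K, K = M ^ p * (lam ^ A * (1 + 2 ^ (-A))) := ⟨_, rfl⟩
  have hK0 : 0 < K := by rw [hK]; positivity
  rw [← hK]
  have hne : ∀ x : Eu n, lam ≤ ‖x‖ → x ≠ 0 := by
    intro x hx h0
    rw [h0, norm_zero] at hx
    linarith
  refine radial_barrier_compare (W := fun x => u x - kelr (N:ℝ) lam u x) hn hN hl hK0 ?_ ?_ ?_ ?_
    hout hy (hasDerivAt_W hl hy ((contDiffAt_u h hy0).differentiableAt (by norm_num)))
  · intro x hx
    exact h.continuous_u.continuousAt.sub (continuousAt_kelr h.continuous_u hl (hne x hx))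
  · intro x h1 _
    have hx0 := hne x h1.le
    exact (contDiffAt_u h hx0).sub (contDiffAt_kelr hl hx0 (contDiffAt_u h (inv_ne_zero hl hx0)))
  · intro x h1 h2
    have hx0 := hne x h1.le
    have hr : 0 < ‖x‖ := norm_pos_iff.2 hx0
    have hz0 : inv lam x ≠ 0 := inv_ne_zero hl hx0
    have e : (fun y => u y - kelr (N:ℝ) lam u y) = u - kelr (N:ℝ) lam u := by
      funext y; simp
    rw [e, (contDiffAt_u h hx0).laplacian_sub (contDiffAt_kelr hl hx0 (contDiffAt_u h hz0)),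
      laplacian_kelr hn hl hx0 (contDiffAt_u h hz0), laplacian_u h hz0, norm_inv hl hx0,
      laplacian_u h hx0]
    simp only [sub_self, mul_zero, zero_div, zero_mul, add_zero]
    have hq : lam / ‖x‖ ≤ 1 := by rw [div_le_one hr]; exact h1.le
    have hq0 : 0 < lam / ‖x‖ := by positivity
    have h3 : (lam / ‖x‖) ^ (N:ℝ) ≤ 1 := Real.rpow_le_one hq0.le hq (by positivity)
    have h4 : (lam / ‖x‖) ^ 4 ≤ 1 := pow_le_one₀ hq0.le hq
    have hzn : ‖inv lam x‖ = lam ^ 2 / ‖x‖ := norm_inv hl hx0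
    have hz1 : lam ^ 2 / ‖x‖ ≤ lam := by
      rw [div_le_iff₀ hr]
      nlinarith
    have hz2 : lam / 2 ≤ lam ^ 2 / ‖x‖ := by
      rw [le_div_iff₀ hr]
      nlinarith
    have h5 := rpow_le_dyadic (A := A) hl hz2 hz1
    have hz3 : 0 < lam ^ 2 / ‖x‖ := by positivity
    have hvz : v (inv lam x) ≤ M := hM _ (by rw [hzn]; linarith)
    have hvz0 := h.pos_v (inv lam x)
    have h6 : v (inv lam x) ^ p ≤ M ^ p := Real.rpow_le_rpow hvz0.le hvz hp.le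
    have h7 : 0 < v (inv lam x) ^ p := by positivity
    have h8 : 0 < (lam ^ 2 / ‖x‖) ^ A := by positivity
    have h9 : (lam ^ 2 / ‖x‖) ^ A * v (inv lam x) ^ p ≤ K := by
      rw [hK, mul_comm]
      gcongr
    have h10 : 0 < (lam ^ 2 / ‖x‖) ^ A * v (inv lam x) ^ p := by positivity
    have h11 : (lam / ‖x‖) ^ (N:ℝ) * (lam / ‖x‖) ^ 4 ≤ 1 := by
      have : 0 < (lam / ‖x‖) ^ 4 := by positivity
      nlinarith
    have h12 : 0 < (lam / ‖x‖) ^ (N:ℝ) * (lam / ‖x‖) ^ 4 := by positivity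
    have h13 : 0 < ‖x‖ ^ A * v x ^ p := by
      have := h.pos_v x
      positivity
    nlinarith
  · intro x hx
    show u x - kelr (N:ℝ) lam u x = 0
    rw [kelr_of_norm_eq hl hx]
    ring

/-- Near the origin the first order quantity is nonnegative. -/
theorem start_sign (h : IsPositiveEntireSolution n p q A B u v) (hn : n = N + 2) (hN : 1 ≤ N)
    (hp : 0 < p) (hA : -2 < A) {a : ℝ} (ha : (N:ℝ) ≤ 2 * a) :
    ∃ r₁ > 0, ∀ y : Eu n, y ≠ 0 → ‖y‖ < r₁ → 0 ≤ (2 * a - N) * Dl a u y := by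
  rcases ha.eq_or_lt with ha | ha
  · refine ⟨1, one_pos, fun y _ _ => ?_⟩
    rw [← ha]
    simp
  obtain ⟨l, M, hl0, hM0, hbd⟩ := exists_ball_bounds h.continuous_u h.continuous_v h.pos_u h.pos_v
    (R := 1) zero_le_one
  obtain ⟨g₀, hg₀⟩ : ∃ g₀, g₀ = (a - (N:ℝ) / 2) * l := ⟨_, rfl⟩
  have hg₀0 : 0 < g₀ := by
    rw [hg₀]
    apply mul_pos _ hl0
    linarith
  obtain ⟨C, hC⟩ : ∃ C, C = 3 * (M ^ p * (1 + 2 ^ (-A))) := ⟨_, rfl⟩
  have hC0 : 0 < C := by rw [hC]; positivity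
  have ha2 : 0 < 2 + A := by linarith
  -- small radius
  obtain ⟨r₃, hr₃, hr₃b⟩ : ∃ r₃ > 0, C * r₃ ^ (2 + A) < g₀ := by
    have h1 : Tendsto (fun r : ℝ => C * r ^ (2 + A)) (𝓝 0) (𝓝 (C * (0:ℝ) ^ (2 + A))) :=
      ((Real.continuousAt_rpow_const 0 (2 + A) (Or.inr ha2.le)).tendsto).const_mul C
    rw [Real.zero_rpow ha2.ne', mul_zero] at h1
    have h2 : ∀ᶠ r in 𝓝 (0:ℝ), C * r ^ (2 + A) < g₀ := h1.eventually (gt_mem_nhds hg₀0)
    have h3 : ∀ᶠ r in 𝓝[>] (0:ℝ), C * r ^ (2 + A) < g₀ := h2.filter_mono nhdsWithin_le_nhds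
    obtain ⟨r, h4, h5⟩ := (h3.and self_mem_nhdsWithin).exists
    exact ⟨r, h5, h4⟩
  -- continuity at the origin
  have hu₀ := h.pos_u 0
  have hc0 : ContinuousAt u (0 : Eu n) := h.continuous_u.continuousAt
  have hu3 : 0 < u 0 / 3 := by linarith
  obtain ⟨r₂, hr₂, hb₂⟩ := Metric.continuousAt_iff.1 hc0 (u 0 / 3) hu3
  have hbu : ∀ z : Eu n, ‖z‖ < r₂ → 2 * u 0 / 3 < u z ∧ u z < 4 * u 0 / 3 := by
    intro z hz
    have := hb₂ (x := z) (by simpa using hz)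
    rw [Real.dist_eq, abs_lt] at this
    constructor <;> linarith [this.1, this.2]
  obtain ⟨r₁, hr₁⟩ : ∃ r₁, r₁ = min (min (r₂ / 2) (1 / 2)) r₃ := ⟨_, rfl⟩
  have hr₁0 : 0 < r₁ := by
    rw [hr₁]
    exact lt_min (lt_min (by positivity) (by norm_num)) hr₃
  have hr₁a : r₁ ≤ r₂ / 2 := by
    rw [hr₁]; exact (min_le_left _ _).trans (min_le_left _ _)
  have hr₁b : r₁ ≤ 1 / 2 := by
    rw [hr₁]; exact (min_le_left _ _).trans (min_le_right _ _)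
  have hr₁c : r₁ ≤ r₃ := by
    rw [hr₁]; exact min_le_right _ _
  refine ⟨r₁, hr₁0, ?_⟩
  intro y hy hyr
  apply mul_nonneg (by linarith)
  obtain ⟨lam, hlam⟩ : ∃ lam, lam = ‖y‖ := ⟨_, rfl⟩
  have hl : 0 < lam := by rw [hlam]; exact norm_pos_iff.2 hy
  rw [← hlam] at hyr
  have hout : ∀ x : Eu n, ‖x‖ = 2 * lam → 0 ≤ u x - kelr (N:ℝ) lam u x := by
    intro x hx
    have hr : 0 < ‖x‖ := by rw [hx]; positivity
    have hx0 : x ≠ 0 := norm_pos_iff.1 hr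
    have h1 := (hbu x (by rw [hx]; linarith)).1
    have hzn : ‖inv lam x‖ = lam / 2 := by
      rw [norm_inv hl hx0, hx]
      field_simp
    have h2 := (hbu (inv lam x) (by rw [hzn]; linarith)).2
    have hq : (lam / ‖x‖) ^ (N:ℝ) ≤ 1 / 2 := by
      rw [hx, Real.rpow_natCast]
      have e : lam / (2 * lam) = 1 / 2 := by field_simp
      rw [e]
      calc ((1:ℝ) / 2) ^ N ≤ (1 / 2) ^ 1 := pow_le_pow_of_le_one (by norm_num) (by norm_num) hN
        _ = 1 / 2 := by norm_num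
    have hz := h.pos_u (inv lam x)
    have h3 : kelr (N:ℝ) lam u x ≤ 1 / 2 * u (inv lam x) := by
      rw [kelr]
      gcongr
    linarith
  have h1 := sphere_lower h hn hN hp hl (by linarith) hM0 (fun x hx => (hbd x hx).2.2.2) hout
    hlam.symm hy
  have h2 : (M ^ p * (lam ^ A * (1 + 2 ^ (-A)))) * lam ^ 2 = (M ^ p * (1 + 2 ^ (-A))) * lam ^ (2 + A) := by
    have e : lam ^ (2 + A) = lam ^ 2 * lam ^ A := by
      rw [Real.rpow_add hl, Real.rpow_two]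
    rw [e]
    ring
  have h3 : lam ^ (2 + A) ≤ r₃ ^ (2 + A) :=
    Real.rpow_le_rpow hl.le (by linarith) ha2.le
  have h4 : C * lam ^ (2 + A) ≤ C * r₃ ^ (2 + A) := by gcongr
  have h5 : l ≤ u y := (hbd y (by rw [← hlam]; linarith)).1
  have h6 : (a - (N:ℝ) / 2) * l ≤ (a - (N:ℝ) / 2) * u y :=
    mul_le_mul_of_nonneg_left h5 (by linarith)
  rw [Dl]
  have e1 : 6 * (M ^ p * (lam ^ A * (1 + 2 ^ (-A)))) * lam ^ 2 = 2 * (C * lam ^ (2 + A)) := by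
    rw [hC, mul_assoc, h2]
    ring
  rw [e1] at h1
  nlinarith

/-- The transform is bounded by the sup over the inner ball. -/
lemma kelr_le_of_ball {f : Eu n → ℝ} (hf : ∀ x, 0 < f x) {c lam M : ℝ} (hc : 0 ≤ c) (hl : 0 < lam)
    {x : Eu n} (hx : lam ≤ ‖x‖) (hM : ∀ y : Eu n, ‖y‖ ≤ lam → f y ≤ M) : kelr c lam f x ≤ M := by
  have hr : 0 < ‖x‖ := by linarith
  have hx0 : x ≠ 0 := norm_pos_iff.1 hr
  have h1 : ‖inv lam x‖ ≤ lam := by
    rw [norm_inv hl hx0, div_le_iff₀ hr]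
    nlinarith
  have h2 := hM _ h1
  have h3 : (lam / ‖x‖) ^ c ≤ 1 := by
    apply Real.rpow_le_one (by positivity) _ hc
    rw [div_le_one hr]
    exact hx
  have hpos := hf (inv lam x)
  have hM0 : 0 ≤ M := by linarith
  rw [kelr]
  calc (lam / ‖x‖) ^ c * f (inv lam x) ≤ 1 * M := by
        apply mul_le_mul h3 h2 hpos.le (by norm_num)
    _ = M := one_mul M

/-- The constants in the power difference bound hold on a ball. -/
lemma power_boundR (hf : ∀ x : Eu n, 0 < v x) {p l M lam R c : ℝ} (hc : 0 ≤ c) (hp : 0 < p)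
    (hl0 : 0 < l) (hlam : 0 < lam) (hlamR : lam ≤ R)
    (hbd : ∀ x : Eu n, ‖x‖ ≤ R → l ≤ v x ∧ v x ≤ M) {x : Eu n} (hx1 : lam ≤ ‖x‖) (hx2 : ‖x‖ ≤ R)
    (hlt : v x < kelr c lam v x) :
    kelr c lam v x ^ p - v x ^ p ≤ (p * (l ^ (p - 1) + M ^ (p - 1))) * (kelr c lam v x - v x) := by
  apply rpow_sub_rpow_le hp hl0 (hbd x hx2).1 hlt
  exact kelr_le_of_ball hf hc hlam hx1 (fun y hy => (hbd y (hy.trans hlamR)).2)

/-- Comparison with the harmonic Kelvin transform. -/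
lemma kelr_le_kel {f : Eu n → ℝ} (hf : ∀ x, 0 < f x) {c lam : ℝ} (hc : (N:ℝ) ≤ c) (hl : 0 < lam)
    {x : Eu n} (hx : lam ≤ ‖x‖) : kelr c lam f x ≤ kel N lam f x := by
  have hr : 0 < ‖x‖ := by linarith
  have hpos := hf (inv lam x)
  have hq : lam / ‖x‖ ≤ 1 := by rw [div_le_one hr]; exact hx
  have h1 : (lam / ‖x‖) ^ c ≤ (lam / ‖x‖) ^ (N:ℝ) :=
    Real.rpow_le_rpow_of_exponent_ge (by positivity) hq hc
  rw [Real.rpow_natCast] at h1
  rw [kelr, kel]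
  gcongr

/-- The exterior part at the start of the procedure. -/
lemma kel_le_of_exterior {f : Eu n → ℝ} {lam M l r₀ : ℝ} {x : Eu n} (hl : 0 < lam)
    (hlx : lam ≤ ‖x‖) (hfM : ∀ y : Eu n, ‖y‖ ≤ lam → f y ≤ M) (hlN : lam ^ N * M ≤ l * r₀ ^ N)
    (hfl : l * r₀ ^ N ≤ f x * ‖x‖ ^ N) : kel N lam f x ≤ f x := by
  have hr : 0 < ‖x‖ := by linarith
  have hpow : 0 < ‖x‖ ^ N := by positivity
  have hinv : ‖inv lam x‖ ≤ lam := by
    rw [norm_inv hl (norm_pos_iff.1 hr), div_le_iff₀ hr]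
    nlinarith
  have h3 := hfM _ hinv
  have e : kel N lam f x * ‖x‖ ^ N = lam ^ N * f (inv lam x) := by
    rw [kel, div_pow]
    field_simp
  have h4 : lam ^ N * f (inv lam x) ≤ lam ^ N * M := by gcongr
  have h5 : kel N lam f x * ‖x‖ ^ N ≤ f x * ‖x‖ ^ N := by
    rw [e]
    linarith
  exact le_of_mul_le_mul_right h5 hpow

/-- Start of the moving sphere procedure. -/
theorem moving_startR (h : IsPositiveEntireSolution n p q A B u v) (hn : n = N + 2) (hN : 1 ≤ N)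
    (hp : 0 < p) (hq : 0 < q) (hA : -2 < A) (hB : -2 < B) (hs₁ : (N:ℝ) ≤ 2 * a₁)
    (hs₂ : (N:ℝ) ≤ 2 * b₁) (hκ₁ : 0 ≤ kapr a₁ b₁ p A) (hκ₂ : 0 ≤ kapr b₁ a₁ q B) :
    ∃ lam₀ > 0, ∀ lam, 0 < lam → lam < lam₀ → Ordr a₁ b₁ lam u v := by
  obtain ⟨l, M, hl0, hM0, hbd⟩ := exists_ball_bounds h.continuous_u h.continuous_v h.pos_u h.pos_v
    (R := 1) zero_le_one
  obtain ⟨C₁, hC₁⟩ : ∃ C₁, C₁ = p * (l ^ (p - 1) + M ^ (p - 1)) := ⟨_, rfl⟩
  obtain ⟨C₂, hC₂⟩ : ∃ C₂, C₂ = q * (l ^ (q - 1) + M ^ (q - 1)) := ⟨_, rfl⟩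
  have hC₁0 : 0 < C₁ := by rw [hC₁]; positivity
  have hC₂0 : 0 < C₂ := by rw [hC₂]; positivity
  have hNpos : (0:ℝ) < N := by exact_mod_cast hN
  obtain ⟨c, hc⟩ : ∃ c : ℝ, c = (N:ℝ) / 2 := ⟨_, rfl⟩
  have hcpos : 0 < c := by rw [hc]; positivity
  have hc₁ : 0 ≤ 2 * a₁ := by linarith
  have hc₂ : 0 ≤ 2 * b₁ := by linarith
  -- sign of the first order terms
  obtain ⟨s₁, hs₁0, hsign₁⟩ := start_sign h hn hN hp hA hs₁
  obtain ⟨s₂, hs₂0, hsign₂⟩ := start_sign h.swap hn hN hq hB hs₂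
  -- choose the radius `r₀`
  have hsmall : ∀ {a C : ℝ}, 0 < a → 0 < C → ∀ᶠ r in 𝓝[>] (0:ℝ), C * r ^ a < c ^ 2 := by
    intro a C ha hC
    have h1 : Tendsto (fun r : ℝ => C * r ^ a) (𝓝 0) (𝓝 (C * (0:ℝ) ^ a)) :=
      ((Real.continuousAt_rpow_const 0 a (Or.inr ha.le)).tendsto).const_mul C
    rw [Real.zero_rpow ha.ne', mul_zero] at h1
    have h2 : ∀ᶠ r in 𝓝 (0:ℝ), C * r ^ a < c ^ 2 := h1.eventually (gt_mem_nhds (by positivity))
    exact h2.filter_mono nhdsWithin_le_nhds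
  obtain ⟨r₀, hr₁, hr₂, hr₃, hr₄⟩ : ∃ r₀ : ℝ, C₁ * r₀ ^ (A + 2) < c ^ 2 ∧
      C₂ * r₀ ^ (B + 2) < c ^ 2 ∧ 0 < r₀ ∧ r₀ < 1 := by
    have h3 : ∀ᶠ r in 𝓝[>] (0:ℝ), r ∈ Ioo (0:ℝ) 1 := Ioo_mem_nhdsGT one_pos
    have := (hsmall (by linarith : 0 < A + 2) hC₁0).and ((hsmall (by linarith : 0 < B + 2) hC₂0).and h3)
    obtain ⟨r, a, b', c'⟩ := this.exists
    exact ⟨r, a, b', c'.1, c'.2⟩
  -- exterior lower bounds for `u`, `v`
  have hext : ∀ x : Eu n, r₀ ≤ ‖x‖ → l * r₀ ^ N ≤ u x * ‖x‖ ^ N ∧ l * r₀ ^ N ≤ v x * ‖x‖ ^ N := by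
    intro x hx
    have hne : ∀ y : Eu n, r₀ < ‖y‖ → y ≠ 0 := by
      intro y hy h0
      rw [h0, norm_zero] at hy
      linarith
    constructor
    · exact exterior_bound hn hN hr₃ h.continuous_u.continuousOn
        (fun y hy => contDiffAt_u h (hne y hy)) (fun y hy => laplacian_u_neg h (hne y hy))
        (fun y _ => (h.pos_u y).le)
        (fun y hy => (hbd y (by rw [hy]; exact hr₄.le)).1) hl0.le hx
    · exact exterior_bound hn hN hr₃ h.continuous_v.continuousOn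
        (fun y hy => contDiffAt_v h (hne y hy)) (fun y hy => laplacian_u_neg h.swap (hne y hy))
        (fun y _ => (h.pos_v y).le)
        (fun y hy => (hbd y (by rw [hy]; exact hr₄.le)).2.2.1) hl0.le hx
  -- the radius `lam₀`
  have hlM : l ≤ M := (hbd 0 (by simp)).1.trans (hbd 0 (by simp)).2.1
  obtain ⟨lam₁, hlam₁⟩ : ∃ lam₁, lam₁ = r₀ * (l / M) := ⟨_, rfl⟩
  have hq1 : l / M ≤ 1 := by rw [div_le_one hM0]; exact hlM
  have hlam₁pos : 0 < lam₁ := by rw [hlam₁]; positivity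
  have hlam₁le : lam₁ ≤ r₀ := by
    rw [hlam₁]
    nlinarith
  obtain ⟨lam₀, hlam₀⟩ : ∃ lam₀, lam₀ = min lam₁ (min s₁ s₂) := ⟨_, rfl⟩
  have hlam₀pos : 0 < lam₀ := by
    rw [hlam₀]
    exact lt_min hlam₁pos (lt_min hs₁0 hs₂0)
  refine ⟨lam₀, hlam₀pos, ?_⟩
  intro lam hl hlt
  have hlt₁ : lam < lam₁ := by
    have : lam₀ ≤ lam₁ := by rw [hlam₀]; exact min_le_left _ _
    linarith
  have hlts₁ : lam < s₁ := by
    have : lam₀ ≤ s₁ := by rw [hlam₀]; exact (min_le_right _ _).trans (min_le_left _ _)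
    linarith
  have hlts₂ : lam < s₂ := by
    have : lam₀ ≤ s₂ := by rw [hlam₀]; exact (min_le_right _ _).trans (min_le_right _ _)
    linarith
  have hlamr : lam < r₀ := lt_of_lt_of_le hlt₁ hlam₁le
  have hlam1 : lam ≤ 1 := by linarith
  have hlN : lam ^ N * M ≤ l * r₀ ^ N := by
    have h1 : lam ^ N ≤ lam₁ ^ N := by
      gcongr
    have h2 : lam₁ ^ N * M ≤ l * r₀ ^ N := by
      rw [hlam₁, mul_pow]
      have h3 : (l / M) ^ N ≤ l / M := by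
        calc (l / M) ^ N ≤ (l / M) ^ 1 := pow_le_pow_of_le_one (by positivity) hq1 hN
          _ = l / M := pow_one _
      calc r₀ ^ N * (l / M) ^ N * M ≤ r₀ ^ N * (l / M) * M := by gcongr
        _ = l * r₀ ^ N := by field_simp
    calc lam ^ N * M ≤ lam₁ ^ N * M := by gcongr
      _ ≤ _ := h2
  -- ordering on the exterior
  have hextord : ∀ x : Eu n, r₀ ≤ ‖x‖ → kelr (2 * a₁) lam u x ≤ u x ∧ kelr (2 * b₁) lam v x ≤ v x := by
    intro x hx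
    have hlx : lam ≤ ‖x‖ := by linarith
    obtain ⟨h1, h2⟩ := hext x hx
    exact ⟨(kelr_le_kel h.pos_u hs₁ hl hlx).trans (kel_le_of_exterior hl hlx
        (fun y hy => (hbd y (hy.trans hlam1)).2.1) hlN h1),
      (kelr_le_kel h.pos_v hs₂ hl hlx).trans (kel_le_of_exterior hl hlx
        (fun y hy => (hbd y (hy.trans hlam1)).2.2.2) hlN h2)⟩
  -- the annulus
  have hne : ∀ x : Eu n, lam ≤ ‖x‖ → x ≠ 0 := by
    intro x hx h0
    rw [h0, norm_zero] at hx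
    linarith
  have hcast : (n:ℝ) = (N:ℝ) + 2 := by rw [hn]; push_cast; ring
  have hlapb : ∀ x : Eu n, x ≠ 0 → Laplacian.laplacian (fun y : Eu n => ‖y‖ ^ (-c)) x =
      -(c ^ 2 * ‖x‖ ^ (-c - 2)) := by
    intro x hx
    rw [laplacian_rpow_norm (-c) hx, hcast, hc]
    ring
  have hbar : ∀ {a C : ℝ}, C * r₀ ^ (a + 2) < c ^ 2 → 0 < a + 2 → 0 ≤ C → ∀ x : Eu n,
      lam < ‖x‖ → ‖x‖ < r₀ →
      C * ‖x‖ ^ a * ‖x‖ ^ (-c) <
        - Laplacian.laplacian (fun y : Eu n => ‖y‖ ^ (-c)) x := by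
    intro a C hC ha hC0 x h1 h2
    have hr : 0 < ‖x‖ := by linarith
    rw [hlapb x (hne x h1.le), neg_neg]
    have h3 : C * ‖x‖ ^ (a + 2) ≤ C * r₀ ^ (a + 2) := by
      apply mul_le_mul_of_nonneg_left _ hC0
      exact Real.rpow_le_rpow hr.le h2.le ha.le
    have h4 : C * ‖x‖ ^ (a + 2) < c ^ 2 := lt_of_le_of_lt h3 hC
    have e1 : ‖x‖ ^ a * ‖x‖ ^ (-c) = ‖x‖ ^ (a + 2) * ‖x‖ ^ (-c - 2) := by
      rw [← Real.rpow_add hr, ← Real.rpow_add hr]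
      congr 1
      ring
    have hpos : 0 < ‖x‖ ^ (-c - 2) := by positivity
    calc C * ‖x‖ ^ a * ‖x‖ ^ (-c) = (C * ‖x‖ ^ (a + 2)) * ‖x‖ ^ (-c - 2) := by
          rw [mul_assoc, e1]; ring
      _ < c ^ 2 * ‖x‖ ^ (-c - 2) := by gcongr
  have hinvlt : ∀ x : Eu n, lam < ‖x‖ → ‖inv lam x‖ < lam := by
    intro x hx
    have hr : 0 < ‖x‖ := by linarith
    rw [norm_inv hl (norm_pos_iff.1 hr), div_lt_iff₀ hr]
    nlinarith
  have hann := annulus_compareR (lam := lam) (ρ₁ := lam) (ρ₂ := r₀) (C₁ := C₁) (C₂ := C₂)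
    (a₁ := a₁) (b₁ := b₁)
    (b := fun y : Eu n => ‖y‖ ^ (-c)) h hn hp hq hκ₁ hκ₂ hl le_rfl hC₁0.le hC₂0.le
    (fun x h1 _ => hsign₁ _ (inv_ne_zero hl (hne x h1.le)) (by linarith [hinvlt x h1]))
    (fun x h1 _ => hsign₂ _ (inv_ne_zero hl (hne x h1.le)) (by linarith [hinvlt x h1]))
    (fun x h1 h2 hlt => by
      rw [hC₁]
      exact power_boundR h.pos_v hc₂ hp hl0 hl hlam1
        (fun y hy => ⟨(hbd y hy).2.2.1, (hbd y hy).2.2.2⟩) h1.le (by linarith) hlt)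
    (fun x h1 h2 hlt => by
      rw [hC₂]
      exact power_boundR h.pos_u hc₁ hq hl0 hl hlam1
        (fun y hy => ⟨(hbd y hy).1, (hbd y hy).2.1⟩) h1.le (by linarith) hlt)
    (fun x hx => (contDiffAt_rpow_norm (-c) (hne x hx.1)).continuousAt.continuousWithinAt)
    (fun x h1 _ => contDiffAt_rpow_norm (-c) (hne x h1.le))
    (fun x hx => by
      have := norm_pos_iff.2 (hne x hx.1)
      positivity)
    (fun x h1 h2 => hbar hr₁ (by linarith) hC₁0.le x h1 h2)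
    (fun x h1 h2 => hbar hr₂ (by linarith) hC₂0.le x h1 h2)
    (fun x hx => by
      rcases hx with hx | hx
      · rw [kelr_of_norm_eq hl hx]
      · exact (hextord x hx.ge).1)
    (fun x hx => by
      rcases hx with hx | hx
      · rw [kelr_of_norm_eq hl hx]
      · exact (hextord x hx.ge).2)
  intro x hx
  rcases le_total ‖x‖ r₀ with hxr | hxr
  · exact hann x ⟨hx, hxr⟩
  · exact hextord x hxr

/-- Half of the strictness argument. -/
lemma half_strictR (h : IsPositiveEntireSolution n p q A B u v) (hn : n = N + 2) {lam : ℝ}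
    (hl : 0 < lam) (hw : ∀ x : Eu n, lam < ‖x‖ → kelr (2 * a₁) lam u x ≤ u x)
    (hs : ∀ x : Eu n, lam < ‖x‖ →
      (lam / ‖x‖) ^ (2 * kapr a₁ b₁ p A) * (kelr (2 * b₁) lam v x) ^ p < v x ^ p)
    (hE : ∀ x : Eu n, lam < ‖x‖ → 0 ≤ (2 * a₁ - N) * Dl a₁ u (inv lam x))
    {x : Eu n} (hx : lam < ‖x‖) : kelr (2 * a₁) lam u x < u x := by
  have hne : ∀ y : Eu n, lam < ‖y‖ → y ≠ 0 := by
    intro y hy h0
    rw [h0, norm_zero] at hy
    linarith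
  apply lt_of_le_of_ne (hw x hx)
  intro heq
  have hC : ContDiffAt ℝ 2 (fun y => u y - kelr (2 * a₁) lam u y) x :=
    (contDiffAt_u h (hne x hx)).sub
      (contDiffAt_kelr hl (hne x hx) (contDiffAt_u h (inv_ne_zero hl (hne x hx))))
  have hloc : IsLocalMin (fun y => u y - kelr (2 * a₁) lam u y) x := by
    have hnh : {y : Eu n | lam < ‖y‖} ∈ 𝓝 x :=
      (isOpen_lt continuous_const continuous_norm).mem_nhds hx
    filter_upwards [hnh] with y hy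
    have := hw y hy
    show u x - kelr (2 * a₁) lam u x ≤ u y - kelr (2 * a₁) lam u y
    rw [heq]
    linarith
  have h1 := laplacian_nonneg_of_isLocalMin hC hloc
  have h3 := laplacian_sub_kelr_le (a₁ := a₁) (b₁ := b₁) h hn hl (hne x hx) (hE x hx)
  have hr : 0 < ‖x‖ := norm_pos_iff.2 (hne x hx)
  have hpos : 0 < ‖x‖ ^ A := by positivity
  have h2 := hs x hx
  have : ‖x‖ ^ A * ((lam / ‖x‖) ^ (2 * kapr a₁ b₁ p A) * kelr (2 * b₁) lam v x ^ p - v x ^ p) < 0 :=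
    mul_neg_of_pos_of_neg hpos (by linarith)
  linarith

/-- The inverted point lies in the inner ball. -/
lemma inv_norm_lt {lam : ℝ} (hl : 0 < lam) {x : Eu n} (hx : lam < ‖x‖) : ‖inv lam x‖ < lam := by
  have hr : 0 < ‖x‖ := by linarith
  rw [norm_inv hl (norm_pos_iff.1 hr), div_lt_iff₀ hr]
  nlinarith

lemma ne_zero_of_lt {lam : ℝ} (hl : 0 < lam) {x : Eu n} (hx : lam < ‖x‖) : x ≠ 0 := by
  have hr : 0 < ‖x‖ := by linarith
  exact norm_pos_iff.1 hr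

/-- The ordering is strict, when one of the exponents is positive. -/
theorem strict_ordR (h : IsPositiveEntireSolution n p q A B u v) (hn : n = N + 2)
    (hp : 0 < p) (hq : 0 < q) (hκ₁ : 0 ≤ kapr a₁ b₁ p A) (hκ₂ : 0 ≤ kapr b₁ a₁ q B)
    (hs : 0 < kapr a₁ b₁ p A ∨ 0 < kapr b₁ a₁ q B) {lam : ℝ} (hl : 0 < lam)
    (hO : Ordr a₁ b₁ lam u v)
    (hg₁ : ∀ y : Eu n, y ≠ 0 → ‖y‖ < lam → 0 ≤ (2 * a₁ - N) * Dl a₁ u y)
    (hg₂ : ∀ y : Eu n, y ≠ 0 → ‖y‖ < lam → 0 ≤ (2 * b₁ - N) * Dl b₁ v y)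
    {x : Eu n} (hx : lam < ‖x‖) :
    kelr (2 * a₁) lam u x < u x ∧ kelr (2 * b₁) lam v x < v x := by
  have hne : ∀ y : Eu n, lam < ‖y‖ → y ≠ 0 := fun y hy => ne_zero_of_lt hl hy
  have hstep1 : ∀ {p q A B a₁ b₁ : ℝ} {u v : Eu n → ℝ}, IsPositiveEntireSolution n p q A B u v → 0 < p →
      0 < kapr a₁ b₁ p A → Ordr a₁ b₁ lam u v →
      (∀ y : Eu n, y ≠ 0 → ‖y‖ < lam → 0 ≤ (2 * a₁ - N) * Dl a₁ u y) →
      ∀ y : Eu n, lam < ‖y‖ → kelr (2 * a₁) lam u y < u y := by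
    intro p q A B a₁ b₁ u v h hp hκ hO hg y hy
    apply half_strictR (b₁ := b₁) h hn hl (fun z hz => (hO z hz.le).1) _ _ hy
    · intro z hz
      have hr : 0 < ‖z‖ := norm_pos_iff.2 (hne z hz)
      have hτ : (lam / ‖z‖) ^ (2 * kapr a₁ b₁ p A) < 1 := by
        apply Real.rpow_lt_one (by positivity) _ (by linarith)
        rw [div_lt_one hr]
        exact hz
      have hK : 0 < kelr (2 * b₁) lam v z := kelr_pos_of h.pos_v hl (hne z hz)
      have hKp : 0 < kelr (2 * b₁) lam v z ^ p := by positivity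
      have hle : kelr (2 * b₁) lam v z ^ p ≤ v z ^ p :=
        Real.rpow_le_rpow hK.le (hO z hz.le).2 hp.le
      nlinarith
    · intro z hz
      exact hg _ (inv_ne_zero hl (hne z hz)) (inv_norm_lt hl hz)
  have hstep2 : ∀ {p q A B a₁ b₁ : ℝ} {u v : Eu n → ℝ}, IsPositiveEntireSolution n p q A B u v → 0 < q →
      0 ≤ kapr b₁ a₁ q B → Ordr a₁ b₁ lam u v →
      (∀ y : Eu n, y ≠ 0 → ‖y‖ < lam → 0 ≤ (2 * b₁ - N) * Dl b₁ v y) →
      (∀ y : Eu n, lam < ‖y‖ → kelr (2 * a₁) lam u y < u y) →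
      ∀ y : Eu n, lam < ‖y‖ → kelr (2 * b₁) lam v y < v y := by
    intro p q A B a₁ b₁ u v h hq hκ hO hg hstrict y hy
    apply half_strictR (b₁ := a₁) h.swap hn hl (fun z hz => (hO z hz.le).2) _ _ hy
    · intro z hz
      have hr : 0 < ‖z‖ := norm_pos_iff.2 (hne z hz)
      have hτ : (lam / ‖z‖) ^ (2 * kapr b₁ a₁ q B) ≤ 1 := by
        apply Real.rpow_le_one (by positivity) _ (by linarith)
        rw [div_le_one hr]
        exact hz.le
      have hK : 0 < kelr (2 * a₁) lam u z := kelr_pos_of h.pos_u hl (hne z hz)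
      have hKp : 0 < kelr (2 * a₁) lam u z ^ q := by positivity
      have hlt : kelr (2 * a₁) lam u z ^ q < u z ^ q :=
        Real.rpow_lt_rpow hK.le (hstrict z hz) hq
      nlinarith
    · intro z hz
      exact hg _ (inv_ne_zero hl (hne z hz)) (inv_norm_lt hl hz)
  rcases hs with hs | hs
  · have h1 := hstep1 h hp hs hO hg₁
    exact ⟨h1 x hx, hstep2 h hq hκ₂ hO hg₂ h1 x hx⟩
  · have h1 := hstep1 h.swap hq hs hO.swap hg₂
    exact ⟨hstep2 h.swap hp hκ₁ hO.swap hg₁ h1 x hx, h1 x hx⟩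

/-- The difference is strictly superharmonic outside the sphere. -/
lemma laplacian_sub_kelr_neg (h : IsPositiveEntireSolution n p q A B u v) (hn : n = N + 2)
    (hp : 0 < p) (hκ₁ : 0 ≤ kapr a₁ b₁ p A) {lam : ℝ} (hl : 0 < lam)
    (hg₁ : ∀ y : Eu n, y ≠ 0 → ‖y‖ < lam → 0 ≤ (2 * a₁ - N) * Dl a₁ u y)
    (hstrictv : ∀ x : Eu n, lam < ‖x‖ → kelr (2 * b₁) lam v x < v x)
    {y : Eu n} (hy : lam < ‖y‖) :
    Laplacian.laplacian (fun y => u y - kelr (2 * a₁) lam u y) y < 0 := by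
  have hy0 := ne_zero_of_lt hl hy
  have hr : 0 < ‖y‖ := norm_pos_iff.2 hy0
  have h1 := laplacian_sub_kelr_le (a₁ := a₁) (b₁ := b₁) h hn hl hy0
    (hg₁ _ (inv_ne_zero hl hy0) (inv_norm_lt hl hy))
  have hτ : (lam / ‖y‖) ^ (2 * kapr a₁ b₁ p A) ≤ 1 := by
    apply Real.rpow_le_one (by positivity) _ (by linarith)
    rw [div_le_one hr]
    exact hy.le
  have hK : 0 < kelr (2 * b₁) lam v y := kelr_pos_of h.pos_v hl hy0
  have hKp : 0 < kelr (2 * b₁) lam v y ^ p := by positivity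
  have hlt : kelr (2 * b₁) lam v y ^ p < v y ^ p :=
    Real.rpow_lt_rpow hK.le (hstrictv y hy) hp
  have h2 : ‖y‖ ^ A * ((lam / ‖y‖) ^ (2 * kapr a₁ b₁ p A) * kelr (2 * b₁) lam v y ^ p - v y ^ p) < 0 := by
    apply mul_neg_of_pos_of_neg (by positivity)
    nlinarith
  linarith

/-- The exterior estimate for the difference. -/
lemma exterior_wR (h : IsPositiveEntireSolution n p q A B u v) (hn : n = N + 2) (hN : 1 ≤ N)
    (hp : 0 < p) (hκ₁ : 0 ≤ kapr a₁ b₁ p A) {lam ρ m : ℝ} (hl : 0 < lam) (hρ : lam < ρ) (hm0 : 0 ≤ m)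
    (hg₁ : ∀ y : Eu n, y ≠ 0 → ‖y‖ < lam → 0 ≤ (2 * a₁ - N) * Dl a₁ u y)
    (hstrictu : ∀ x : Eu n, lam < ‖x‖ → kelr (2 * a₁) lam u x < u x)
    (hstrictv : ∀ x : Eu n, lam < ‖x‖ → kelr (2 * b₁) lam v x < v x)
    (hm : ∀ x : Eu n, ‖x‖ = ρ → m ≤ u x - kelr (2 * a₁) lam u x) {x : Eu n} (hx : ρ ≤ ‖x‖) :
    m * ρ ^ N ≤ (u x - kelr (2 * a₁) lam u x) * ‖x‖ ^ N := by
  have hρ0 : 0 < ρ := by linarith
  have hne : ∀ y : Eu n, ρ ≤ ‖y‖ → y ≠ 0 := by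
    intro y hy h0
    rw [h0, norm_zero] at hy
    linarith
  apply exterior_bound (f := fun y => u y - kelr (2 * a₁) lam u y) hn hN hρ0 _ _ _ _ hm hm0 hx
  · intro y hy
    exact (h.continuous_u.continuousAt.sub
      (continuousAt_kelr h.continuous_u hl (hne y hy))).continuousWithinAt
  · intro y hy
    exact (contDiffAt_u h (hne y hy.le)).sub
      (contDiffAt_kelr hl (hne y hy.le) (contDiffAt_u h (inv_ne_zero hl (hne y hy.le))))
  · intro y hy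
    exact laplacian_sub_kelr_neg (b₁ := b₁) h hn hp hκ₁ hl hg₁ hstrictv (by linarith)
  · intro y hy
    have := hstrictu y (by linarith)
    show 0 ≤ u y - kelr (2 * a₁) lam u y
    linarith

/-- The Hopf lemma on the sphere of inversion. -/
theorem hopfR (h : IsPositiveEntireSolution n p q A B u v) (hn : n = N + 2) (hN : 1 ≤ N)
    (hp : 0 < p) (hκ₁ : 0 ≤ kapr a₁ b₁ p A) {lb : ℝ} (hl : 0 < lb)
    (hg₁ : ∀ y : Eu n, y ≠ 0 → ‖y‖ < lb → 0 ≤ (2 * a₁ - N) * Dl a₁ u y)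
    (hstrictu : ∀ x : Eu n, lb < ‖x‖ → kelr (2 * a₁) lb u x < u x)
    (hstrictv : ∀ x : Eu n, lb < ‖x‖ → kelr (2 * b₁) lb v x < v x) :
    ∃ ε > 0, ∀ x : Eu n, ‖x‖ = lb → ε ≤ Dl a₁ u x := by
  have hcast : (n:ℝ) = (N:ℝ) + 2 := by rw [hn]; push_cast; ring
  have hNpos : (0:ℝ) < N := by exact_mod_cast hN
  have h2l : lb < 2 * lb := by linarith
  have hne : ∀ y : Eu n, lb ≤ ‖y‖ → y ≠ 0 := by
    intro y hy h0
    rw [h0, norm_zero] at hy
    linarith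
  obtain ⟨m, hm, hmb⟩ := pos_lower_bound (isCompact_Ann (n := n) (2 * lb) (2 * lb))
    (f := fun x => u x - kelr (2 * a₁) lb u x)
    (by
      intro x hx
      have hx' : lb ≤ ‖x‖ := by linarith [hx.1]
      exact (h.continuous_u.continuousAt.sub
        (continuousAt_kelr h.continuous_u hl (hne x hx'))).continuousWithinAt)
    (by
      intro x hx
      have := hstrictu x (by linarith [hx.1])
      show 0 < u x - kelr (2 * a₁) lb u x
      linarith)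
  refine ⟨m * N / 2, by positivity, ?_⟩
  intro x₀ hx₀
  have hx₀0 : x₀ ≠ 0 := hne x₀ hx₀.ge
  have hpow1 : lb ^ (-(N:ℝ)) * lb ^ N = 1 := by
    rw [Real.rpow_neg hl.le, Real.rpow_natCast]
    field_simp
  obtain ⟨c₁, hc₁⟩ : ∃ c₁, c₁ = m * lb ^ N := ⟨_, rfl⟩
  have hc₁0 : 0 < c₁ := by rw [hc₁]; positivity
  have hc₁v : c₁ * lb ^ (-(N:ℝ)) = m := by
    rw [hc₁]
    calc m * lb ^ N * lb ^ (-(N:ℝ)) = m * (lb ^ (-(N:ℝ)) * lb ^ N) := by ring
      _ = m := by rw [hpow1, mul_one]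
  have hmp : ∀ x ∈ Ann n lb (2 * lb),
      0 ≤ (u x - kelr (2 * a₁) lb u x) + c₁ * ‖x‖ ^ (-(N:ℝ)) + 0 * ‖x‖ ^ (-(N:ℝ)) + (-m) := by
    refine ann_min_principle (ρ₁ := lb) (ρ₂ := 2 * lb)
      (g := fun y => (u y - kelr (2 * a₁) lb u y) + c₁ * ‖y‖ ^ (-(N:ℝ)) + 0 * ‖y‖ ^ (-(N:ℝ)) + (-m))
      ?_ ?_ ?_ ?_
    · intro y hy
      have hy0 := hne y hy.1
      have h1 : ContinuousAt (fun y : Eu n => ‖y‖ ^ (-(N:ℝ))) y :=
        (contDiffAt_rpow_norm _ hy0).continuousAt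
      exact (((h.continuous_u.continuousAt.sub (continuousAt_kelr h.continuous_u hl hy0)).add
        (continuousAt_const.mul h1)).add
        (continuousAt_const.mul h1)).add continuousAt_const |>.continuousWithinAt
    · intro y h1 _
      have hy0 := hne y h1.le
      exact ((((contDiffAt_u h hy0).sub
        (contDiffAt_kelr hl hy0 (contDiffAt_u h (inv_ne_zero hl hy0)))).add
        (contDiffAt_const.mul (contDiffAt_rpow_norm _ hy0))).add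
        (contDiffAt_const.mul (contDiffAt_rpow_norm _ hy0))).add contDiffAt_const
    · intro y h1 h2 _
      have hy0 := hne y h1.le
      have hW : ContDiffAt ℝ 2 (fun y => u y - kelr (2 * a₁) lb u y) y :=
        (contDiffAt_u h hy0).sub (contDiffAt_kelr hl hy0 (contDiffAt_u h (inv_ne_zero hl hy0)))
      rw [laplacian_add_two c₁ 0 (-m) hW (contDiffAt_rpow_norm _ hy0) (contDiffAt_rpow_norm _ hy0),
        laplacian_rpow_norm _ hy0]
      have e1 : -(N:ℝ) * (-(N:ℝ) + (n:ℝ) - 2) = 0 := by rw [hcast]; ring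
      rw [e1]
      have := laplacian_sub_kelr_neg (b₁ := b₁) h hn hp hκ₁ hl hg₁ hstrictv h1
      simpa using this
    · intro y hy
      rcases hy with hy | hy
      · show 0 ≤ (u y - kelr (2 * a₁) lb u y) + c₁ * ‖y‖ ^ (-(N:ℝ)) + 0 * ‖y‖ ^ (-(N:ℝ)) + (-m)
        rw [kelr_of_norm_eq hl hy, hy, hc₁v]
        linarith
      · show 0 ≤ (u y - kelr (2 * a₁) lb u y) + c₁ * ‖y‖ ^ (-(N:ℝ)) + 0 * ‖y‖ ^ (-(N:ℝ)) + (-m)
        have h1 := hmb y ⟨hy.ge, hy.le⟩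
        have h2 : 0 ≤ c₁ * ‖y‖ ^ (-(N:ℝ)) := by positivity
        have h3 : m ≤ u y - kelr (2 * a₁) lb u y := h1
        linarith
  -- the derivative along the ray
  have hd := hasDerivAt_W (c := 2 * a₁) hl hx₀ ((contDiffAt_u h hx₀0).differentiableAt (by norm_num))
  have h1 := hasDerivAt_norm_ray (-(N:ℝ)) hl hx₀
  have h3 := ((hd.add (h1.const_mul c₁)).add (h1.const_mul 0)).add_const (-m)
  have h4 := deriv_nonneg_of_right_ge (g := fun t : ℝ => (u ((1 + t) • x₀) - kelr (2 * a₁) lb u ((1 + t) • x₀)) +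
      c₁ * ‖(1 + t) • x₀‖ ^ (-(N:ℝ)) + 0 * ‖(1 + t) • x₀‖ ^ (-(N:ℝ)) + (-m)) h3 ?_
  · have e1 : c₁ * (-(N:ℝ) * lb ^ (-(N:ℝ))) = -(m * N) := by
      calc c₁ * (-(N:ℝ) * lb ^ (-(N:ℝ))) = -((c₁ * lb ^ (-(N:ℝ))) * N) := by ring
        _ = -(m * N) := by rw [hc₁v]
    rw [e1] at h4
    rw [Dl]
    linarith
  · have hnh : ∀ᶠ t in 𝓝[>] (0:ℝ), t ∈ Ioo (0:ℝ) 1 := Ioo_mem_nhdsGT one_pos
    filter_upwards [hnh] with t ht
    have hs : 0 < 1 + t := by linarith [ht.1]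
    have hnorm : ‖(1 + t) • x₀‖ = (1 + t) * lb := by rw [norm_scale hs, hx₀]
    have h5 := hmp ((1 + t) • x₀) ⟨by
      rw [hnorm]; nlinarith [ht.1], by rw [hnorm]; nlinarith [ht.2]⟩
    have e0 : (u ((1 + (0:ℝ)) • x₀) - kelr (2 * a₁) lb u ((1 + (0:ℝ)) • x₀)) +
        c₁ * ‖(1 + (0:ℝ)) • x₀‖ ^ (-(N:ℝ)) + 0 * ‖(1 + (0:ℝ)) • x₀‖ ^ (-(N:ℝ)) + (-m) = 0 := by
      simp only [add_zero, one_smul]
      rw [kelr_of_norm_eq hl hx₀, hx₀, hc₁v]
      ring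
    simp only [e0]
    exact h5

/-- Positivity of the first order quantity on a shell around a sphere. -/
lemma Dl_shell {f : Eu n → ℝ} (hf : Continuous f) (hC : ∀ x : Eu n, x ≠ 0 → ContDiffAt ℝ 2 f x)
    {a lb ε : ℝ} (hl : 0 < lb) (hε : 0 < ε) (hb : ∀ x : Eu n, ‖x‖ = lb → ε ≤ Dl a f x) :
    ∃ δ > 0, ∀ y : Eu n, lb ≤ ‖y‖ → ‖y‖ < lb + δ → 0 ≤ Dl a f y := by
  have hcont : ∀ y : Eu n, y ≠ 0 → ContinuousAt (Dl a f) y := by
    intro y hy
    have h1 : ContDiffAt ℝ 1 (fderiv ℝ f) y := (hC y hy).fderiv_right (m := 1) (by norm_num)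
    have h2 : ContinuousAt (fderiv ℝ f) y := h1.continuousAt
    have h3 : ContinuousAt (fun z => fderiv ℝ f z z) y := h2.clm_apply continuousAt_id
    exact h3.add (continuousAt_const.mul hf.continuousAt)
  have hcontOn : ContinuousOn (Dl a f) ({0}ᶜ : Set (Eu n)) := fun y hy =>
    (hcont y hy).continuousWithinAt
  have hO : IsOpen (({0}ᶜ : Set (Eu n)) ∩ (Dl a f) ⁻¹' Ioi 0) :=
    hcontOn.isOpen_inter_preimage isOpen_compl_singleton isOpen_Ioi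
  have hK : Ann n lb lb ⊆ ({0}ᶜ : Set (Eu n)) ∩ (Dl a f) ⁻¹' Ioi 0 := by
    intro x hx
    have hx' : ‖x‖ = lb := le_antisymm hx.2 hx.1
    refine ⟨?_, ?_⟩
    · intro h0
      rw [mem_singleton_iff] at h0
      rw [h0, norm_zero] at hx'
      linarith
    · have := hb x hx'
      show 0 < Dl a f x
      linarith
  obtain ⟨δ, hδ, hsub⟩ := (isCompact_Ann (n := n) lb lb).exists_cthickening_subset_open hO hK
  refine ⟨δ, hδ, ?_⟩
  intro y h1 h2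
  have hr : 0 < ‖y‖ := by linarith
  have hmem : y ∈ Metric.cthickening δ (Ann n lb lb) := by
    obtain ⟨s, hs⟩ : ∃ s, s = lb / ‖y‖ := ⟨_, rfl⟩
    have hs0 : 0 < s := by rw [hs]; positivity
    have hs1 : s ≤ 1 := by rw [hs, div_le_one hr]; exact h1
    have hn1 : ‖s • y‖ = lb := by
      rw [norm_scale hs0, hs]
      field_simp
    refine Metric.mem_cthickening_of_dist_le y (s • y) δ (Ann n lb lb)
      (show s • y ∈ Ann n lb lb from ⟨hn1.ge, hn1.le⟩) ?_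
    rw [dist_eq_norm]
    have e : y - s • y = (1 - s) • y := by
      rw [sub_smul, one_smul]
    rw [e, norm_smul, Real.norm_eq_abs, abs_of_nonneg (by linarith)]
    have : (1 - s) * ‖y‖ = ‖y‖ - lb := by
      rw [hs]
      field_simp
    rw [this]
    linarith
  have := hsub hmem
  exact le_of_lt this.2

end Vale.Agent.Lib.P100
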