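import Mathlib
import Vale.Agent.Lib.P100.MovingSphereR

/-!
# Moving spheres with different exponents: continuation and conclusion
-/

namespace Vale.Agent.Lib.P100

open Set Filter Topology Real

variable {n N : ℕ} {p q A B a₁ b₁ : ℝ} {u v : Eu n → ℝ}

/-- Uniform continuity of the parametrised transform. -/
lemma uniform_kelvinR {f : Eu n → ℝ} (hf : Continuous f) {lb : ℝ} (hl : 0 < lb) (c ρ ε : ℝ)
    (hε : 0 < ε) :
    ∃ δ > 0, ∀ lam, lb ≤ lam → lam ≤ lb + 1 → lam - lb < δ → ∀ ζ : Eu n, ‖ζ‖ ≤ ρ →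
      |lam ^ c * f (lam ^ 2 • ζ) - lb ^ c * f (lb ^ 2 • ζ)| < ε := by
  have hK : IsCompact (Icc lb (lb + 1) ×ˢ Metric.closedBall (0 : Eu n) ρ) :=
    isCompact_Icc.prod (isCompact_closedBall _ _)
  have hcont : ContinuousOn (fun P : ℝ × Eu n => P.1 ^ c * f (P.1 ^ 2 • P.2))
      (Icc lb (lb + 1) ×ˢ Metric.closedBall (0 : Eu n) ρ) := by
    have h1 : Continuous (fun P : ℝ × Eu n => P.1 ^ 2 • P.2) :=
      (continuous_fst.pow 2).smul continuous_snd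
    apply ContinuousOn.mul _ (hf.comp h1).continuousOn
    apply ContinuousOn.rpow_const continuousOn_fst
    intro P hP
    left
    have : lb ≤ P.1 := hP.1.1
    exact (by linarith : 0 < P.1).ne'
  have huc := hK.uniformContinuousOn_of_continuous hcont
  rw [Metric.uniformContinuousOn_iff] at huc
  obtain ⟨δ, hδ, hδb⟩ := huc ε hε
  refine ⟨δ, hδ, ?_⟩
  intro lam h1 h2 h3 ζ hζ
  have hζb : ζ ∈ Metric.closedBall (0 : Eu n) ρ := by simpa using hζ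
  have hmem1 : (lam, ζ) ∈ Icc lb (lb + 1) ×ˢ Metric.closedBall (0 : Eu n) ρ :=
    ⟨⟨h1, h2⟩, hζb⟩
  have hmem2 : (lb, ζ) ∈ Icc lb (lb + 1) ×ˢ Metric.closedBall (0 : Eu n) ρ :=
    ⟨⟨le_rfl, by linarith⟩, hζb⟩
  have hdist : dist (lam, ζ) (lb, ζ) < δ := by
    rw [Prod.dist_eq, dist_self, max_eq_left dist_nonneg, Real.dist_eq, abs_of_nonneg (by linarith)]
    exact h3
  have := hδb _ hmem1 _ hmem2 hdist
  rwa [Real.dist_eq] at this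

/-- The joint parametrisation of the transform. -/
lemma kelr_mul_norm_rpow (c : ℝ) {lam : ℝ} (hl : 0 < lam) (f : Eu n → ℝ) {x : Eu n} (hx : x ≠ 0) :
    kelr c lam f x * ‖x‖ ^ c = lam ^ c * f (lam ^ 2 • ((‖x‖ ^ 2)⁻¹ • x)) := by
  have hr : 0 < ‖x‖ := norm_pos_iff.2 hx
  have e : inv lam x = lam ^ 2 • ((‖x‖ ^ 2)⁻¹ • x) := by
    rw [inv, smul_smul, div_eq_mul_inv]
  rw [kelr, e, Real.div_rpow hl.le hr.le]
  have : ‖x‖ ^ c ≠ 0 := by positivity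
  field_simp

/-- Passing strict exterior bounds to nearby radii. -/
lemma exterior_nearbyR {f : Eu n → ℝ} (hf : Continuous f) {c lb ρ₃ ε : ℝ} (hl : 0 < lb)
    (hc : (N:ℝ) ≤ c) (hρ₃0 : 0 < ρ₃) (hε : 0 < ε)
    (hext : ∀ x : Eu n, ρ₃ ≤ ‖x‖ → ε ≤ (f x - kelr c lb f x) * ‖x‖ ^ N) :
    ∃ δ > 0, ∀ lam, lb < lam → lam ≤ lb + 1 → lam - lb < δ → ∀ x : Eu n, ρ₃ ≤ ‖x‖ →
      kelr c lam f x ≤ f x := by
  obtain ⟨δ, hδ, hb⟩ := uniform_kelvinR hf hl c (1 / ρ₃) (ε * ρ₃ ^ (c - N)) (by positivity)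
  refine ⟨δ, hδ, ?_⟩
  intro lam h1 h2 h3 x hx
  have hr : 0 < ‖x‖ := by linarith
  have hx0 : x ≠ 0 := norm_pos_iff.1 hr
  have hlam : 0 < lam := by linarith
  have hpow : 0 < ‖x‖ ^ N := by positivity
  have hζ : ‖(‖x‖ ^ 2)⁻¹ • x‖ ≤ 1 / ρ₃ := by
    rw [norm_smul, _root_.norm_inv, norm_pow, norm_norm]
    have : (‖x‖ ^ 2)⁻¹ * ‖x‖ = 1 / ‖x‖ := by field_simp
    rw [this]
    exact one_div_le_one_div_of_le hρ₃0 hx
  have e1 := kelr_mul_norm_rpow c hlam f hx0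
  have e2 := kelr_mul_norm_rpow c hl f hx0
  have h4 := (abs_lt.1 (hb lam h1.le h2 h3 _ hζ)).2
  rw [← e1, ← e2] at h4
  have h5 := hext x hx
  -- multiply by `r ^ (N - c)`
  have hrc : 0 < ‖x‖ ^ c := by positivity
  have hN1 : ‖x‖ ^ N = ‖x‖ ^ c * ‖x‖ ^ ((N:ℝ) - c) := by
    rw [← Real.rpow_add hr, ← Real.rpow_natCast]
    congr 1
    ring
  have hq : ‖x‖ ^ ((N:ℝ) - c) * ρ₃ ^ (c - N) ≤ 1 := by
    have h7 : ‖x‖ ^ ((N:ℝ) - c) ≤ ρ₃ ^ ((N:ℝ) - c) :=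
      Real.rpow_le_rpow_of_nonpos hρ₃0 hx (by linarith)
    have h8 : ρ₃ ^ ((N:ℝ) - c) * ρ₃ ^ (c - N) = 1 := by
      rw [← Real.rpow_add hρ₃0]
      simp
    have h9 : 0 < ρ₃ ^ (c - N) := by positivity
    nlinarith
  have hq0 : 0 < ‖x‖ ^ ((N:ℝ) - c) := by positivity
  have h6 : (kelr c lam f x - kelr c lb f x) * ‖x‖ ^ N ≤ ε := by
    rw [hN1]
    have h10 : (kelr c lam f x * ‖x‖ ^ c - kelr c lb f x * ‖x‖ ^ c) * ‖x‖ ^ ((N:ℝ) - c) ≤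
        (ε * ρ₃ ^ (c - N)) * ‖x‖ ^ ((N:ℝ) - c) := by
      gcongr
    have h11 : (ε * ρ₃ ^ (c - N)) * ‖x‖ ^ ((N:ℝ) - c) ≤ ε := by
      nlinarith
    calc (kelr c lam f x - kelr c lb f x) * (‖x‖ ^ c * ‖x‖ ^ ((N:ℝ) - c))
        = (kelr c lam f x * ‖x‖ ^ c - kelr c lb f x * ‖x‖ ^ c) * ‖x‖ ^ ((N:ℝ) - c) := by ring
      _ ≤ ε := h10.trans h11
  have h12 : kelr c lam f x * ‖x‖ ^ N ≤ f x * ‖x‖ ^ N := by nlinarith
  exact le_of_mul_le_mul_right h12 hpow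

/-- Closing the argument on the annulus, given the exterior. -/
lemma moving_annulusR (h : IsPositiveEntireSolution n p q A B u v) (hn : n = N + 2)
    (hp : 0 < p) (hq : 0 < q) (hc₁ : 0 ≤ 2 * a₁) (hc₂ : 0 ≤ 2 * b₁)
    (hκ₁ : 0 ≤ kapr a₁ b₁ p A) (hκ₂ : 0 ≤ kapr b₁ a₁ q B) {lb lam η l M : ℝ}
    (hl : 0 < lb) (hl0 : 0 < l) (hlam : lb < lam) (hη1 : η ≤ 1)
    (hbd : ∀ x : Eu n, ‖x‖ ≤ lb + 2 → l ≤ u x ∧ u x ≤ M ∧ l ≤ v x ∧ v x ≤ M)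
    (hW1 : ((p * (l ^ (p - 1) + M ^ (p - 1))) * (lb ^ A + (lb + 1) ^ A) +
      (q * (l ^ (q - 1) + M ^ (q - 1))) * (lb ^ B + (lb + 1) ^ B) + 1) * η ^ 2 ≤ 1 / 4)
    (hg₁ : ∀ y : Eu n, y ≠ 0 → ‖y‖ < lam → 0 ≤ (2 * a₁ - N) * Dl a₁ u y)
    (hg₂ : ∀ y : Eu n, y ≠ 0 → ‖y‖ < lam → 0 ≤ (2 * b₁ - N) * Dl b₁ v y)
    (hext : ∀ x : Eu n, lb + η ≤ ‖x‖ → kelr (2 * a₁) lam u x ≤ u x ∧ kelr (2 * b₁) lam v x ≤ v x)
    {x : Eu n} (hx : lam ≤ ‖x‖) (hxr : ‖x‖ ≤ lb + η) :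
    kelr (2 * a₁) lam u x ≤ u x ∧ kelr (2 * b₁) lam v x ≤ v x := by
  obtain ⟨C₁, hC₁⟩ : ∃ C₁, C₁ = p * (l ^ (p - 1) + M ^ (p - 1)) := ⟨_, rfl⟩
  obtain ⟨C₂, hC₂⟩ : ∃ C₂, C₂ = q * (l ^ (q - 1) + M ^ (q - 1)) := ⟨_, rfl⟩
  obtain ⟨S₁, hS₁⟩ : ∃ S₁, S₁ = lb ^ A + (lb + 1) ^ A := ⟨_, rfl⟩
  obtain ⟨S₂, hS₂⟩ : ∃ S₂, S₂ = lb ^ B + (lb + 1) ^ B := ⟨_, rfl⟩
  have hM0 : 0 < M := lt_of_lt_of_le hl0 (((hbd 0 (by simp; linarith)).1).trans (hbd 0 (by simp; linarith)).2.1)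
  have hC₁0 : 0 < C₁ := by rw [hC₁]; positivity
  have hC₂0 : 0 < C₂ := by rw [hC₂]; positivity
  have hS₁0 : 0 < S₁ := by rw [hS₁]; positivity
  have hS₂0 : 0 < S₂ := by rw [hS₂]; positivity
  rw [← hC₁, ← hC₂, ← hS₁, ← hS₂] at hW1
  obtain ⟨W, hW⟩ : ∃ W, W = C₁ * S₁ + C₂ * S₂ + 1 := ⟨_, rfl⟩
  rw [← hW] at hW1
  have hW0 : 0 < W := by rw [hW]; positivity
  have hlam0 : 0 < lam := by linarith
  have hcs1 : C₁ * S₁ ≤ W := by
    rw [hW]; have := mul_pos hC₂0 hS₂0; linarith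
  have hcs2 : C₂ * S₂ ≤ W := by
    rw [hW]; have := mul_pos hC₁0 hS₁0; linarith
  have hne : ∀ x : Eu n, lam ≤ ‖x‖ → x ≠ 0 := by
    intro x hx h0
    rw [h0, norm_zero] at hx
    linarith
  obtain ⟨hb1, hb2, hb3, hb4, hb5⟩ := parabola_barrier (n := n) (by omega) hl hW0 hlam hW1
  have hbar : ∀ {a C S : ℝ}, (∀ r, lb ≤ r → r ≤ lb + 1 → r ^ a ≤ S) → 0 ≤ C → C * S ≤ W →
      ∀ x : Eu n, lam < ‖x‖ → ‖x‖ < lb + η →
      C * ‖x‖ ^ a * (1 - W * (‖x‖ - lb) ^ 2) <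
        - Laplacian.laplacian (fun y : Eu n => (1 - W * (‖y‖ - lb) ^ 2 : ℝ)) x := by
    intro a C S hS hC0 hCS x h1 h2
    have hr : 0 < ‖x‖ := by linarith
    have h3 := hb4 x h1
    have h4 : ‖x‖ ^ a ≤ S := hS _ (by linarith) (by linarith)
    have h5 := hb5 x
    have hp1 : 0 < ‖x‖ ^ a := by positivity
    have h7 := hb3 x ⟨h1.le, h2.le⟩
    have h6 : C * ‖x‖ ^ a * (1 - W * (‖x‖ - lb) ^ 2) ≤ C * S * 1 := by
      have h8 : C * ‖x‖ ^ a ≤ C * S := by gcongr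
      apply mul_le_mul h8 h5 h7.le (by nlinarith)
    nlinarith
  have hann := annulus_compareR (lam := lam) (ρ₁ := lam) (ρ₂ := lb + η) (C₁ := C₁) (C₂ := C₂)
    (a₁ := a₁) (b₁ := b₁)
    (b := fun y : Eu n => (1 - W * (‖y‖ - lb) ^ 2 : ℝ)) h hn hp hq hκ₁ hκ₂ hlam0 le_rfl
    hC₁0.le hC₂0.le
    (fun x h1 _ => hg₁ _ (inv_ne_zero hlam0 (hne x h1.le)) (inv_norm_lt hlam0 h1))
    (fun x h1 _ => hg₂ _ (inv_ne_zero hlam0 (hne x h1.le)) (inv_norm_lt hlam0 h1))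
    (fun x h1 h2 hlt => by
      rw [hC₁]
      exact power_boundR (R := lb + 2) h.pos_v hc₂ hp hl0 hlam0 (by linarith)
        (fun y hy => ⟨(hbd y hy).2.2.1, (hbd y hy).2.2.2⟩) h1.le (by linarith) hlt)
    (fun x h1 h2 hlt => by
      rw [hC₂]
      exact power_boundR (R := lb + 2) h.pos_u hc₁ hq hl0 hlam0 (by linarith)
        (fun y hy => ⟨(hbd y hy).1, (hbd y hy).2.1⟩) h1.le (by linarith) hlt)
    hb1 (fun x h1 _ => hb2 x h1) hb3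
    (fun x h1 h2 => hbar (C := C₁) (S := S₁) (fun r a b => by
        rw [hS₁]; exact rpow_le_sum hl a b) hC₁0.le hcs1 x h1 h2)
    (fun x h1 h2 => hbar (C := C₂) (S := S₂) (fun r a b => by
        rw [hS₂]; exact rpow_le_sum hl a b) hC₂0.le hcs2 x h1 h2)
    (fun x hx => by
      rcases hx with hx | hx
      · rw [kelr_of_norm_eq hlam0 hx]
      · exact (hext x hx.ge).1)
    (fun x hx => by
      rcases hx with hx | hx
      · rw [kelr_of_norm_eq hlam0 hx]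
      · exact (hext x hx.ge).2)
  exact hann x ⟨hx, hxr⟩

/-- The first order sign extends a little beyond the sphere. -/
lemma sign_extends (h : IsPositiveEntireSolution n p q A B u v) (hn : n = N + 2) (hN : 1 ≤ N)
    (hp : 0 < p) (hs₁ : (N:ℝ) ≤ 2 * a₁) (hκ₁ : 0 ≤ kapr a₁ b₁ p A) {lb : ℝ} (hl : 0 < lb)
    (hg₁ : ∀ y : Eu n, y ≠ 0 → ‖y‖ < lb → 0 ≤ (2 * a₁ - N) * Dl a₁ u y)
    (hstrictu : ∀ x : Eu n, lb < ‖x‖ → kelr (2 * a₁) lb u x < u x)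
    (hstrictv : ∀ x : Eu n, lb < ‖x‖ → kelr (2 * b₁) lb v x < v x) :
    ∃ δ > 0, ∀ y : Eu n, y ≠ 0 → ‖y‖ < lb + δ → 0 ≤ (2 * a₁ - N) * Dl a₁ u y := by
  obtain ⟨ε, hε, hb⟩ := hopfR h hn hN hp hκ₁ hl hg₁ hstrictu hstrictv
  obtain ⟨δ, hδ, hsh⟩ := Dl_shell h.continuous_u (fun x hx => contDiffAt_u h hx) hl hε hb
  refine ⟨δ, hδ, ?_⟩
  intro y hy hyl
  rcases lt_or_ge ‖y‖ lb with h1 | h1
  · exact hg₁ y hy h1
  · exact mul_nonneg (by linarith) (hsh y h1 hyl)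

/-- Continuation of the moving sphere procedure. -/
theorem moving_continueR (h : IsPositiveEntireSolution n p q A B u v) (hn : n = N + 2) (hN : 1 ≤ N)
    (hp : 0 < p) (hq : 0 < q) (hs₁ : (N:ℝ) ≤ 2 * a₁) (hs₂ : (N:ℝ) ≤ 2 * b₁)
    (hκ₁ : 0 ≤ kapr a₁ b₁ p A) (hκ₂ : 0 ≤ kapr b₁ a₁ q B)
    (hs : 0 < kapr a₁ b₁ p A ∨ 0 < kapr b₁ a₁ q B) {lb : ℝ} (hl : 0 < lb)
    (hO : Ordr a₁ b₁ lb u v)
    (hg₁ : ∀ y : Eu n, y ≠ 0 → ‖y‖ < lb → 0 ≤ (2 * a₁ - N) * Dl a₁ u y)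
    (hg₂ : ∀ y : Eu n, y ≠ 0 → ‖y‖ < lb → 0 ≤ (2 * b₁ - N) * Dl b₁ v y) :
    ∃ δ > 0, ∀ lam, lb < lam → lam < lb + δ → Ordr a₁ b₁ lam u v := by
  have hNnn : (0:ℝ) ≤ N := by positivity
  have hc₁ : 0 ≤ 2 * a₁ := by linarith
  have hc₂ : 0 ≤ 2 * b₁ := by linarith
  obtain ⟨l, M, hl0, hM0, hbd⟩ := exists_ball_bounds h.continuous_u h.continuous_v h.pos_u h.pos_v
    (R := lb + 2) (by linarith)
  -- a suitable `η`
  obtain ⟨W, hW⟩ : ∃ W, W = (p * (l ^ (p - 1) + M ^ (p - 1))) * (lb ^ A + (lb + 1) ^ A) +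
      (q * (l ^ (q - 1) + M ^ (q - 1))) * (lb ^ B + (lb + 1) ^ B) + 1 := ⟨_, rfl⟩
  have hW1 : 1 ≤ W := by
    have h1 : 0 ≤ (p * (l ^ (p - 1) + M ^ (p - 1))) * (lb ^ A + (lb + 1) ^ A) +
      (q * (l ^ (q - 1) + M ^ (q - 1))) * (lb ^ B + (lb + 1) ^ B) := by positivity
    rw [hW]
    linarith
  have hW0 : 0 < W := by linarith
  obtain ⟨η, hη⟩ : ∃ η, η = 1 / (2 * W) := ⟨_, rfl⟩
  have hη0 : 0 < η := by rw [hη]; positivity
  have hη1 : η ≤ 1 := by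
    rw [hη, div_le_one (by positivity)]
    linarith
  have hWη : W * η ^ 2 ≤ 1 / 4 := by
    have : W * η ^ 2 = 1 / (4 * W) := by
      rw [hη]; field_simp; ring
    rw [this, div_le_div_iff₀ (by positivity) (by norm_num)]
    linarith
  obtain ⟨ρ₃, hρ₃⟩ : ∃ ρ₃, ρ₃ = lb + η := ⟨_, rfl⟩
  have hρ₃lb : lb < ρ₃ := by linarith
  have hρ₃0 : 0 < ρ₃ := by linarith
  have hstr := fun (x : Eu n) (hx : lb < ‖x‖) =>
    strict_ordR h hn hp hq hκ₁ hκ₂ hs hl hO hg₁ hg₂ hx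
  have hne3 : ∀ y : Eu n, ‖y‖ = ρ₃ → y ≠ 0 := by
    intro y hy h0
    rw [h0, norm_zero] at hy
    linarith
  -- the sign extends
  obtain ⟨δ₃, hδ₃, hext₁⟩ := sign_extends (b₁ := b₁) h hn hN hp hs₁ hκ₁ hl hg₁
    (fun y hy => (hstr y hy).1) (fun y hy => (hstr y hy).2)
  obtain ⟨δ₄, hδ₄, hext₂⟩ := sign_extends (b₁ := a₁) h.swap hn hN hq hs₂ hκ₂ hl hg₂
    (fun y hy => (hstr y hy).2) (fun y hy => (hstr y hy).1)
  -- positive lower bound on the sphere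
  obtain ⟨m₁, hm₁, hm₁b⟩ := pos_lower_bound (isCompact_Ann (n := n) ρ₃ ρ₃)
    (f := fun x => u x - kelr (2 * a₁) lb u x)
    (by
      intro x hx
      have hx' : ‖x‖ = ρ₃ := le_antisymm hx.2 hx.1
      exact (h.continuous_u.continuousAt.sub
        (continuousAt_kelr h.continuous_u hl (hne3 x hx'))).continuousWithinAt)
    (by
      intro x hx
      have hx' : ‖x‖ = ρ₃ := le_antisymm hx.2 hx.1
      have := (hstr x (by rw [hx']; exact hρ₃lb)).1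
      show 0 < u x - kelr (2 * a₁) lb u x
      linarith)
  obtain ⟨m₂, hm₂, hm₂b⟩ := pos_lower_bound (isCompact_Ann (n := n) ρ₃ ρ₃)
    (f := fun x => v x - kelr (2 * b₁) lb v x)
    (by
      intro x hx
      have hx' : ‖x‖ = ρ₃ := le_antisymm hx.2 hx.1
      exact (h.continuous_v.continuousAt.sub
        (continuousAt_kelr h.continuous_v hl (hne3 x hx'))).continuousWithinAt)
    (by
      intro x hx
      have hx' : ‖x‖ = ρ₃ := le_antisymm hx.2 hx.1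
      have := (hstr x (by rw [hx']; exact hρ₃lb)).2
      show 0 < v x - kelr (2 * b₁) lb v x
      linarith)
  obtain ⟨ε, hε⟩ : ∃ ε, ε = min m₁ m₂ * ρ₃ ^ N := ⟨_, rfl⟩
  have hε0 : 0 < ε := by
    have : 0 < min m₁ m₂ := lt_min hm₁ hm₂
    rw [hε]
    positivity
  have hextu : ∀ x : Eu n, ρ₃ ≤ ‖x‖ → ε ≤ (u x - kelr (2 * a₁) lb u x) * ‖x‖ ^ N := by
    intro x hx
    rw [hε]
    exact exterior_wR h hn hN hp hκ₁ hl hρ₃lb (lt_min hm₁ hm₂).le hg₁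
      (fun y hy => (hstr y hy).1) (fun y hy => (hstr y hy).2)
      (fun y hy => (min_le_left _ _).trans (hm₁b y ⟨hy.ge, hy.le⟩)) hx
  have hextv : ∀ x : Eu n, ρ₃ ≤ ‖x‖ → ε ≤ (v x - kelr (2 * b₁) lb v x) * ‖x‖ ^ N := by
    intro x hx
    rw [hε]
    exact exterior_wR h.swap hn hN hq hκ₂ hl hρ₃lb (lt_min hm₁ hm₂).le hg₂
      (fun y hy => (hstr y hy).2) (fun y hy => (hstr y hy).1)
      (fun y hy => (min_le_right _ _).trans (hm₂b y ⟨hy.ge, hy.le⟩)) hx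
  obtain ⟨δ₁, hδ₁, hb₁⟩ := exterior_nearbyR h.continuous_u hl hs₁ hρ₃0 hε0 hextu
  obtain ⟨δ₂, hδ₂, hb₂⟩ := exterior_nearbyR h.continuous_v hl hs₂ hρ₃0 hε0 hextv
  obtain ⟨δ, hδ⟩ : ∃ δ, δ = min (min δ₁ δ₂) (min η (min δ₃ δ₄)) := ⟨_, rfl⟩
  have hδ0 : 0 < δ := by
    rw [hδ]
    exact lt_min (lt_min hδ₁ hδ₂) (lt_min hη0 (lt_min hδ₃ hδ₄))
  refine ⟨δ, hδ0, ?_⟩
  intro lam hlam1 hlam2
  have hd1 : lam - lb < δ₁ := by
    have : δ ≤ δ₁ := by rw [hδ]; exact (min_le_left _ _).trans (min_le_left _ _)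
    linarith
  have hd2 : lam - lb < δ₂ := by
    have : δ ≤ δ₂ := by rw [hδ]; exact (min_le_left _ _).trans (min_le_right _ _)
    linarith
  have hd3 : lam < lb + η := by
    have : δ ≤ η := by rw [hδ]; exact (min_le_right _ _).trans (min_le_left _ _)
    linarith
  have hd4 : lam < lb + δ₃ := by
    have : δ ≤ δ₃ := by
      rw [hδ]; exact (min_le_right _ _).trans ((min_le_right _ _).trans (min_le_left _ _))
    linarith
  have hd5 : lam < lb + δ₄ := by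
    have : δ ≤ δ₄ := by
      rw [hδ]; exact (min_le_right _ _).trans ((min_le_right _ _).trans (min_le_right _ _))
    linarith
  have hextord : ∀ x : Eu n, lb + η ≤ ‖x‖ →
      kelr (2 * a₁) lam u x ≤ u x ∧ kelr (2 * b₁) lam v x ≤ v x := by
    intro x hx
    rw [← hρ₃] at hx
    exact ⟨hb₁ lam hlam1 (by linarith) hd1 x hx, hb₂ lam hlam1 (by linarith) hd2 x hx⟩
  intro x hx
  rcases le_total ‖x‖ (lb + η) with hxr | hxr
  · exact moving_annulusR h hn hp hq hc₁ hc₂ hκ₁ hκ₂ hl hl0 hlam1 hη1 hbd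
      (by rw [← hW]; exact hWη)
      (fun y hy hyl => hext₁ y hy (by linarith)) (fun y hy hyl => hext₂ y hy (by linarith))
      hextord hx hxr
  · exact hextord x hxr

/-- The ordering passes to the limit from below. -/
theorem ord_closedR (hu : Continuous u) (hv : Continuous v) {lb : ℝ} (hl : 0 < lb)
    (hO : ∀ μ, 0 < μ → μ < lb → Ordr a₁ b₁ μ u v) : Ordr a₁ b₁ lb u v := by
  have hkey : ∀ {c : ℝ} {f : Eu n → ℝ}, Continuous f → (∀ μ, 0 < μ → μ < lb → ∀ x : Eu n,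
      μ ≤ ‖x‖ → kelr c μ f x ≤ f x) → ∀ x : Eu n, lb ≤ ‖x‖ → kelr c lb f x ≤ f x := by
    intro c f hf hOf x hx
    rcases hx.eq_or_lt with hx' | hx'
    · rw [kelr_of_norm_eq hl hx'.symm]
    have hr : 0 < ‖x‖ := by linarith
    have hcont : ContinuousAt (fun μ : ℝ => kelr c μ f x) lb := by
      unfold kelr inv
      have h1 : Continuous (fun μ : ℝ => (μ ^ 2 / ‖x‖ ^ 2) • x) := by fun_prop
      have h2 : ContinuousAt (fun μ : ℝ => (μ / ‖x‖) ^ c) lb :=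
        (continuousAt_id.div_const _).rpow_const (Or.inl (div_pos hl hr).ne')
      exact h2.mul (hf.comp h1).continuousAt
    have hlim : Tendsto (fun μ : ℝ => kelr c μ f x) (𝓝[<] lb) (𝓝 (kelr c lb f x)) :=
      (hcont.tendsto).mono_left nhdsWithin_le_nhds
    apply le_of_tendsto hlim
    have hev : ∀ᶠ μ in 𝓝[<] lb, μ ∈ Ioo 0 lb := Ioo_mem_nhdsLT hl
    filter_upwards [hev] with μ hμ
    exact hOf μ hμ.1 hμ.2 x (by linarith [hμ.2])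
  intro x hx
  exact ⟨hkey hu (fun μ h1 h2 y hy => (hO μ h1 h2 y hy).1) x hx,
    hkey hv (fun μ h1 h2 y hy => (hO μ h1 h2 y hy).2) x hx⟩

/-- The moving sphere procedure never stops. -/
theorem all_ordR (h : IsPositiveEntireSolution n p q A B u v) (hn : n = N + 2) (hN : 1 ≤ N)
    (hp : 0 < p) (hq : 0 < q) (hA : -2 < A) (hB : -2 < B) (hs₁ : (N:ℝ) ≤ 2 * a₁)
    (hs₂ : (N:ℝ) ≤ 2 * b₁) (hκ₁ : 0 ≤ kapr a₁ b₁ p A) (hκ₂ : 0 ≤ kapr b₁ a₁ q B)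
    (hs : 0 < kapr a₁ b₁ p A ∨ 0 < kapr b₁ a₁ q B) : ∀ lam, 0 < lam → Ordr a₁ b₁ lam u v := by
  by_contra hcon
  push Not at hcon
  obtain ⟨lam₁, hlam₁, hnot⟩ := hcon
  obtain ⟨T, hT⟩ : ∃ T : Set ℝ, T = {lam | 0 < lam ∧ ¬ Ordr a₁ b₁ lam u v} := ⟨_, rfl⟩
  have hTne : T.Nonempty := ⟨lam₁, by rw [hT]; exact ⟨hlam₁, hnot⟩⟩
  have hTbd : BddBelow T := ⟨0, fun x hx => by rw [hT] at hx; exact hx.1.le⟩
  obtain ⟨lam₀, hlam₀, hstart⟩ := moving_startR h hn hN hp hq hA hB hs₁ hs₂ hκ₁ hκ₂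
  obtain ⟨lb, hlb⟩ : ∃ lb, lb = sInf T := ⟨_, rfl⟩
  have hlbge : lam₀ ≤ lb := by
    rw [hlb]
    apply le_csInf hTne
    intro x hx
    rw [hT] at hx
    by_contra hlt
    push Not at hlt
    exact hx.2 (hstart x hx.1 hlt)
  have hlb0 : 0 < lb := by linarith
  have hbelow : ∀ μ, 0 < μ → μ < lb → Ordr a₁ b₁ μ u v := by
    intro μ h1 h2
    by_contra hnot
    have hmem : μ ∈ T := by rw [hT]; exact ⟨h1, hnot⟩
    have := csInf_le hTbd hmem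
    rw [← hlb] at this
    linarith
  have hOb := ord_closedR h.continuous_u h.continuous_v hlb0 hbelow
  have hg₁ : ∀ y : Eu n, y ≠ 0 → ‖y‖ < lb → 0 ≤ (2 * a₁ - N) * Dl a₁ u y := by
    intro y hy hyl
    apply mul_nonneg (by linarith)
    exact Dl_nonneg_of_ord ((contDiffAt_u h hy).differentiableAt (by norm_num))
      (fun μ h1 h2 x hx => (hbelow μ h1 h2 x hx).1) hy hyl
  have hg₂ : ∀ y : Eu n, y ≠ 0 → ‖y‖ < lb → 0 ≤ (2 * b₁ - N) * Dl b₁ v y := by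
    intro y hy hyl
    apply mul_nonneg (by linarith)
    exact Dl_nonneg_of_ord ((contDiffAt_v h hy).differentiableAt (by norm_num))
      (fun μ h1 h2 x hx => (hbelow μ h1 h2 x hx).2) hy hyl
  obtain ⟨δ, hδ, hcont⟩ := moving_continueR h hn hN hp hq hs₁ hs₂ hκ₁ hκ₂ hs hlb0 hOb hg₁ hg₂
  have : lb + δ ≤ lb := by
    nth_rewrite 2 [hlb]
    apply le_csInf hTne
    intro x hx
    by_contra hlt
    push Not at hlt
    have h1 : lb ≤ x := by rw [hlb]; exact csInf_le hTbd hx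
    rw [hT] at hx
    rcases h1.eq_or_lt with h2 | h2
    · rw [← h2] at hx
      exact hx.2 hOb
    · exact hx.2 (hcont x h2 hlt)
  linarith

/-- The lower bound from the moving sphere ordering. -/
theorem PB_of_ordR {f : Eu n → ℝ} (hf : Continuous f) (hpos : ∀ x, 0 < f x) {a : ℝ} (ha : 0 ≤ a)
    (hO : ∀ lam, 0 < lam → ∀ x : Eu n, lam ≤ ‖x‖ → kelr (2 * a) lam f x ≤ f x) :
    PB f a := by
  obtain ⟨l, M, hl0, _, hbd⟩ := exists_ball_bounds hf hf hpos hpos (R := 1) zero_le_one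
  refine ⟨l, hl0, ?_⟩
  intro R hR x hx
  have hR0 : 0 < R := by linarith
  rcases le_or_gt ‖x‖ 1 with hx1 | hx1
  · have h1 : R ^ (-a) ≤ 1 := Real.rpow_le_one_of_one_le_of_nonpos hR (by linarith)
    have h2 := (hbd x hx1).1
    nlinarith
  · obtain ⟨r, hr⟩ : ∃ r, r = ‖x‖ := ⟨_, rfl⟩
    have hr1 : 1 < r := by rw [hr]; exact hx1
    have hr0 : 0 < r := by linarith
    have hx0 : x ≠ 0 := by
      intro h0
      rw [h0, norm_zero] at hx1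
      linarith
    obtain ⟨lam, hlam⟩ : ∃ lam, lam = r ^ ((1:ℝ) / 2) := ⟨_, rfl⟩
    have hlam0 : 0 < lam := by rw [hlam]; positivity
    have hlam2 : lam ^ 2 = r := by
      rw [hlam, ← Real.rpow_natCast, ← Real.rpow_mul hr0.le]
      norm_num
    have hlamr : lam ≤ r := by
      rw [hlam]
      calc r ^ ((1:ℝ) / 2) ≤ r ^ (1:ℝ) := Real.rpow_le_rpow_of_exponent_le hr1.le (by norm_num)
        _ = r := Real.rpow_one r
    have h1 := hO lam hlam0 x (by rw [← hr]; exact hlamr)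
    have hinv : ‖inv lam x‖ ≤ 1 := by
      rw [norm_inv hlam0 hx0, ← hr, hlam2, div_self hr0.ne']
    have h2 := (hbd _ hinv).1
    have h3 : (lam / r) ^ (2 * a) = r ^ (-a) := by
      have e1 : lam / r = r ^ (-(1:ℝ) / 2) := by
        rw [hlam, div_eq_iff hr0.ne']
        nth_rewrite 3 [← Real.rpow_one r]
        rw [← Real.rpow_add hr0]
        norm_num
      rw [e1, ← Real.rpow_mul hr0.le]
      congr 1
      ring
    have h4 : R ^ (-a) ≤ r ^ (-a) :=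
      Real.rpow_le_rpow_of_nonpos hr0 (by rw [hr]; exact hx) (by linarith)
    have h5 : kelr (2 * a) lam f x = r ^ (-a) * f (inv lam x) := by
      rw [kelr, ← hr, h3]
    rw [h5] at h1
    have h6 : 0 < r ^ (-a) := by positivity
    have h7 : 0 < R ^ (-a) := by positivity
    calc l * R ^ (-a) ≤ l * r ^ (-a) := by gcongr
      _ ≤ f (inv lam x) * r ^ (-a) := by gcongr
      _ = r ^ (-a) * f (inv lam x) := by ring
      _ ≤ f x := h1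

/-- The main nonexistence result, for weights above `-2`, with the auxiliary exponents. -/
theorem no_solution_exps (h : IsPositiveEntireSolution n p q A B u v) (hn : n = N + 2) (hN : 1 ≤ N)
    (hp : 0 < p) (hq : 0 < q) (hA : -2 < A) (hB : -2 < B) (hs₁ : (N:ℝ) ≤ 2 * a₁)
    (hs₂ : (N:ℝ) ≤ 2 * b₁) (hκ₁ : 0 ≤ kapr a₁ b₁ p A) (hκ₂ : 0 ≤ kapr b₁ a₁ q B)
    (hs : 0 < kapr a₁ b₁ p A ∨ 0 < kapr b₁ a₁ q B) : False := by
  have hNnn : (0:ℝ) ≤ N := by positivity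
  have hord := all_ordR h hn hN hp hq hA hB hs₁ hs₂ hκ₁ hκ₂ hs
  have h1 : PB u a₁ := PB_of_ordR h.continuous_u h.pos_u (by linarith)
    (fun lam hl x hx => (hord lam hl x hx).1)
  have h2 : PB v b₁ := PB_of_ordR h.continuous_v h.pos_v (by linarith)
    (fun lam hl x hx => (hord lam hl x hx).2)
  rw [kapr] at hκ₁ hs
  rw [kapr] at hκ₂ hs
  refine exponent_contradiction (Su := {s | PB u s}) (Sv := {s | PB v s}) (p := p) (q := q)
    (a := 2 + A) (b := 2 + B) (a₁ := a₁) (b₁ := b₁) hp hq (by linarith) (by linarith)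
    (fun s hs => PB.nonneg hs) (fun s hs => PB.nonneg hs)
    (fun t ht => PB_step h hn hN hp hA ht) (fun s hs => PB_step h.swap hn hN hq hB hs) h1 h2
    (by nlinarith) (by nlinarith) ?_
  rcases hs with hs | hs
  · left; nlinarith
  · right; nlinarith

end Vale.Agent.Lib.P100
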