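import Mathlib
import Vale.Agent.Lib.P100.MovingSphereR2
import Vale.Agent.Lib.P100.LowWeights

/-!
# Upper bounds on the decay, and the region `max(α, β) ≥ n - 2`
-/

namespace Vale.Agent.Lib.P100

open Set Filter Topology Real

variable {n N : ℕ} {p q A B : ℝ} {u v : Eu n → ℝ}

/-- The constant of the comparison on balls. -/
noncomputable def bK (n : ℕ) (A : ℝ) : ℝ := ((2:ℝ) ^ (2 + A) - 1) / (2 * ((2 + A) * (n + A)))

lemma bK_pos (hn : n = N + 2) (hN : 1 ≤ N) (hA : -2 < A) : 0 < bK n A := by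
  have hcast : (n:ℝ) = (N:ℝ) + 2 := by rw [hn]; push_cast; ring
  have hNpos : (1:ℝ) ≤ N := by exact_mod_cast hN
  have h1 : 1 < (2:ℝ) ^ (2 + A) := Real.one_lt_rpow (by norm_num) (by linarith)
  have h2 : 0 < 2 + A := by linarith
  have h3 : 0 < (n:ℝ) + A := by rw [hcast]; linarith
  rw [bK]
  apply div_pos (by linarith) (by positivity)

/-- The comparison on balls, in local form. -/
theorem ball_step (h : IsPositiveEntireSolution n p q A B u v) (hn : n = N + 2) (hN : 1 ≤ N)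
    (hp : 0 < p) (hA : -2 < A) {R m : ℝ} (hR : 0 < R) (hm : 0 < m)
    (hv : ∀ y : Eu n, ‖y‖ ≤ 2 * R → m ≤ v y) {x : Eu n} (hx : ‖x‖ ≤ R) :
    bK n A * m ^ p * R ^ (2 + A) ≤ u x := by
  have ha : 0 < 2 + A := by linarith
  have hcast : (n:ℝ) = (N:ℝ) + 2 := by rw [hn]; push_cast; ring
  have hNpos : (1:ℝ) ≤ N := by exact_mod_cast hN
  have hnA : 0 < (n:ℝ) + A := by rw [hcast]; linarith
  have hmain : ∀ x : Eu n, x ≠ 0 → ‖x‖ ≤ R → bK n A * m ^ p * R ^ (2 + A) ≤ u x := by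
    intro x hx0 hxR
    have hr : 0 < ‖x‖ := norm_pos_iff.2 hx0
    have h1 := ball_compare h hn hN hp hA (by positivity : 0 < 2 * R) hm hv hx0 (by linarith)
    refine le_trans ?_ h1
    have h3 : ‖x‖ ^ (2 + A) ≤ R ^ (2 + A) := Real.rpow_le_rpow hr.le hxR ha.le
    have h4 : (2 * R) ^ (2 + A) = (2:ℝ) ^ (2 + A) * R ^ (2 + A) :=
      Real.mul_rpow (by norm_num) hR.le
    have h5 : R ^ (2 + A) * ((2:ℝ) ^ (2 + A) - 1) ≤ (2 * R) ^ (2 + A) - ‖x‖ ^ (2 + A) := by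
      rw [h4]
      nlinarith
    have h6 : bK n A * m ^ p * R ^ (2 + A) =
        m ^ p / (2 * ((2 + A) * (n + A))) * (R ^ (2 + A) * ((2:ℝ) ^ (2 + A) - 1)) := by
      rw [bK]
      field_simp
    rw [h6]
    apply mul_le_mul_of_nonneg_left h5
    positivity
  rcases eq_or_ne x 0 with rfl | hx0
  · exact le_at_zero (by omega) h.continuous_u hR hmain
  · exact hmain x hx0 hx

/-- The constant in the double step. -/
noncomputable def cU (n : ℕ) (p q A B α : ℝ) : ℝ :=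
  bK n A * (bK n B) ^ p * (4:ℝ) ^ (-α * (q * p)) * (2:ℝ) ^ ((2 + B) * p)

/-- The double step of the comparison on balls. -/
theorem upper_step (h : IsPositiveEntireSolution n p q A B u v) (hn : n = N + 2) (hN : 1 ≤ N)
    (hp : 0 < p) (hq : 0 < q) (hA : -2 < A) (hB : -2 < B) {α : ℝ}
    (hα : α * (p * q - 1) = 2 + A + p * (2 + B)) {M R₀ : ℝ} (hM : 0 < M) (hR₀ : 1 ≤ R₀)
    (hP : ∀ R, R₀ ≤ R → ∀ x : Eu n, ‖x‖ ≤ R → M * R ^ (-α) ≤ u x) :
    ∀ R, R₀ ≤ R → ∀ x : Eu n, ‖x‖ ≤ R → (cU n p q A B α * M ^ (q * p)) * R ^ (-α) ≤ u x := by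
  intro R hR x hx
  have hR0 : 0 < R := by linarith
  obtain ⟨m, hm⟩ : ∃ m, m = M * (4 * R) ^ (-α) := ⟨_, rfl⟩
  have hm0 : 0 < m := by rw [hm]; positivity
  have hbA := bK_pos hn hN hA
  have hbB := bK_pos hn hN hB
  have hu4 : ∀ z : Eu n, ‖z‖ ≤ 2 * (2 * R) → m ≤ u z := by
    intro z hz
    rw [hm]
    exact hP (4 * R) (by linarith) z (by linarith)
  obtain ⟨m', hm'⟩ : ∃ m', m' = bK n B * m ^ q * (2 * R) ^ (2 + B) := ⟨_, rfl⟩
  have hm'0 : 0 < m' := by rw [hm']; positivity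
  have hv2 : ∀ y : Eu n, ‖y‖ ≤ 2 * R → m' ≤ v y := by
    intro y hy
    rw [hm']
    exact ball_step h.swap hn hN hq hB (by positivity) hm0 hu4 hy
  have h1 := ball_step h hn hN hp hA hR0 hm'0 hv2 hx
  refine le_trans (le_of_eq ?_) h1
  -- algebra of powers
  have h4R : 0 < 4 * R := by positivity
  have e1 : m' ^ p = (bK n B) ^ p * (M ^ (q * p) * ((4:ℝ) ^ (-α * (q * p)) * R ^ (-α * (q * p)))) *
      ((2:ℝ) ^ ((2 + B) * p) * R ^ ((2 + B) * p)) := by
    rw [hm', Real.mul_rpow (by positivity) (by positivity), Real.mul_rpow hbB.le (by positivity),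
      ← Real.rpow_mul hm0.le, hm, Real.mul_rpow hM.le (by positivity),
      ← Real.rpow_mul h4R.le, Real.mul_rpow (by norm_num) hR0.le, ← Real.rpow_mul (by positivity),
      Real.mul_rpow (by norm_num) hR0.le]
  have e2 : R ^ (-α) = R ^ (-α * (q * p)) * R ^ ((2 + B) * p) * R ^ (2 + A) := by
    rw [← Real.rpow_add hR0, ← Real.rpow_add hR0]
    congr 1
    linear_combination hα
  rw [e1, e2, cU]
  ring

/-- Lower bounds much above the scale `R ^ (-α)` are impossible. -/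
theorem no_large_lower (h : IsPositiveEntireSolution n p q A B u v) (hn : n = N + 2) (hN : 1 ≤ N)
    (hp : 0 < p) (hq : 0 < q) (hA : -2 < A) (hB : -2 < B) (hpq : 1 < p * q) {α : ℝ}
    (hα : α * (p * q - 1) = 2 + A + p * (2 + B))
    (hall : ∀ M > 0, ∃ R₀, 1 ≤ R₀ ∧ ∀ R, R₀ ≤ R → ∀ x : Eu n, ‖x‖ ≤ R → M * R ^ (-α) ≤ u x) :
    False := by
  have hc : 0 < cU n p q A B α := by
    have hbA := bK_pos hn hN hA
    have hbB := bK_pos hn hN hB
    rw [cU]
    positivity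
  have hμ : 0 < q * p - 1 := by nlinarith
  obtain ⟨M₀, hM₀⟩ : ∃ M₀, M₀ = (2 / cU n p q A B α) ^ (1 / (q * p - 1)) := ⟨_, rfl⟩
  have hM₀0 : 0 < M₀ := by rw [hM₀]; positivity
  have hM₀p : M₀ ^ (q * p - 1) = 2 / cU n p q A B α := by
    rw [hM₀, ← Real.rpow_mul (by positivity), one_div_mul_cancel hμ.ne', Real.rpow_one]
  obtain ⟨R₀, hR₀, hP₀⟩ := hall M₀ hM₀0
  have hiter : ∀ k : ℕ, ∀ R, R₀ ≤ R → ∀ x : Eu n, ‖x‖ ≤ R → ((2:ℝ) ^ k * M₀) * R ^ (-α) ≤ u x := by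
    intro k
    induction k with
    | zero =>
      simpa using hP₀
    | succ k ih =>
      intro R hR x hx
      have hMk : M₀ ≤ (2:ℝ) ^ k * M₀ := by
        have : (1:ℝ) ≤ 2 ^ k := one_le_pow₀ (by norm_num)
        nlinarith
      have hMk0 : 0 < (2:ℝ) ^ k * M₀ := by positivity
      have h1 := upper_step h hn hN hp hq hA hB hα hMk0 hR₀ ih R hR x hx
      refine le_trans ?_ h1
      have hR0 : 0 < R := by linarith
      apply mul_le_mul_of_nonneg_right _ (by positivity)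
      have h2 : ((2:ℝ) ^ k * M₀) ^ (q * p) =
          ((2:ℝ) ^ k * M₀) ^ (q * p - 1) * ((2:ℝ) ^ k * M₀) := by
        rw [← Real.rpow_add_one hMk0.ne']
        congr 1
        ring
      have h3 : M₀ ^ (q * p - 1) ≤ ((2:ℝ) ^ k * M₀) ^ (q * p - 1) :=
        Real.rpow_le_rpow hM₀0.le hMk hμ.le
      have h4 : 2 ≤ cU n p q A B α * ((2:ℝ) ^ k * M₀) ^ (q * p - 1) := by
        have h5 : cU n p q A B α * M₀ ^ (q * p - 1) = 2 := by
          rw [hM₀p]
          field_simp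
        have h6 := mul_le_mul_of_nonneg_left h3 hc.le
        linarith
      rw [h2, pow_succ]
      nlinarith
  -- contradiction at the origin
  have hpos : 0 < M₀ * R₀ ^ (-α) := by positivity
  obtain ⟨k, hk⟩ := pow_unbounded_of_one_lt (u 0 / (M₀ * R₀ ^ (-α))) (by norm_num : (1:ℝ) < 2)
  have h1 := hiter k R₀ le_rfl 0 (by simp; linarith)
  rw [div_lt_iff₀ hpos] at hk
  nlinarith

/-- A power lower bound below the critical decay rate is impossible. -/
theorem no_solution_of_PB (h : IsPositiveEntireSolution n p q A B u v) (hn : n = N + 2) (hN : 1 ≤ N)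
    (hp : 0 < p) (hq : 0 < q) (hA : -2 < A) (hB : -2 < B) (hpq : 1 < p * q) {α s : ℝ}
    (hα : α * (p * q - 1) = 2 + A + p * (2 + B)) (hs : s < α) (hPB : PB u s) : False := by
  obtain ⟨ε, hε, hb⟩ := hPB
  refine no_large_lower h hn hN hp hq hA hB hpq hα ?_
  intro M hM
  have hd : 0 < α - s := by linarith
  refine ⟨max 1 ((M / ε) ^ (1 / (α - s))), le_max_left _ _, ?_⟩
  intro R hR x hx
  have hR1 : 1 ≤ R := (le_max_left _ _).trans hR
  have hR0 : 0 < R := by linarith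
  have hR2 : (M / ε) ^ (1 / (α - s)) ≤ R := (le_max_right _ _).trans hR
  have h1 : M / ε ≤ R ^ (α - s) := by
    have h3 := Real.rpow_le_rpow (by positivity) hR2 hd.le
    rwa [← Real.rpow_mul (by positivity), one_div_mul_cancel hd.ne', Real.rpow_one] at h3
  have h2 : M ≤ ε * R ^ (α - s) := by
    rw [div_le_iff₀ hε] at h1
    linarith
  refine le_trans ?_ (hb R hR1 x hx)
  have e : R ^ (-s) = R ^ (α - s) * R ^ (-α) := by
    rw [← Real.rpow_add hR0]
    congr 1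
    ring
  rw [e]
  have hpos : 0 < R ^ (-α) := by positivity
  nlinarith

/-- A positive strictly superharmonic function decays at most like the fundamental solution. -/
theorem PB_of_superharmonic {f : Eu n → ℝ} (hn : n = N + 2) (hN : 1 ≤ N) (hf : Continuous f)
    (hpos : ∀ x, 0 < f x) (hC : ∀ x : Eu n, x ≠ 0 → ContDiffAt ℝ 2 f x)
    (hneg : ∀ x : Eu n, x ≠ 0 → Laplacian.laplacian f x < 0) : PB f (N:ℝ) := by
  obtain ⟨l, M, hl0, _, hbd⟩ := exists_ball_bounds hf hf hpos hpos (R := 1) zero_le_one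
  refine ⟨l, hl0, ?_⟩
  intro R hR x hx
  have hR0 : 0 < R := by linarith
  have hNnn : (0:ℝ) ≤ N := by positivity
  rcases le_or_gt ‖x‖ 1 with hx1 | hx1
  · have h1 : R ^ (-(N:ℝ)) ≤ 1 := Real.rpow_le_one_of_one_le_of_nonpos hR (by linarith)
    have h2 := (hbd x hx1).1
    nlinarith
  · have hr : 0 < ‖x‖ := by linarith
    have hne : ∀ y : Eu n, 1 < ‖y‖ → y ≠ 0 := by
      intro y hy h0
      rw [h0, norm_zero] at hy
      linarith
    have h1 := exterior_bound (ρ₀ := 1) (m := l) hn hN one_pos (f := f) hf.continuousOn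
      (fun y hy => hC y (hne y hy)) (fun y hy => hneg y (hne y hy)) (fun y _ => (hpos y).le)
      (fun y hy => (hbd y hy.le).1) hl0.le (x := x) hx1.le
    rw [one_pow, mul_one] at h1
    have h2 : ‖x‖ ^ N * ‖x‖ ^ (-(N:ℝ)) = 1 := by
      rw [Real.rpow_neg hr.le, Real.rpow_natCast]
      field_simp
    have h3 : R ^ (-(N:ℝ)) ≤ ‖x‖ ^ (-(N:ℝ)) :=
      Real.rpow_le_rpow_of_nonpos hr hx (by linarith)
    have h4 : 0 < ‖x‖ ^ (-(N:ℝ)) := by positivity
    calc l * R ^ (-(N:ℝ)) ≤ l * ‖x‖ ^ (-(N:ℝ)) := by gcongr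
      _ ≤ (f x * ‖x‖ ^ N) * ‖x‖ ^ (-(N:ℝ)) := by gcongr
      _ = f x * (‖x‖ ^ N * ‖x‖ ^ (-(N:ℝ))) := by ring
      _ = f x := by rw [h2, mul_one]

/-- Laplacian of `‖x‖^(-N) log ‖x‖`. -/
lemma laplacian_log_mul (hn : n = N + 2) {x : Eu n} (hx : x ≠ 0) :
    Laplacian.laplacian (fun y : Eu n => ‖y‖ ^ (-(N:ℝ)) * Real.log ‖y‖) x =
      -(N * ‖x‖ ^ (-(N:ℝ) - 2)) := by
  have hcast : (n:ℝ) = (N:ℝ) + 2 := by rw [hn]; push_cast; ring
  have hr : 0 < ‖x‖ := norm_pos_iff.2 hx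
  obtain ⟨s, hs⟩ : ∃ s : ℝ, s = -(N:ℝ) := ⟨_, rfl⟩
  rw [← hs]
  have hH : ∀ t : ℝ, 0 < t → HasDerivAt (fun t : ℝ => t ^ s * Real.log t)
      (s * t ^ (s - 1) * Real.log t + t ^ (s - 1)) t := by
    intro t ht
    have h1 : HasDerivAt (fun t : ℝ => t ^ s) (s * t ^ (s - 1)) t :=
      Real.hasDerivAt_rpow_const (Or.inl ht.ne')
    have h2 := h1.mul (Real.hasDerivAt_log ht.ne')
    refine h2.congr_deriv ?_
    have e : t ^ s = t ^ (s - 1) * t := by
      rw [← Real.rpow_add_one ht.ne']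
      congr 1
      ring
    rw [e]
    field_simp
  have hH₁ : ∀ t : ℝ, 0 < t → HasDerivAt (fun t : ℝ => s * t ^ (s - 1) * Real.log t + t ^ (s - 1))
      (s * (s - 1) * t ^ (s - 2) * Real.log t + (2 * s - 1) * t ^ (s - 2)) t := by
    intro t ht
    have h1 : HasDerivAt (fun t : ℝ => t ^ (s - 1)) ((s - 1) * t ^ (s - 1 - 1)) t :=
      Real.hasDerivAt_rpow_const (Or.inl ht.ne')
    have h2 := ((h1.const_mul s).mul (Real.hasDerivAt_log ht.ne')).add h1
    refine h2.congr_deriv ?_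
    have e0 : s - 1 - 1 = s - 2 := by ring
    have e : t ^ (s - 1) = t ^ (s - 2) * t := by
      rw [← Real.rpow_add_one ht.ne']
      congr 1
      ring
    rw [e0, e]
    field_simp
    ring
  have hC : ContDiffAt ℝ 2 (fun t : ℝ => t ^ s * Real.log t) ‖x‖ :=
    (Real.contDiffAt_rpow_const_of_ne hr.ne').mul (Real.contDiffAt_log.2 hr.ne')
  rw [laplacian_radial_general hH hH₁ hx hC, hcast]
  have e : ‖x‖ ^ (s - 1) = ‖x‖ ^ (s - 2) * ‖x‖ := by
    rw [← Real.rpow_add_one hr.ne']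
    congr 1
    ring
  rw [e, hs]
  field_simp
  ring

lemma contDiffAt_log_mul (s : ℝ) {x : Eu n} (hx : x ≠ 0) :
    ContDiffAt ℝ 2 (fun y : Eu n => ‖y‖ ^ s * Real.log ‖y‖) x :=
  (contDiffAt_rpow_norm s hx).mul (contDiffAt_log_norm hx)

/-- The logarithmic gain at the critical rate. -/
theorem log_gain {f : Eu n → ℝ} (hn : n = N + 2) (hN : 1 ≤ N) (hf : Continuous f)
    (hpos : ∀ x, 0 < f x) (hC : ∀ x : Eu n, x ≠ 0 → ContDiffAt ℝ 2 f x) {c : ℝ} (hc : 0 < c)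
    (hlap : ∀ x : Eu n, 1 ≤ ‖x‖ → Laplacian.laplacian f x ≤ -(c * ‖x‖ ^ (-(N:ℝ) - 2)))
    {x : Eu n} (hx : 1 ≤ ‖x‖) :
    c / (2 * N) * (‖x‖ ^ (-(N:ℝ)) * Real.log ‖x‖) ≤ f x := by
  have hNpos : (0:ℝ) < N := by exact_mod_cast hN
  obtain ⟨κ, hκ⟩ : ∃ κ, κ = c / (2 * N) := ⟨_, rfl⟩
  have hκ0 : 0 < κ := by rw [hκ]; positivity
  rw [← hκ]
  have hκN : κ * N = c / 2 := by rw [hκ]; field_simp
  have hne : ∀ y : Eu n, 1 ≤ ‖y‖ → y ≠ 0 := by
    intro y hy h0
    rw [h0, norm_zero] at hy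
    linarith
  have hkey : ∀ R, ‖x‖ < R → κ * (‖x‖ ^ (-(N:ℝ)) * Real.log ‖x‖) -
      κ * (Real.log R / R ^ (N:ℝ)) ≤ f x := by
    intro R hR
    have hR1 : 1 < R := by linarith
    have hR0 : 0 < R := by linarith
    obtain ⟨d, hd⟩ : ∃ d, d = κ * (Real.log R / R ^ (N:ℝ)) := ⟨_, rfl⟩
    have hd0 : 0 ≤ d := by
      rw [hd]
      have := Real.log_nonneg hR1.le
      positivity
    rw [← hd]
    have hmp := ann_min_principle (ρ₁ := 1) (ρ₂ := R)
      (g := fun y => f y + (-κ) * (‖y‖ ^ (-(N:ℝ)) * Real.log ‖y‖) +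
        0 * (‖y‖ ^ (-(N:ℝ)) * Real.log ‖y‖) + d)
      (by
        intro y hy
        have hy0 := hne y hy.1
        have h1 : ContinuousAt (fun y : Eu n => ‖y‖ ^ (-(N:ℝ)) * Real.log ‖y‖) y :=
          (contDiffAt_log_mul _ hy0).continuousAt
        exact ((hf.continuousAt.add (continuousAt_const.mul h1)).add
          (continuousAt_const.mul h1)).add continuousAt_const |>.continuousWithinAt)
      (by
        intro y h1 _
        have hy0 := hne y h1.le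
        exact (((hC y hy0).add (contDiffAt_const.mul (contDiffAt_log_mul _ hy0))).add
          (contDiffAt_const.mul (contDiffAt_log_mul _ hy0))).add contDiffAt_const)
      (by
        intro y h1 _ _
        have hy0 := hne y h1.le
        have hr : 0 < ‖y‖ := norm_pos_iff.2 hy0
        rw [laplacian_add_two (-κ) 0 d (hC y hy0) (contDiffAt_log_mul _ hy0)
          (contDiffAt_log_mul _ hy0), laplacian_log_mul hn hy0]
        have h2 := hlap y h1.le
        have h3 : 0 < ‖y‖ ^ (-(N:ℝ) - 2) := by positivity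
        have e : -κ * -(↑N * ‖y‖ ^ (-(N:ℝ) - 2)) = c / 2 * ‖y‖ ^ (-(N:ℝ) - 2) := by
          rw [← hκN]; ring
        rw [e]
        nlinarith)
      (by
        intro y hy
        rcases hy with hy | hy
        · show 0 ≤ f y + (-κ) * (‖y‖ ^ (-(N:ℝ)) * Real.log ‖y‖) +
            0 * (‖y‖ ^ (-(N:ℝ)) * Real.log ‖y‖) + d
          rw [hy, Real.log_one]
          have := hpos y
          simp only [mul_zero, zero_mul]
          linarith
        · show 0 ≤ f y + (-κ) * (‖y‖ ^ (-(N:ℝ)) * Real.log ‖y‖) +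
            0 * (‖y‖ ^ (-(N:ℝ)) * Real.log ‖y‖) + d
          rw [hy, hd]
          have := hpos y
          have e : R ^ (-(N:ℝ)) * Real.log R = Real.log R / R ^ (N:ℝ) := by
            rw [Real.rpow_neg hR0.le]
            field_simp
          rw [e]
          linarith)
    have := hmp x ⟨hx, hR.le⟩
    have h5 : 0 ≤ f x + (-κ) * (‖x‖ ^ (-(N:ℝ)) * Real.log ‖x‖) +
        0 * (‖x‖ ^ (-(N:ℝ)) * Real.log ‖x‖) + d := this
    linarith
  have hlim : Tendsto (fun R : ℝ => κ * (‖x‖ ^ (-(N:ℝ)) * Real.log ‖x‖) -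
      κ * (Real.log R / R ^ (N:ℝ))) atTop (𝓝 (κ * (‖x‖ ^ (-(N:ℝ)) * Real.log ‖x‖) - κ * 0)) := by
    apply Tendsto.sub tendsto_const_nhds
    apply Tendsto.const_mul
    exact (isLittleO_log_rpow_atTop hNpos).tendsto_div_nhds_zero
  have : κ * (‖x‖ ^ (-(N:ℝ)) * Real.log ‖x‖) - κ * 0 ≤ f x := by
    apply le_of_tendsto hlim
    filter_upwards [eventually_gt_atTop ‖x‖] with R hR using hkey R hR
  simpa using this

/-- The critical decay rate is impossible as well. -/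
theorem no_solution_of_critical (h : IsPositiveEntireSolution n p q A B u v) (hn : n = N + 2)
    (hN : 1 ≤ N) (hp : 0 < p) (hq : 0 < q) (hA : -2 < A) (hB : -2 < B) (hpq : 1 < p * q)
    (hα : (N:ℝ) * (p * q - 1) = 2 + A + p * (2 + B)) : False := by
  have hNpos : (0:ℝ) < N := by exact_mod_cast hN
  have hPu : PB u (N:ℝ) := PB_of_superharmonic hn hN h.continuous_u h.pos_u
    (fun _ hx => contDiffAt_u h hx) (fun _ hx => laplacian_u_neg h hx)
  obtain ⟨ε, hε, hb⟩ := PB_step h.swap hn hN hq hB hPu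
  obtain ⟨t, ht⟩ : ∃ t, t = q * (N:ℝ) - (2 + B) := ⟨_, rfl⟩
  rw [← ht] at hb
  -- the differential inequality
  have hlap : ∀ x : Eu n, 1 ≤ ‖x‖ →
      Laplacian.laplacian u x ≤ -(ε ^ p * ‖x‖ ^ (-(N:ℝ) - 2)) := by
    intro x hx
    have hr : 0 < ‖x‖ := by linarith
    have hx0 : x ≠ 0 := norm_pos_iff.1 hr
    rw [laplacian_u h hx0]
    have h1 := hb ‖x‖ hx x le_rfl
    have h2 : (ε * ‖x‖ ^ (-t)) ^ p ≤ v x ^ p := Real.rpow_le_rpow (by positivity) h1 hp.le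
    rw [Real.mul_rpow hε.le (by positivity), ← Real.rpow_mul hr.le] at h2
    have e : ‖x‖ ^ (-(N:ℝ) - 2) = ‖x‖ ^ A * ‖x‖ ^ (-t * p) := by
      rw [← Real.rpow_add hr]
      congr 1
      rw [ht]
      linear_combination hα
    rw [e]
    have h3 : 0 < ‖x‖ ^ A := by positivity
    have h4 : ‖x‖ ^ A * (ε ^ p * ‖x‖ ^ (-t * p)) ≤ ‖x‖ ^ A * v x ^ p := by gcongr
    linarith
  have hgain := fun (x : Eu n) (hx : 1 ≤ ‖x‖) => log_gain hn hN h.continuous_u h.pos_u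
    (fun _ hx => contDiffAt_u h hx) (c := ε ^ p) (by positivity) hlap hx
  obtain ⟨κ, hκ⟩ : ∃ κ, κ = ε ^ p / (2 * N) := ⟨_, rfl⟩
  have hκ0 : 0 < κ := by rw [hκ]; positivity
  rw [← hκ] at hgain
  refine no_large_lower h hn hN hp hq hA hB hpq hα ?_
  intro M hM
  obtain ⟨r₁, hr₁⟩ : ∃ r₁, r₁ = Real.exp (M / κ) := ⟨_, rfl⟩
  have hr₁1 : 1 ≤ r₁ := by
    rw [hr₁]
    exact Real.one_le_exp (by positivity)
  have hr₁0 : 0 < r₁ := by linarith
  obtain ⟨l₁, M₁, hl₁, _, hbd⟩ := exists_ball_bounds h.continuous_u h.continuous_u h.pos_u h.pos_u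
    (R := r₁) hr₁0.le
  refine ⟨max r₁ ((M / l₁) ^ (1 / (N:ℝ))), hr₁1.trans (le_max_left _ _), ?_⟩
  intro R hR x hx
  have hRr : r₁ ≤ R := (le_max_left _ _).trans hR
  have hR2 : (M / l₁) ^ (1 / (N:ℝ)) ≤ R := (le_max_right _ _).trans hR
  have hR0 : 0 < R := by linarith
  rcases le_or_gt ‖x‖ r₁ with hxr | hxr
  · refine le_trans ?_ (hbd x hxr).1
    have h1 : M / l₁ ≤ R ^ (N:ℝ) := by
      have h3 := Real.rpow_le_rpow (by positivity) hR2 hNpos.le
      rwa [← Real.rpow_mul (by positivity), one_div_mul_cancel hNpos.ne', Real.rpow_one] at h3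
    rw [div_le_iff₀ hl₁] at h1
    rw [Real.rpow_neg hR0.le]
    have h2 : 0 < R ^ (N:ℝ) := by positivity
    rw [mul_inv_le_iff₀ h2]
    linarith
  · have hx1 : 1 ≤ ‖x‖ := by linarith
    have hr : 0 < ‖x‖ := by linarith
    refine le_trans ?_ (hgain x hx1)
    have h1 : M / κ ≤ Real.log ‖x‖ := by
      have := Real.log_le_log hr₁0 hxr.le
      rwa [hr₁, Real.log_exp] at this
    have h2 : M ≤ κ * Real.log ‖x‖ := by
      rw [div_le_iff₀ hκ0] at h1
      linarith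
    have h3 : R ^ (-(N:ℝ)) ≤ ‖x‖ ^ (-(N:ℝ)) :=
      Real.rpow_le_rpow_of_nonpos hr hx (by linarith)
    have h4 : 0 < R ^ (-(N:ℝ)) := by positivity
    have h5 : 0 < ‖x‖ ^ (-(N:ℝ)) := by positivity
    calc M * R ^ (-(N:ℝ)) ≤ (κ * Real.log ‖x‖) * R ^ (-(N:ℝ)) := by gcongr
      _ ≤ (κ * Real.log ‖x‖) * ‖x‖ ^ (-(N:ℝ)) := by
        apply mul_le_mul_of_nonneg_left h3
        linarith
      _ = κ * (‖x‖ ^ (-(N:ℝ)) * Real.log ‖x‖) := by ring

end Vale.Agent.Lib.P100
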