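import Mathlib
import Vale.Agent.Lib.P100.Mitidieri

/-!
# The necessary conditions for existence
-/

namespace Vale.Agent.Lib.P100

open Set Filter Topology Real

variable {n N : ℕ} {p q A B : ℝ} {u v : Eu n → ℝ}

/-- The real-variable part of the recursion: the product of the exponents exceeds one. -/
theorem exponent_pq_gt_one {Su Sv : Set ℝ} {p q a b a₁ b₁ : ℝ} (hp : 0 < p) (hq : 0 < q)
    (ha : 0 < a) (hb : 0 < b) (hSu : ∀ s ∈ Su, 0 ≤ s) (hSv : ∀ t ∈ Sv, 0 ≤ t)
    (h1 : ∀ t ∈ Sv, p * t - a ∈ Su) (h2 : ∀ s ∈ Su, q * s - b ∈ Sv)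
    (ha₁ : a₁ ∈ Su) (hb₁ : b₁ ∈ Sv) : 1 < p * q := by
  have hbu : BddBelow Su := ⟨0, fun s hs => hSu s hs⟩
  have hbv : BddBelow Sv := ⟨0, fun s hs => hSv s hs⟩
  obtain ⟨s₀, hs₀⟩ : ∃ s₀, s₀ = sInf Su := ⟨_, rfl⟩
  obtain ⟨t₀, ht₀⟩ : ∃ t₀, t₀ = sInf Sv := ⟨_, rfl⟩
  have hs0 : 0 ≤ s₀ := by
    rw [hs₀]
    exact le_csInf ⟨a₁, ha₁⟩ hSu
  have h3 : s₀ ≤ p * t₀ - a := by
    have : (s₀ + a) / p ≤ t₀ := by
      rw [ht₀]
      apply le_csInf ⟨b₁, hb₁⟩
      intro t ht
      rw [div_le_iff₀ hp]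
      have : s₀ ≤ p * t - a := by rw [hs₀]; exact csInf_le hbu (h1 t ht)
      linarith
    rw [div_le_iff₀ hp] at this
    linarith
  have h4 : t₀ ≤ q * s₀ - b := by
    have : (t₀ + b) / q ≤ s₀ := by
      rw [hs₀]
      apply le_csInf ⟨a₁, ha₁⟩
      intro s hs
      rw [div_le_iff₀ hq]
      have : t₀ ≤ q * s - b := by rw [ht₀]; exact csInf_le hbv (h2 s hs)
      linarith
    rw [div_le_iff₀ hq] at this
    linarith
  by_contra hcon
  push Not at hcon
  have h5 : p * t₀ ≤ p * (q * s₀ - b) := by gcongr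
  have h6 : p * q * s₀ ≤ s₀ := by nlinarith
  have h7 : 0 < p * b := by positivity
  nlinarith

/-- The product of the exponents exceeds one. -/
theorem pq_gt_one (h : IsPositiveEntireSolution n p q A B u v) (hn : n = N + 2) (hN : 1 ≤ N)
    (hp : 0 < p) (hq : 0 < q) (hA : -2 < A) (hB : -2 < B) : 1 < p * q := by
  have hPu : PB u (N:ℝ) := PB_of_superharmonic hn hN h.continuous_u h.pos_u
    (fun _ hx => contDiffAt_u h hx) (fun _ hx => laplacian_u_neg h hx)
  have hPv : PB v (N:ℝ) := PB_of_superharmonic hn hN h.continuous_v h.pos_v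
    (fun _ hx => contDiffAt_v h hx) (fun _ hx => laplacian_u_neg h.swap hx)
  exact exponent_pq_gt_one (Su := {s | PB u s}) (Sv := {s | PB v s}) (a := 2 + A) (b := 2 + B)
    hp hq (by linarith) (by linarith)
    (fun s hs => PB.nonneg hs) (fun s hs => PB.nonneg hs)
    (fun t ht => PB_step h hn hN hp hA ht) (fun s hs => PB_step h.swap hn hN hq hB hs) hPu hPv

/-- The decay exponent is below the exponent of the fundamental solution. -/
theorem alpha_lt (h : IsPositiveEntireSolution n p q A B u v) (hn : n = N + 2) (hN : 1 ≤ N)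
    (hp : 0 < p) (hq : 0 < q) (hA : -2 < A) (hB : -2 < B) (hpq : 1 < p * q) {α : ℝ}
    (hα : α * (p * q - 1) = 2 + A + p * (2 + B)) : α < N := by
  by_contra hcon
  push Not at hcon
  rcases hcon.eq_or_lt with h1 | h1
  · rw [← h1] at hα
    exact no_solution_of_critical h hn hN hp hq hA hB hpq hα
  · have hPu : PB u (N:ℝ) := PB_of_superharmonic hn hN h.continuous_u h.pos_u
      (fun _ hx => contDiffAt_u h hx) (fun _ hx => laplacian_u_neg h hx)
    exact no_solution_of_PB h hn hN hp hq hA hB hpq hα h1 hPu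

/-- The region of moving spheres. -/
theorem alpha_beta_le (h : IsPositiveEntireSolution n p q A B u v) (hn : n = N + 2) (hN : 1 ≤ N)
    (hp : 0 < p) (hq : 0 < q) (hA : -2 < A) (hB : -2 < B) (hpq : 1 < p * q) {α β : ℝ}
    (hα : α * (p * q - 1) = 2 + A + p * (2 + B)) (hβ : β * (p * q - 1) = 2 + B + q * (2 + A)) :
    α ≤ (N:ℝ) / 2 ∨ β ≤ (N:ℝ) / 2 := by
  by_contra hcon
  push Not at hcon
  obtain ⟨h1, h2⟩ := hcon
  have hd : 0 < p * q - 1 := by linarith
  have hp1 : 0 < p + 1 := by linarith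
  have hq1 : 0 < q + 1 := by linarith
  obtain ⟨t, ht⟩ : ∃ t, t = min ((α - (N:ℝ) / 2) / (p + 1)) ((β - (N:ℝ) / 2) / (q + 1)) := ⟨_, rfl⟩
  have ht0 : 0 < t := by
    rw [ht]
    exact lt_min (div_pos (by linarith) hp1) (div_pos (by linarith) hq1)
  have ht1 : t * (p + 1) ≤ α - (N:ℝ) / 2 := by
    have : t ≤ (α - (N:ℝ) / 2) / (p + 1) := by rw [ht]; exact min_le_left _ _
    rwa [le_div_iff₀ hp1] at this
  have ht2 : t * (q + 1) ≤ β - (N:ℝ) / 2 := by
    have : t ≤ (β - (N:ℝ) / 2) / (q + 1) := by rw [ht]; exact min_le_right _ _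
    rwa [le_div_iff₀ hq1] at this
  -- the relations between the exponents
  have hr₁ : 2 + A + α - β * p = 0 := by
    have : (2 + A + α - β * p) * (p * q - 1) = 0 := by
      linear_combination hα - p * hβ
    rcases mul_eq_zero.1 this with h3 | h3
    · exact h3
    · exact absurd h3 hd.ne'
  have hr₂ : 2 + B + β - α * q = 0 := by
    have : (2 + B + β - α * q) * (p * q - 1) = 0 := by
      linear_combination hβ - q * hα
    rcases mul_eq_zero.1 this with h3 | h3
    · exact h3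
    · exact absurd h3 hd.ne'
  have hk₁ : kapr (α - t * (p + 1)) (β - t * (q + 1)) p A = t * (p * q - 1) := by
    rw [kapr]
    linear_combination hr₁
  have hk₂ : kapr (β - t * (q + 1)) (α - t * (p + 1)) q B = t * (p * q - 1) := by
    rw [kapr]
    linear_combination hr₂
  have hpos : 0 < t * (p * q - 1) := by positivity
  exact no_solution_exps (a₁ := α - t * (p + 1)) (b₁ := β - t * (q + 1)) h hn hN hp hq hA hB
    (by linarith) (by linarith) (by rw [hk₁]; exact hpos.le) (by rw [hk₂]; exact hpos.le)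
    (Or.inl (by rw [hk₁]; exact hpos))

/-- Necessary conditions for the existence of a positive entire solution. -/
theorem necessary_conditions (hn : 2 ≤ n) (hp : 0 < p) (hq : 0 < q)
    (h : IsPositiveEntireSolution n p q A B u v) :
    3 ≤ n ∧ -2 < A ∧ -2 < B ∧ 1 < p * q ∧
      (2 + A + p * (2 + B)) / (p * q - 1) < (n:ℝ) - 2 ∧
      (2 + B + q * (2 + A)) / (p * q - 1) < (n:ℝ) - 2 ∧
      ((2 + A + p * (2 + B)) / (p * q - 1) ≤ ((n:ℝ) - 2) / 2 ∨
        (2 + B + q * (2 + A)) / (p * q - 1) ≤ ((n:ℝ) - 2) / 2) := by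
  obtain ⟨N, rfl⟩ : ∃ N, n = N + 2 := ⟨n - 2, by omega⟩
  rcases Nat.eq_zero_or_pos N with rfl | hN
  · exact (no_solution_dim_two h).elim
  have hcast : (((N + 2 : ℕ) : ℝ)) - 2 = (N:ℝ) := by push_cast; ring
  rw [hcast]
  have hA : -2 < A := by
    by_contra hA
    push Not at hA
    exact no_solution_of_low_weight h rfl hN hp hA
  have hB : -2 < B := by
    by_contra hB
    push Not at hB
    exact no_solution_of_low_weight h.swap rfl hN hq hB
  have hpq := pq_gt_one h rfl hN hp hq hA hB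
  have hd : p * q - 1 ≠ 0 := by
    have : 0 < p * q - 1 := by linarith
    exact this.ne'
  have hα : (2 + A + p * (2 + B)) / (p * q - 1) * (p * q - 1) = 2 + A + p * (2 + B) :=
    div_mul_cancel₀ _ hd
  have hβ : (2 + B + q * (2 + A)) / (p * q - 1) * (p * q - 1) = 2 + B + q * (2 + A) :=
    div_mul_cancel₀ _ hd
  refine ⟨by omega, hA, hB, hpq, alpha_lt h rfl hN hp hq hA hB hpq hα, ?_,
    alpha_beta_le h rfl hN hp hq hA hB hpq hα hβ⟩
  have hβ' : (2 + B + q * (2 + A)) / (p * q - 1) * (q * p - 1) = 2 + B + q * (2 + A) := by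
    rw [mul_comm q p]
    exact hβ
  exact alpha_lt h.swap rfl hN hq hp hB hA (by rw [mul_comm]; exact hpq) hβ'

end Vale.Agent.Lib.P100
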